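import Crest.Agent.R191.Graph

/-! Row 191, part I: gluing new cells along non-closed arcs. -/

set_option autoImplicit false

open MeasureTheory

noncomputable section

namespace Crest.Agent.R191

variable {Γ : Type} [Group Γ] {P : Pres Γ} {S : Sp Γ}

namespace AddC

/-- the edge under position `k` of a cell -/
def eI {J : Type} (i : P.ι) (τ : ZMod P.l → J) (k : ZMod P.l) : Option P.ι × J × J :=
  ((P.R i k).1, cond (P.R i k).2 (τ k, τ (k + 1)) (τ (k + 1), τ k))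

/-- the position of the source of the edge under position `k` -/
def eG (i : P.ι) (k : ZMod P.l) : Γ := cond (P.R i k).2 (P.pre i k) (P.pre i (k + 1))

theorem strR_cell {J : Type} {E : Option P.ι → J → J → S.X → Prop} {i : P.ι} {τ : ZMod P.l → J}
    {x : S.X} {k : ZMod P.l}
    (h : E (eI i τ k).1 (eI i τ k).2.1 (eI i τ k).2.2 ((eG i k)⁻¹ • x)) :
    StR P E (P.R i k) (vx P i τ x k) (vx P i τ x (k + 1)) := by
  refine ⟨vx_snd_succ i τ x k, ?_⟩
  unfold eI eG at h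
  cases hb : (P.R i k).2 <;> rw [hb] at h <;> exact h

theorem ends {J : Type} {V : J → S.X → Prop} {i : P.ι} {τ : ZMod P.l → J} {y : S.X}
    {k : ZMod P.l} (h : ∀ k', V (τ k') ((P.pre i k')⁻¹ • eG i k • y)) :
    V (eI i τ k).2.1 y ∧ V (eI i τ k).2.2 ((P.val (eI i τ k).1)⁻¹ • y) := by
  have h1 := h k
  have h2 := h (k + 1)
  have h3 := P.pre_succ i k
  unfold eI
  unfold eG at h1 h2
  rcases hR : P.R i k with ⟨s, b⟩
  rw [hR] at h1 h2 h3
  cases b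
  · simp only [cond_false, inv_smul_smul] at h1 h2 ⊢
    rw [h3, lv_false, mul_smul, inv_smul_smul] at h1
    exact ⟨h2, h1⟩
  · simp only [cond_true, inv_smul_smul] at h1 h2 ⊢
    rw [h3, lv_true, mul_inv_rev, mul_smul, inv_smul_smul] at h2
    exact ⟨h1, h2⟩

theorem val_add_sub (u : ZMod P.l) {n : ℕ} (hn : n < P.l) : (u + (n : ZMod P.l) - u).val = n := by
  rw [add_sub_cancel_left, ZMod.val_cast_of_lt hn]

section

variable (Y : SG P S) (i : P.ι) (u : ZMod P.l) (PL : Y.J → S.X → Prop)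

/-- the new cell over `x` that starts at `j` -/
def Nj (j : Y.J) (τ : ZMod P.l → Y.J ⊕ Y.J × ZMod P.l) (x : S.X) : Prop :=
  PL j ((P.pre i u)⁻¹ • x) ∧
    (∀ n : ℕ, n ≤ P.l - P.c → ∃ j', τ (u + (n : ZMod P.l)) = Sum.inl j' ∧
      Y.Path (arcW P.R n i u) (j, (P.pre i u)⁻¹ • x) (j', (P.pre i (u + (n : ZMod P.l)))⁻¹ • x)) ∧
    ∀ n : ℕ, P.l - P.c < n → n < P.l →
      τ (u + (n : ZMod P.l)) = Sum.inr (j, u + (n : ZMod P.l))

/-- the new cells -/
def NN (τ : ZMod P.l → Y.J ⊕ Y.J × ZMod P.l) (x : S.X) : Prop := ∃ j, Nj Y i u PL j τ x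

/-- the vertices -/
def VV : Y.J ⊕ Y.J × ZMod P.l → S.X → Prop
  | .inl j => Y.V j
  | .inr t => fun y => P.l - P.c < (t.2 - u).val ∧ PL t.1 ((P.pre i u)⁻¹ • P.pre i t.2 • y)

/-- the positions of the new edges -/
def ps (n : Fin P.c) : ZMod P.l := u + ((P.l - P.c + n : ℕ) : ZMod P.l)

/-- the edges -/
def EE (s : Option P.ι) (j₁ j₂ : Y.J ⊕ Y.J × ZMod P.l) (y : S.X) : Prop :=
  (∃ k₁ k₂, j₁ = Sum.inl k₁ ∧ j₂ = Sum.inl k₂ ∧ Y.E s k₁ k₂ y) ∨
    ∃ (τ : ZMod P.l → Y.J ⊕ Y.J × ZMod P.l) (n : Fin P.c),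
      eI i τ (ps u n) = (s, j₁, j₂) ∧ NN Y i u PL τ (eG i (ps u n) • y)

/-- the cells -/
def CC (i' : P.ι) (τ' : ZMod P.l → Y.J ⊕ Y.J × ZMod P.l) (x : S.X) : Prop :=
  (∃ τ, τ' = Sum.inl ∘ τ ∧ Y.C i' τ x) ∨ (i' = i ∧ NN Y i u PL τ' x)

variable {Y i u PL}

theorem meas_NN (hm : ∀ j, Measurable (PL j)) (τ : ZMod P.l → Y.J ⊕ Y.J × ZMod P.l) :
    Measurable (NN Y i u PL τ) :=
  Measurable.exists fun j => (S.meas_comp (hm j) _).and
    ((Measurable.forall fun _ => measurable_const.imp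
      (Measurable.exists fun _ => measurable_const.and (Y.meas_path _ _ _ _ _))).and
      measurable_const)

theorem Nj.start {j : Y.J} {τ : ZMod P.l → Y.J ⊕ Y.J × ZMod P.l} {x : S.X}
    (h : Nj Y i u PL j τ x) : τ u = Sum.inl j := by
  obtain ⟨j', h1, h2⟩ := h.2.1 0 (Nat.zero_le _)
  rw [Nat.cast_zero, add_zero] at h1
  rw [h1, show j = j' from congrArg Prod.fst ((Y.path_nil _ _).1 h2)]

theorem Nj.unique (hF : Y.Folded) {j : Y.J} {τ τ' : ZMod P.l → Y.J ⊕ Y.J × ZMod P.l} {x : S.X}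
    (h : Nj Y i u PL j τ x) (h' : Nj Y i u PL j τ' x) : τ = τ' := by
  funext k
  obtain ⟨n, hn, rfl⟩ := P.exists_add_cast u k
  rcases le_or_gt n (P.l - P.c) with hle | hlt
  · obtain ⟨j₁, e₁, p₁⟩ := h.2.1 n hle
    obtain ⟨j₂, e₂, p₂⟩ := h'.2.1 n hle
    rw [e₁, e₂, show j₁ = j₂ from congrArg Prod.fst (p₁.unique hF p₂)]
  · rw [h.2.2 n hlt hn, h'.2.2 n hlt hn]

theorem exists_Nj (h1 : ∀ j y, PL j y → ∃ q, Y.Path (arcW P.R (P.l - P.c) i u) (j, y) q)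
    {j : Y.J} {x : S.X} (h : PL j ((P.pre i u)⁻¹ • x)) : ∃ τ, Nj Y i u PL j τ x := by
  obtain ⟨q, hq⟩ := h1 j _ h
  have key : ∀ n : ℕ, n ≤ P.l - P.c → ∃ j', Y.Path (arcW P.R n i u) (j, (P.pre i u)⁻¹ • x)
      (j', (P.pre i (u + (n : ZMod P.l)))⁻¹ • x) := by
    intro n hn
    rw [← Nat.add_sub_cancel' hn, arcW_add, SG.path_append] at hq
    obtain ⟨⟨j', y⟩, hm, -⟩ := hq
    refine ⟨j', ?_⟩
    have := hm.pos
    simp only at this
    rwa [P.pre_add, mul_inv_rev, mul_smul, ← this]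
  have : Nonempty Y.J := ⟨j⟩
  choose! jn hjn using key
  refine ⟨fun k => if (k - u).val ≤ P.l - P.c then Sum.inl (jn (k - u).val) else Sum.inr (j, k),
    h, fun n hn => ⟨jn n, ?_, hjn n hn⟩, fun n hn hn' => ?_⟩
  · have := P.two_le_c
    have := P.five_le_l
    simp only [val_add_sub u (show n < P.l by omega), if_pos hn]
  · simp only [val_add_sub u hn', if_neg (not_le.2 hn)]

theorem V_of_PL (h1 : ∀ j y, PL j y → ∃ q, Y.Path (arcW P.R (P.l - P.c) i u) (j, y) q)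
    {j : Y.J} {y : S.X} (h : PL j y) : Y.V j y := by
  obtain ⟨q, hq⟩ := h1 j y h
  have := P.two_c_lt
  rw [show P.l - P.c = P.l - P.c - 1 + 1 by omega, arcW_succ', SG.path_cons] at hq
  obtain ⟨m, hm, -⟩ := hq
  exact hm.left

theorem NN.V (h1 : ∀ j y, PL j y → ∃ q, Y.Path (arcW P.R (P.l - P.c) i u) (j, y) q)
    {τ : ZMod P.l → Y.J ⊕ Y.J × ZMod P.l} {x : S.X} (h : NN Y i u PL τ x) (k : ZMod P.l) :
    VV Y i u PL (τ k) ((P.pre i k)⁻¹ • x) := by
  obtain ⟨j, h⟩ := h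
  obtain ⟨n, hn, rfl⟩ := P.exists_add_cast u k
  rcases le_or_gt n (P.l - P.c) with hle | hlt
  · obtain ⟨j₁, e₁, p₁⟩ := h.2.1 n hle
    rw [e₁]
    exact p₁.right (V_of_PL h1 h.1)
  · rw [h.2.2 n hlt hn]
    refine ⟨by rwa [val_add_sub u hn], ?_⟩
    rw [smul_inv_smul]
    exact h.1

theorem strR_old {σ : Option P.ι × Bool} {p q : Y.J × S.X} (h : Y.St σ p q) :
    StR P (EE Y i u PL) σ (Sum.inl p.1, p.2) (Sum.inl q.1, q.2) :=
  StR.map (fun _ j => Sum.inl j) (fun _ j j' _ h => Or.inl ⟨j, j', rfl, rfl, h⟩) h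

theorem NN.st (hF : Y.Folded) {τ : ZMod P.l → Y.J ⊕ Y.J × ZMod P.l} {x : S.X}
    (h : NN Y i u PL τ x) (k : ZMod P.l) :
    StR P (EE Y i u PL) (P.R i k) (vx P i τ x k) (vx P i τ x (k + 1)) := by
  obtain ⟨n, hn, rfl⟩ := P.exists_add_cast u k
  rcases lt_or_ge n (P.l - P.c) with hlt | hle
  · obtain ⟨j, h⟩ := h
    obtain ⟨j₁, e₁, p₁⟩ := h.2.1 n hlt.le
    obtain ⟨j₂, e₂, p₂⟩ := h.2.1 (n + 1) hlt
    rw [Nat.cast_succ, ← add_assoc] at e₂ p₂
    rw [arcW_succ, SG.path_append] at p₂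
    obtain ⟨m, p₃, p₄⟩ := p₂
    obtain rfl := p₁.unique hF p₃
    have := strR_old (i := i) (u := u) (PL := PL) ((Y.path_single _ _ _).1 p₄)
    unfold vx
    rw [e₁, e₂]
    exact this
  · have hk : ps u ⟨n - (P.l - P.c), by omega⟩ = u + (n : ZMod P.l) := by
      rw [ps, Nat.add_sub_cancel' hle]
    refine strR_cell (Or.inr ⟨τ, ⟨n - (P.l - P.c), by omega⟩, by rw [hk], ?_⟩)
    rwa [hk, smul_inv_smul]

variable (Y i u PL)

/-- the graph with the new cells -/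
def addSG (hF : Y.Folded) (hm : ∀ j, Measurable (PL j))
    (h1 : ∀ j y, PL j y → ∃ q, Y.Path (arcW P.R (P.l - P.c) i u) (j, y) q) : SG P S where
  J := Y.J ⊕ Y.J × ZMod P.l
  V := VV Y i u PL
  E := EE Y i u PL
  C := CC Y i u PL
  mV := by
    rintro (j | t)
    · exact Y.mV j
    · exact measurable_const.and (S.meas_comp (S.meas_comp (hm _) _) _)
  mE s j j' :=
    (Measurable.exists fun _ => Measurable.exists fun _ =>
      measurable_const.and (measurable_const.and (Y.mE _ _ _))).or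
      (Measurable.exists fun _ => Measurable.exists fun _ =>
        measurable_const.and (S.meas_comp (meas_NN hm _) _))
  mC i' τ := (Measurable.exists fun _ => measurable_const.and (Y.mC _ _)).or
    (measurable_const.and (meas_NN hm _))
  EV1 := by
    rintro s j j' x (⟨k₁, k₂, rfl, rfl, h⟩ | ⟨τ, n, he, h⟩)
    · exact Y.EV1 _ _ _ _ h
    · have := (ends (V := VV Y i u PL) (h.V h1)).1
      rwa [he] at this
  EV2 := by
    rintro s j j' x (⟨k₁, k₂, rfl, rfl, h⟩ | ⟨τ, n, he, h⟩)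
    · exact Y.EV2 _ _ _ _ h
    · have := (ends (V := VV Y i u PL) (h.V h1)).2
      rwa [he] at this
  CE := by
    rintro i' τ' x (⟨τ, rfl, h⟩ | ⟨rfl, h⟩) k
    · exact strR_old (SG.cell_st h k)
    · exact h.st hF k

variable {Y i u PL}

theorem old_new (hF : Y.Folded) (h2 : ∀ j y, PL j y → ∀ τ, Y.C i τ (P.pre i u • y) → τ u ≠ j)
    {τ : ZMod P.l → Y.J} {τ' : ZMod P.l → Y.J ⊕ Y.J × ZMod P.l} {x : S.X} (h : Y.C i τ x)
    (h' : NN Y i u PL τ' x) (k : ZMod P.l) : Sum.inl (τ k) ≠ τ' k := by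
  obtain ⟨j, h'⟩ := h'
  obtain ⟨n, hn, rfl⟩ := P.exists_add_cast u k
  intro hk
  rcases le_or_gt n (P.l - P.c) with hle | hlt
  · obtain ⟨j₁, e₁, p₁⟩ := h'.2.1 n hle
    rw [e₁] at hk
    obtain rfl := Sum.inl_injective hk
    have := (SG.cell_path h u n).unique_left hF p₁
    exact h2 j _ h'.1 τ (by rwa [smul_inv_smul]) (congrArg Prod.fst this)
  · rw [h'.2.2 n hlt hn] at hk
    exact Sum.inl_ne_inr hk

theorem new_new (hF : Y.Folded) {τ τ' : ZMod P.l → Y.J ⊕ Y.J × ZMod P.l} {x : S.X}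
    (h : NN Y i u PL τ x) (h' : NN Y i u PL τ' x) {k : ZMod P.l} (hk : τ k = τ' k) : τ = τ' := by
  obtain ⟨j, h⟩ := h
  obtain ⟨j', h'⟩ := h'
  obtain rfl : j = j' := by
    obtain ⟨n, hn, rfl⟩ := P.exists_add_cast u k
    rcases le_or_gt n (P.l - P.c) with hle | hlt
    · obtain ⟨j₁, e₁, p₁⟩ := h.2.1 n hle
      obtain ⟨j₂, e₂, p₂⟩ := h'.2.1 n hle
      rw [e₁, e₂] at hk
      obtain rfl := Sum.inl_injective hk
      exact congrArg Prod.fst (p₁.unique_left hF p₂)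
    · rw [h.2.2 n hlt hn, h'.2.2 n hlt hn] at hk
      exact congrArg Prod.fst (Sum.inr_injective hk)
  exact h.unique hF h'

theorem cnt_NN (hF : Y.Folded) (hm : ∀ j, Measurable (PL j))
    (h1 : ∀ j y, PL j y → ∃ q, Y.Path (arcW P.R (P.l - P.c) i u) (j, y) q) :
    S.cnt (NN Y i u PL) = S.cnt PL := by
  refine le_antisymm ?_ ?_
  · refine S.cnt_le_of_inj (meas_NN hm) (fun τ => Sum.elim id Prod.fst (τ u))
      (fun _ => (P.pre i u)⁻¹) ?_ ?_
    · rintro τ x ⟨j, h⟩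
      simp only [h.start]
      exact h.1
    · rintro τ τ' x x' ⟨j, h⟩ ⟨j', h'⟩ e₁ e₂
      obtain rfl := smul_left_cancel _ e₂
      simp only [h.start, h'.start, Sum.elim_inl, id] at e₁
      subst e₁
      exact h.unique hF h'
  · rw [← S.cnt_shift PL fun _ => (P.pre i u)⁻¹]
    refine S.cnt_le_of_cover (fun τ => Sum.elim id Prod.fst (τ u)) fun j x h => ?_
    obtain ⟨τ, hτ⟩ := exists_Nj h1 h
    exact ⟨τ, by simp only [hτ.start, Sum.elim_inl, id], j, hτ⟩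

end

end AddC

open AddC

theorem addStmt : AddStmt := by
  intro Γ _ P S Y hF hC hv i u PL hm h1 h2
  have hc2 := P.two_le_c
  have hcl := P.two_c_lt
  have hN := cnt_NN hF hm h1
  have hst : ∀ σ p q, Y.St σ p q →
      (addSG Y i u PL hF hm h1).St σ (Sum.inl p.1, p.2) (Sum.inl q.1, q.2) :=
    fun σ p q h => strR_old h
  have hcell : ∀ {τ x}, NN Y i u PL τ x → (addSG Y i u PL hF hm h1).C i τ x :=
    fun h => Or.inr ⟨rfl, h⟩
  -- vertices
  have cv : Y.v + (P.c - 1 : ℕ) * S.cnt PL ≤ (addSG Y i u PL hF hm h1).v := by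
    change _ ≤ S.cnt (VV Y i u PL)
    rw [S.cnt_sum]
    refine add_le_add le_rfl ?_
    have e := S.cnt_prod_const (D := Fin (P.c - 1)) PL
    rw [Fintype.card_fin] at e
    rw [← e]
    refine S.cnt_le_of_inj (fun t => hm t.1)
      (fun t => (t.1, u + ((P.l - P.c + 1 + t.2 : ℕ) : ZMod P.l)))
      (fun t => (P.pre i (u + ((P.l - P.c + 1 + t.2 : ℕ) : ZMod P.l)))⁻¹ * P.pre i u) ?_ ?_
    · rintro ⟨j, n⟩ x h
      refine ⟨?_, ?_⟩
      · rw [val_add_sub u (by omega)]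
        omega
      · rwa [mul_smul, smul_inv_smul, inv_smul_smul]
    · rintro ⟨j, n⟩ ⟨j', n'⟩ x x' - - e₁ -
      obtain ⟨rfl, e₂⟩ := Prod.ext_iff.1 e₁
      have := P.add_cast_inj u (by omega) (by omega) e₂
      simp only at this
      rw [show n = n' from Fin.ext (by omega)]
  -- edges
  have ce : (addSG Y i u PL hF hm h1).e ≤ Y.e + P.c * S.cnt PL := by
    refine (S.cnt_le_of_cover
      (D := (Option P.ι × Y.J × Y.J) ⊕ ((ZMod P.l → Y.J ⊕ Y.J × ZMod P.l) × Fin P.c))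
      (T := Sum.elim (fun t => Y.E t.1 t.2.1 t.2.2)
        fun t y => NN Y i u PL t.1 (eG i (ps u t.2) • y))
      (Sum.elim (fun t => (t.1, Sum.inl t.2.1, Sum.inl t.2.2)) fun t => eI i t.1 (ps u t.2))
      ?_).trans (le_of_eq ?_)
    · rintro ⟨s, j₁, j₂⟩ x (⟨k₁, k₂, rfl, rfl, h⟩ | ⟨τ, n, he, h⟩)
      · exact ⟨Sum.inl (s, k₁, k₂), rfl, h⟩
      · exact ⟨Sum.inr (τ, n), he, h⟩
    · rw [S.cnt_sum]
      congr 1
      have e := S.cnt_prod_const (D := Fin P.c) (NN Y i u PL)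
      rw [Fintype.card_fin, hN] at e
      rw [← e]
      exact S.cnt_shift (fun t : (ZMod P.l → Y.J ⊕ Y.J × ZMod P.l) × Fin P.c => NN Y i u PL t.1)
        fun t => eG i (ps u t.2)
  -- cells
  have cf : (addSG Y i u PL hF hm h1).f = Y.f + S.cnt PL := by
    have e := S.cnt_sum (K := P.ι × (ZMod P.l → Y.J)) (K' := ZMod P.l → Y.J ⊕ Y.J × ZMod P.l)
      (Sum.elim (fun t => Y.C t.1 t.2) (NN Y i u PL))
    rw [← hN]
    refine Eq.trans (le_antisymm ?_ ?_) e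
    · refine S.cnt_le_of_cover (Sum.elim (fun t => (t.1, Sum.inl ∘ t.2)) fun τ => (i, τ)) ?_
      rintro ⟨i', τ'⟩ x (⟨τ, rfl, h⟩ | ⟨e', h⟩)
      · exact ⟨Sum.inl (i', τ), rfl, h⟩
      · exact ⟨Sum.inr τ', Prod.ext e'.symm rfl, h⟩
    · refine S.cnt_le_of_inj ?_ (Sum.elim (fun t => (t.1, Sum.inl ∘ t.2)) fun τ => (i, τ))
        (fun _ => 1) ?_ ?_
      · rintro (t | τ)
        exacts [Y.mC _ _, meas_NN hm _]
      · rintro (t | τ) x h <;> rw [one_smul]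
        exacts [Or.inl ⟨t.2, rfl, h⟩, Or.inr ⟨rfl, h⟩]
      · have hne : ∀ (τ : ZMod P.l → Y.J) τ' x, NN Y i u PL τ' x → Sum.inl ∘ τ ≠ τ' := by
          rintro τ τ' x ⟨j, h⟩ rfl
          exact Sum.inl_ne_inr (h.2.2 (P.l - P.c + 1) (by omega) (by omega))
        rintro (⟨i₁, τ⟩ | τ) (⟨i₂, τ'⟩ | τ') x x' h h' e₁ -
        · obtain ⟨e₃, e₂⟩ := Prod.ext_iff.1 e₁
          rw [show τ = τ' from funext fun k => Sum.inl_injective (congrFun e₂ k),
            show i₁ = i₂ from e₃]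
        · exact absurd (Prod.ext_iff.1 e₁).2 (hne _ _ _ h')
        · exact absurd (Prod.ext_iff.1 e₁).2.symm (hne _ _ _ h)
        · rw [show τ = τ' from (Prod.ext_iff.1 e₁).2]
  have hη := S.cnt_nonneg PL
  rw [Nat.cast_sub (by omega), Nat.cast_one] at cv
  have hc1 : (0 : ℝ) ≤ (P.c - 1) * S.cnt PL := by
    refine mul_nonneg ?_ hη
    have : (2 : ℝ) ≤ P.c := by exact_mod_cast hc2
    linarith
  refine ⟨addSG Y i u PL hF hm h1, Sum.inl, ?_, ?_, by linarith, cf.le, ?_, ?_,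
    fun j x h => h, hst, fun j y q hj hq => ?_⟩
  · have key : ∀ p : (addSG Y i u PL hF hm h1).J × S.X, (addSG Y i u PL hF hm h1).V p.1 p.2 →
        ∃ (j : Y.J) (g : Γ), Y.V j (g • p.2) ∧
          (addSG Y i u PL hF hm h1).Reach (Sum.inl j, g • p.2) p := by
      rintro ⟨j | ⟨j, k⟩, y⟩ hp
      · exact ⟨j, 1, by rwa [one_smul], by rw [one_smul]; exact SG.Reach.refl _⟩
      · obtain ⟨τ, hτ⟩ := exists_Nj h1 hp.2
        obtain ⟨n, hn, rfl⟩ := P.exists_add_cast u k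
        have hlt := hp.1
        rw [val_add_sub u hn] at hlt
        refine ⟨j, (P.pre i u)⁻¹ * P.pre i (u + (n : ZMod P.l)), ?_, arcW P.R n i u, ?_⟩
        · rw [mul_smul]
          exact V_of_PL h1 hp.2
        · have := SG.cell_path (hcell ⟨j, hτ⟩) u n
          unfold vx at this
          rwa [hτ.start, hτ.2.2 n hlt hn, inv_smul_smul, ← mul_smul] at this
    rintro p q hp hq ⟨g, hg⟩
    obtain ⟨j, a, hj, r⟩ := key p hp
    obtain ⟨j', a', hj', r'⟩ := key q hq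
    obtain ⟨W, hW⟩ := hC (j, a • p.2) (j', a' • q.2) hj hj'
      ⟨a' * g * a⁻¹, by simp only [hg, mul_smul, inv_smul_smul]⟩
    exact (r.symm.trans ⟨W, hW.map (Y' := addSG Y i u PL hF hm h1) (fun p => (Sum.inl p.1, p.2)) hst⟩).trans r'
  · rintro i' τ₁ τ₂ x k (⟨τ, rfl, h⟩ | ⟨rfl, h⟩) (⟨τ', rfl, h'⟩ | ⟨e, h'⟩) e₁ e₂
    · rw [hF.ed i' τ τ' x k h h' (Sum.inl_injective e₁) (Sum.inl_injective e₂)]
    · subst e
      exact absurd e₁ (old_new hF h2 h h' k)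
    · exact absurd e₁.symm (old_new hF h2 h' h k)
    · exact new_new hF h h' e₁
  · unfold SG.chi
    rw [cf]
    linarith
  · unfold SG.psi
    rw [cf]
    linarith
  · obtain ⟨τ, hτ⟩ := exists_Nj (x := P.pre i u • y) h1 (j := j) (by rwa [inv_smul_smul])
    obtain ⟨j', e₁, p₁⟩ := hτ.2.1 _ le_rfl
    rw [inv_smul_smul] at p₁
    obtain rfl := p₁.unique hF hq
    have := (SG.cell_path (hcell ⟨j, hτ⟩) (u + ((P.l - P.c : ℕ) : ZMod P.l)) P.c).symm
    rw [add_assoc, ← Nat.cast_add, Nat.sub_add_cancel (by omega), ZMod.natCast_self,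
      add_zero] at this
    unfold vx at this
    rw [hτ.start, e₁, inv_smul_smul] at this
    exact ⟨_, by rw [FreeGroup.invRev_length, length_arcW], this⟩

end Crest.Agent.R191
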