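import Crest.Agent.R191.Defs

/-! Row 191: basic API (words, counting, steps and paths). -/

set_option autoImplicit false

open MeasureTheory

noncomputable section

namespace Crest.Agent.R191

/-! ### Words -/

section words
variable {S Γ : Type} [Group Γ] (val : S → Γ)

@[simp] theorem sinv_sinv (σ : S × Bool) : sinv (sinv σ) = σ := by simp [sinv]

theorem sinv_injective : Function.Injective (sinv : S × Bool → S × Bool) :=
  Function.LeftInverse.injective sinv_sinv

theorem sinv_ne (σ : S × Bool) : sinv σ ≠ σ := by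
  rcases σ with ⟨s, b⟩
  cases b <;> simp [sinv]

@[simp] theorem sinv_fst (σ : S × Bool) : (sinv σ).1 = σ.1 := rfl

@[simp] theorem lv_true (s : S) : lv val (s, true) = val s := rfl
@[simp] theorem lv_false (s : S) : lv val (s, false) = (val s)⁻¹ := rfl

@[simp] theorem lv_sinv (σ : S × Bool) : lv val (sinv σ) = (lv val σ)⁻¹ := by
  rcases σ with ⟨s, b⟩
  cases b <;> simp [sinv]

@[simp] theorem wv_nil : wv val [] = 1 := rfl

@[simp] theorem wv_cons (σ : S × Bool) (W : List (S × Bool)) :
    wv val (σ :: W) = lv val σ * wv val W := by simp [wv]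

@[simp] theorem wv_append (W W' : List (S × Bool)) :
    wv val (W ++ W') = wv val W * wv val W' := by simp [wv]

theorem invRev_cons' (σ : S × Bool) (W : List (S × Bool)) :
    FreeGroup.invRev (σ :: W) = FreeGroup.invRev W ++ [sinv σ] := by
  simp [FreeGroup.invRev, sinv]

@[simp] theorem wv_invRev (W : List (S × Bool)) :
    wv val (FreeGroup.invRev W) = (wv val W)⁻¹ := by
  induction W with
  | nil => simp [FreeGroup.invRev]
  | cons σ W ih => rw [invRev_cons']; simp [ih]

theorem wv_eq_lift (W : List (S × Bool)) : wv val W = FreeGroup.lift val (FreeGroup.mk W) := by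
  rw [FreeGroup.lift_mk]; rfl

theorem wv_replicate (σ : S × Bool) (n : ℕ) : wv val (List.replicate n σ) = lv val σ ^ n := by
  simp [wv]

end words

theorem wv_gam {ι Γ : Type} [Group Γ] (val : Option ι → Γ) (a0 i : ι) (m n : ℕ) :
    wv val (gam a0 i m n) = val (some a0) ^ m * val (some i) * val (some a0) ^ n := by
  simp [gam, wv_replicate, mul_assoc]

section arc
variable {ι S : Type} {l : ℕ} (R : ι → ZMod l → S)

@[simp] theorem arcW_zero (i : ι) (u : ZMod l) : arcW R 0 i u = [] := rfl

@[simp] theorem length_arcW (len : ℕ) (i : ι) (u : ZMod l) : (arcW R len i u).length = len := by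
  simp [arcW]

theorem arcW_succ (len : ℕ) (i : ι) (u : ZMod l) :
    arcW R (len + 1) i u = arcW R len i u ++ [R i (u + (len : ZMod l))] := by
  simp [arcW, List.range_succ]

theorem arcW_succ' (len : ℕ) (i : ι) (u : ZMod l) :
    arcW R (len + 1) i u = R i u :: arcW R len i (u + 1) := by
  induction len with
  | zero => simp [arcW]
  | succ n ih =>
    rw [arcW_succ, ih, arcW_succ]
    simp only [Nat.cast_succ, List.cons_append]
    congr 4
    ring

theorem arcW_add (m n : ℕ) (i : ι) (u : ZMod l) :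
    arcW R (m + n) i u = arcW R m i u ++ arcW R n i (u + (m : ZMod l)) := by
  induction n with
  | zero => simp
  | succ n ih => rw [← add_assoc, arcW_succ, ih, arcW_succ]; simp [add_assoc]

end arc

section pres
variable {Γ : Type} [Group Γ] (P : Pres Γ)

include P in
theorem Pres.countable : Countable Γ :=
  Function.Surjective.countable (f := wv P.val) P.gen

include P in
theorem Pres.fg : Group.FG Γ := by
  classical
  refine ⟨⟨Finset.univ.image P.val, ?_⟩⟩
  rw [eq_top_iff]
  intro g _
  obtain ⟨W, rfl⟩ := P.gen g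
  induction W with
  | nil => simp
  | cons σ W ih =>
    rw [wv_cons]
    refine Subgroup.mul_mem _ ?_ (ih trivial)
    have h : P.val σ.1 ∈ Subgroup.closure (↑(Finset.univ.image P.val) : Set Γ) :=
      Subgroup.subset_closure (by simp)
    rcases σ with ⟨s, b⟩
    cases b
    · exact Subgroup.inv_mem _ h
    · exact h

theorem Pres.not_isOfFinOrder (i : P.ι) : ¬ IsOfFinOrder (P.val (some i)) := by
  intro h
  have h1 : P.val (some i) = FreeGroup.lift (fun i => P.val (some i)) (FreeGroup.of i) := by simp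
  rw [h1, P.free.isOfFinOrder_iff] at h
  exact FreeGroup.of_ne_one i ((isOfFinOrder_iff_eq_one _).1 h)

theorem Pres.card_pos : 0 < Fintype.card P.ι := Fintype.card_pos_iff.2 ⟨P.a0⟩

theorem Pres.aa_pos : 0 < P.aa := by unfold Pres.aa; positivity

theorem Pres.five_le_l : 5 ≤ P.l := by have := P.two_le_c; have := P.two_c_lt; omega

theorem Pres.R_ne (i : P.ι) (k : ZMod P.l) : P.R i (k + 1) ≠ sinv (P.R i k) := fun h =>
  P.norev i k i k (by rw [h, sinv_sinv]) h

theorem Pres.pre_add (i : P.ι) (u : ZMod P.l) (n : ℕ) :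
    P.pre i (u + (n : ZMod P.l)) = P.pre i u * wv P.val (arcW P.R n i u) := by
  induction n with
  | zero => simp
  | succ n ih => rw [arcW_succ, Nat.cast_succ, ← add_assoc, P.pre_succ, ih]; simp [mul_assoc]

/-- `n ↦ u + n` is injective below `l` -/
theorem Pres.add_cast_inj (u : ZMod P.l) {m n : ℕ} (hm : m < P.l) (hn : n < P.l)
    (h : u + (m : ZMod P.l) = u + (n : ZMod P.l)) : m = n := by
  have h1 := add_left_cancel h
  have h2 := congrArg ZMod.val h1
  rwa [ZMod.val_cast_of_lt hm, ZMod.val_cast_of_lt hn] at h2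

theorem Pres.exists_add_cast (u k : ZMod P.l) : ∃ n : ℕ, n < P.l ∧ k = u + (n : ZMod P.l) :=
  ⟨(k - u).val, ZMod.val_lt _, by simp⟩

theorem Pres.succ_ne (k : ZMod P.l) : k + 1 ≠ k := by
  intro h
  have h5 := P.five_le_l
  have := P.add_cast_inj k (m := 1) (n := 0) (by omega) (by omega) (by simpa using h)
  omega

end pres

/-! ### Counting -/

namespace Sp
variable {Γ : Type} [Group Γ] (S : Sp Γ)

theorem smul_eq_iff (g h : Γ) (x : S.X) : g • x = h • x ↔ g = h := by
  constructor
  · intro e
    have : (h⁻¹ * g) • x = x := by rw [mul_smul, e, inv_smul_smul]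
    have := S.free _ _ this
    exact (inv_mul_eq_one.1 this).symm
  · rintro rfl; rfl

@[fun_prop] theorem meas_smul_eq (g h : Γ) : Measurable fun x : S.X => g • x = h • x := by
  simp only [S.smul_eq_iff]; exact measurable_const

theorem meas_smul (g : Γ) : Measurable fun x : S.X => g • x := measurable_const_smul g

theorem meas_comp {p : S.X → Prop} (hp : Measurable p) (g : Γ) :
    Measurable fun x => p (g • x) := hp.comp (S.meas_smul g)

theorem real_shift (g : Γ) (p : S.X → Prop) : S.μ.real {x | p (g • x)} = S.μ.real {x | p x} := by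
  have := measure_preimage_smul (μ := S.μ) g {x | p x}
  unfold Measure.real
  rw [← this]; rfl

variable {K K' D : Type} [Fintype K] [Fintype K'] [Fintype D]

theorem cnt_nonneg (P : K → S.X → Prop) : 0 ≤ S.cnt P :=
  Finset.sum_nonneg fun _ _ => measureReal_nonneg

theorem cnt_mono {P Q : K → S.X → Prop} (h : ∀ k x, P k x → Q k x) : S.cnt P ≤ S.cnt Q :=
  Finset.sum_le_sum fun k _ => measureReal_mono (fun x hx => h k x hx)

theorem cnt_congr {P Q : K → S.X → Prop} (h : ∀ k x, P k x ↔ Q k x) : S.cnt P = S.cnt Q :=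
  le_antisymm (S.cnt_mono fun k x => (h k x).1) (S.cnt_mono fun k x => (h k x).2)

theorem cnt_mono_ae {P Q : K → S.X → Prop} (h : ∀ᵐ x ∂S.μ, ∀ k, P k x → Q k x) :
    S.cnt P ≤ S.cnt Q := by
  refine Finset.sum_le_sum fun k _ => ?_
  refine ENNReal.toReal_mono (measure_ne_top _ _) (measure_mono_ae ?_)
  filter_upwards [h] with x hx using hx k

theorem cnt_eq_zero {P : K → S.X → Prop} (h : ∀ k x, ¬ P k x) : S.cnt P = 0 := by
  refine Finset.sum_eq_zero fun k _ => ?_
  have : {x | P k x} = ∅ := by ext x; simp [h k x]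
  simp [this]

theorem cnt_shift (P : K → S.X → Prop) (g : K → Γ) :
    S.cnt (fun k x => P k (g k • x)) = S.cnt P :=
  Finset.sum_congr rfl fun k _ => S.real_shift (g k) (P k)

theorem cnt_equiv (e : K ≃ K') (P : K' → S.X → Prop) : S.cnt (fun k => P (e k)) = S.cnt P :=
  Equiv.sum_comp e (fun k' => S.μ.real {x | P k' x})

theorem cnt_sum (P : K ⊕ K' → S.X → Prop) :
    S.cnt P = S.cnt (fun k => P (Sum.inl k)) + S.cnt (fun k => P (Sum.inr k)) :=
  Fintype.sum_sum_type _

theorem cnt_option (P : Option K → S.X → Prop) :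
    S.cnt P = S.μ.real {x | P none x} + S.cnt (fun k => P (some k)) :=
  Fintype.sum_option _

theorem cnt_prod (P : K × D → S.X → Prop) : S.cnt P = ∑ d, S.cnt fun k => P (k, d) :=
  Fintype.sum_prod_type_right _

theorem cnt_prod' (P : D × K → S.X → Prop) : S.cnt P = ∑ d, S.cnt fun k => P (d, k) :=
  Fintype.sum_prod_type _

theorem cnt_prod_const (P : K → S.X → Prop) :
    S.cnt (fun t : K × D => P t.1) = Fintype.card D * S.cnt P := by
  rw [cnt_prod]; simp

theorem cnt_prod_mem (P : K → S.X → Prop) (s : Finset D) :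
    S.cnt (fun (t : K × D) x => P t.1 x ∧ t.2 ∈ s) = s.card * S.cnt P := by
  classical
  rw [cnt_prod]
  have : ∀ d, S.cnt (fun k x => P k x ∧ d ∈ s) = if d ∈ s then S.cnt P else 0 := by
    intro d
    split_ifs with h
    · exact S.cnt_congr (by simp [h])
    · exact S.cnt_eq_zero (by simp [h])
  simp [this]

theorem cnt_unique [Unique K] (P : K → S.X → Prop) : S.cnt P = S.μ.real {x | P default x} :=
  Fintype.sum_unique _

theorem cnt_split (P Q : K → S.X → Prop) (hQ : ∀ k, Measurable (Q k)) :
    S.cnt P = S.cnt (fun k x => P k x ∧ Q k x) + S.cnt (fun k x => P k x ∧ ¬ Q k x) := by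
  unfold cnt
  rw [← Finset.sum_add_distrib]
  refine Finset.sum_congr rfl fun k _ => ?_
  exact (measureReal_inter_add_diff (μ := S.μ) (s := {x | P k x}) (hQ k).setOf).symm

theorem cnt_or_le (P Q : K → S.X → Prop) :
    S.cnt (fun k x => P k x ∨ Q k x) ≤ S.cnt P + S.cnt Q := by
  unfold cnt
  rw [← Finset.sum_add_distrib]
  exact Finset.sum_le_sum fun k _ => measureReal_union_le _ _

theorem cnt_le_card (P : K → S.X → Prop) : S.cnt P ≤ Fintype.card K := by
  unfold cnt
  calc _ ≤ ∑ _k : K, (1 : ℝ) := Finset.sum_le_sum fun k _ => measureReal_le_one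
    _ = _ := by simp

theorem real_le_cnt (P : K → S.X → Prop) (k : K) : S.μ.real {x | P k x} ≤ S.cnt P :=
  Finset.single_le_sum (f := fun k => S.μ.real {x | P k x}) (fun _ _ => measureReal_nonneg)
    (Finset.mem_univ k)

theorem real_exists_le_cnt (P : K → S.X → Prop) : S.μ.real {x | ∃ k, P k x} ≤ S.cnt P := by
  have : {x | ∃ k, P k x} = ⋃ k, {x | P k x} := by ext x; simp
  rw [this]
  exact measureReal_iUnion_fintype_le _

/-- union bound -/
theorem cnt_le_of_cover {P : K → S.X → Prop} {T : D → S.X → Prop} (π : D → K)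
    (h : ∀ k x, P k x → ∃ d, π d = k ∧ T d x) : S.cnt P ≤ S.cnt T := by
  classical
  unfold cnt
  rw [← Finset.sum_fiberwise (s := Finset.univ) (g := π)]
  refine Finset.sum_le_sum fun k _ => ?_
  refine le_trans (measureReal_mono (s₂ := ⋃ d ∈ Finset.univ.filter (fun d => π d = k), {x | T d x})
    ?_ (measure_ne_top _ _)) (measureReal_biUnion_finset_le _ _)
  intro x hx
  obtain ⟨d, hd, hT⟩ := h k x hx
  simp only [Set.mem_iUnion]
  exact ⟨d, by simp [hd], hT⟩

/-- injection with shifts -/
theorem cnt_le_of_inj {T : D → S.X → Prop} {Q : K → S.X → Prop} (hT : ∀ d, Measurable (T d))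
    (φ : D → K) (sh : D → Γ) (hinto : ∀ d x, T d x → Q (φ d) (sh d • x))
    (hinj : ∀ d d' x x', T d x → T d' x' → φ d = φ d' → sh d • x = sh d' • x' → d = d') :
    S.cnt T ≤ S.cnt Q := by
  classical
  rw [← S.cnt_shift T (fun d => (sh d)⁻¹)]
  unfold cnt
  rw [← Finset.sum_fiberwise (s := Finset.univ) (g := φ)]
  refine Finset.sum_le_sum fun k _ => ?_
  rw [← measureReal_biUnion_finset]
  · refine measureReal_mono ?_
    intro y hy
    simp only [Set.mem_iUnion, Finset.mem_filter] at hy
    obtain ⟨d, ⟨-, rfl⟩, hd⟩ := hy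
    have := hinto d _ hd
    rwa [smul_inv_smul] at this
  · intro d hd d' hd' hne
    refine Set.disjoint_left.2 fun y hy hy' => hne ?_
    simp only [Finset.coe_filter, Set.mem_setOf_eq] at hd hd'
    exact hinj d d' _ _ hy hy' (hd.2.trans hd'.2.symm) (by simp)
  · intro d _
    exact (S.meas_comp (hT d) _).setOf

/-- cover and inject -/
theorem cnt_le_of_cover_inj {P : K → S.X → Prop} {Q : K' → S.X → Prop} (T : D → S.X → Prop)
    (hT : ∀ d, Measurable (T d)) (π : D → K) (φ : D → K') (sh : D → Γ)
    (hcov : ∀ k x, P k x → ∃ d, π d = k ∧ T d x)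
    (hinto : ∀ d x, T d x → Q (φ d) (sh d • x))
    (hinj : ∀ d d' x x', T d x → T d' x' → φ d = φ d' → sh d • x = sh d' • x' → d = d') :
    S.cnt P ≤ S.cnt Q :=
  (S.cnt_le_of_cover π hcov).trans (S.cnt_le_of_inj hT φ sh hinto hinj)

theorem meas_ncard {P : K → S.X → Prop} (hP : ∀ k, Measurable (P k)) :
    Measurable fun x => Set.ncard {k | P k x} := by
  classical
  have : (fun x => Set.ncard {k | P k x}) = fun x => ∑ k, if P k x then 1 else 0 := by
    funext x
    rw [Finset.sum_boole, ← Set.ncard_coe_finset]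
    simp
  rw [this]
  exact Finset.measurable_sum _ fun k _ =>
    Measurable.ite (hP k).setOf measurable_const measurable_const

theorem integrable_ncard {P : K → S.X → Prop} (hP : ∀ k, Measurable (P k)) :
    Integrable (fun x => (Set.ncard {k | P k x} : ℝ)) S.μ := by
  refine Integrable.of_bound (C := Fintype.card K) ?_ (Filter.Eventually.of_forall fun x => ?_)
  · exact ((measurable_from_top (f := fun n : ℕ => (n : ℝ))).comp
      (S.meas_ncard hP)).aestronglyMeasurable
  · rw [Real.norm_natCast]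
    have := Set.ncard_le_card {k | P k x}
    rw [Nat.card_eq_fintype_card] at this
    exact_mod_cast this

theorem cnt_eq_integral {P : K → S.X → Prop} (hP : ∀ k, Measurable (P k)) :
    S.cnt P = ∫ x, (Set.ncard {k | P k x} : ℝ) ∂S.μ := by
  classical
  have : (fun x => (Set.ncard {k | P k x} : ℝ))
      = fun x => ∑ k, Set.indicator {x | P k x} (fun _ => (1 : ℝ)) x := by
    funext x
    simp only [Set.indicator, Set.mem_setOf_eq]
    rw [Finset.sum_boole, ← Set.ncard_coe_finset]
    simp
  rw [this, integral_finset_sum]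
  · refine Finset.sum_congr rfl fun k _ => ?_
    rw [integral_indicator (hP k).setOf]; simp
  · intro k _
    exact (integrable_const _).indicator (hP k).setOf

/-- pointwise comparison of cardinalities, with weights -/
theorem cnt_le_of_ncard' {P : K → S.X → Prop} {Q : K' → S.X → Prop} (hP : ∀ k, Measurable (P k))
    (hQ : ∀ k, Measurable (Q k)) (a b : ℝ)
    (h : ∀ x, a * (Set.ncard {k | P k x} : ℝ) ≤ b * (Set.ncard {k | Q k x} : ℝ)) :
    a * S.cnt P ≤ b * S.cnt Q := by
  rw [S.cnt_eq_integral hP, S.cnt_eq_integral hQ, ← integral_const_mul, ← integral_const_mul]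
  exact integral_mono ((S.integrable_ncard hP).const_mul a) ((S.integrable_ncard hQ).const_mul b) h

/-- pointwise comparison of cardinalities -/
theorem cnt_le_of_ncard {P : K → S.X → Prop} {Q : K' → S.X → Prop} (hP : ∀ k, Measurable (P k))
    (hQ : ∀ k, Measurable (Q k)) (h : ∀ x, Set.ncard {k | P k x} ≤ Set.ncard {k | Q k x}) :
    S.cnt P ≤ S.cnt Q := by
  have := S.cnt_le_of_ncard' hP hQ 1 1 (fun x => by simpa using h x)
  simpa using this

theorem ncard_fiber {B : Type} [Fintype B] (π : K → B) (p : K → Prop) :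
    Set.ncard {k | p k} = ∑ b, Set.ncard {k | π k = b ∧ p k} := by
  classical
  have h1 : ∀ q : K → Prop, Set.ncard {k | q k} = (Finset.univ.filter q).card := by
    intro q; rw [← Set.ncard_coe_finset]; simp
  simp only [h1]
  rw [Finset.card_eq_sum_card_fiberwise (f := π) (t := Finset.univ) (by simp)]
  refine Finset.sum_congr rfl fun b _ => ?_
  rw [Finset.filter_filter]
  congr 1
  ext k; simp [and_comm]

/-- fiberwise pointwise comparison of cardinalities -/
theorem cnt_le_of_fiber {B : Type} [Fintype B] {P : K → S.X → Prop} {Q : K' → S.X → Prop}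
    (hP : ∀ k, Measurable (P k)) (hQ : ∀ k, Measurable (Q k)) (π : K → B) (π' : K' → B)
    (h : ∀ x b, Set.ncard {k | π k = b ∧ P k x} ≤ Set.ncard {k | π' k = b ∧ Q k x}) :
    S.cnt P ≤ S.cnt Q := by
  refine S.cnt_le_of_ncard hP hQ fun x => ?_
  rw [ncard_fiber π, ncard_fiber π']
  exact Finset.sum_le_sum fun b _ => h x b

/-- pointwise injection with a map that may depend on the point in any way -/
theorem cnt_le_of_injOn {P : K → S.X → Prop} {Q : K' → S.X → Prop} (hP : ∀ k, Measurable (P k))
    (hQ : ∀ k, Measurable (Q k)) (F : S.X → K → K') (hF : ∀ x k, P k x → Q (F x k) x)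
    (hinj : ∀ x k k', P k x → P k' x → F x k = F x k' → k = k') : S.cnt P ≤ S.cnt Q :=
  S.cnt_le_of_ncard hP hQ fun x =>
    Set.ncard_le_ncard_of_injOn (F x) (fun k hk => hF x k hk) (fun k hk k' hk' => hinj x k k' hk hk')

theorem cnt_pos_of_cover [Countable Γ] {P : K → S.X → Prop} {Q : K' → S.X → Prop}
    (h : ∀ᵐ x ∂S.μ, ∀ k, P k x → ∃ (g : Γ) (k' : K'), Q k' (g • x)) (hP : 0 < S.cnt P) :
    0 < S.cnt Q := by
  by_contra hQ
  have h0 : ∀ k', S.μ {x | Q k' x} = 0 := by
    intro k'
    have := (S.real_le_cnt Q k').trans (not_lt.1 hQ)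
    have h2 : S.μ.real {x | Q k' x} = 0 := le_antisymm this measureReal_nonneg
    exact (measureReal_eq_zero_iff (measure_ne_top _ _)).1 h2
  have h1 : ∀ᵐ x ∂S.μ, ∀ (g : Γ) (k' : K'), ¬ Q k' (g • x) := by
    rw [ae_all_iff]; intro g
    rw [ae_all_iff]; intro k'
    have := measure_preimage_smul (μ := S.μ) g {x | Q k' x}
    rw [h0] at this
    exact measure_eq_zero_iff_ae_notMem.1 this
  have h2 : S.cnt P ≤ S.cnt (fun (_ : K) (_ : S.X) => False) := by
    refine S.cnt_mono_ae ?_
    filter_upwards [h, h1] with x hx hx1 k hk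
    obtain ⟨g, k', hq⟩ := hx k hk
    exact hx1 g k' hq
  rw [S.cnt_eq_zero (P := fun (_ : K) (_ : S.X) => False) (by simp)] at h2
  linarith

/-- the base of a family of positive count is not null -/
theorem measure_base_ne_zero {P : K → S.X → Prop} (hP : 0 < S.cnt P) :
    S.μ {x | ∃ k, P k x} ≠ 0 := by
  intro h0
  have : S.cnt P ≤ S.cnt (fun (_ : K) (_ : S.X) => False) := by
    refine S.cnt_mono_ae ?_
    filter_upwards [measure_eq_zero_iff_ae_notMem.1 h0] with x hx k hk
    exact hx ⟨k, hk⟩
  rw [S.cnt_eq_zero (P := fun (_ : K) (_ : S.X) => False) (by simp)] at this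
  linarith

theorem ae_smul (g : Γ) {p : S.X → Prop} (h : ∀ᵐ x ∂S.μ, p x) : ∀ᵐ x ∂S.μ, p (g • x) :=
  (measurePreserving_smul g S.μ).quasiMeasurePreserving.ae h

end Sp

end Crest.Agent.R191
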