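import Crest.Agent.R191.Graph

/-! Row 191, module (H2): collapsing cells with a window of `c` vertices of degree at most two. -/

set_option autoImplicit false

open MeasureTheory

noncomputable section

namespace Crest.Agent.R191

namespace Collapse

variable {Γ : Type} [Group Γ] {P : Pres Γ} {S : Sp Γ} (Y : SG P S) (u : ZMod P.l)

/-- collapsible cells -/
def K (i : P.ι) (τ : ZMod P.l → Y.J) (x : S.X) : Prop :=
  Y.C i τ x ∧ ∀ n : ℕ, n < P.c → Y.deg (vx P i τ x (u + (n : ZMod P.l))) ≤ 2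

/-- window vertices of collapsible cells -/
def B (p : Y.J × S.X) : Prop :=
  ∃ (i : P.ι) (τ : ZMod P.l → Y.J) (x : S.X) (n : ℕ), n < P.c ∧ K Y u i τ x ∧
    p = vx P i τ x (u + (n : ZMod P.l))

theorem meas_K (i : P.ι) (τ : ZMod P.l → Y.J) : Measurable (K Y u i τ) :=
  (Y.mC i τ).and (Measurable.forall fun n =>
    Y.meas_deg_vx i τ (u + (n : ZMod P.l)) (fun d => n < P.c → d ≤ 2))

theorem B_iff (j : Y.J) (y : S.X) :
    B Y u (j, y) ↔ ∃ (i : P.ι) (τ : ZMod P.l → Y.J) (n : ℕ), (n < P.c ∧ τ (u + (n : ZMod P.l)) = j) ∧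
      K Y u i τ (P.pre i (u + (n : ZMod P.l)) • y) := by
  constructor
  · rintro ⟨i, τ, x, n, hn, hK, hp⟩
    obtain ⟨h1, h2⟩ := Prod.ext_iff.1 hp
    refine ⟨i, τ, n, ⟨hn, h1.symm⟩, ?_⟩
    have : y = (P.pre i (u + (n : ZMod P.l)))⁻¹ • x := h2
    rw [this, smul_inv_smul]; exact hK
  · rintro ⟨i, τ, n, ⟨hn, hj⟩, hK⟩
    refine ⟨i, τ, _, n, hn, hK, Prod.ext hj.symm ?_⟩
    simp [vx]

theorem meas_B (j : Y.J) : Measurable fun y => B Y u (j, y) := by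
  simp only [B_iff]
  exact Measurable.exists fun i => Measurable.exists fun τ => Measurable.exists fun n =>
    measurable_const.and (S.meas_comp (meas_K Y u i τ) _)

variable {Y u}

theorem key (hF : Y.Folded) {i : P.ι} {τ : ZMod P.l → Y.J} {x : S.X} (h : Y.C i τ x)
    {k : ZMod P.l} (hB : B Y u (vx P i τ x k)) :
    K Y u i τ x ∧ ∃ n : ℕ, n < P.c ∧ k = u + (n : ZMod P.l) := by
  obtain ⟨i', τ', x', n, hn, hK, hp⟩ := hB
  obtain ⟨rfl, rfl, rfl, rfl⟩ := SG.corner_unique hF hK.1 h hp.symm (hK.2 n hn)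
  exact ⟨hK, n, hn, rfl⟩

theorem far (hF : Y.Folded) {i : P.ι} {τ : ZMod P.l → Y.J} {x : S.X} (h : Y.C i τ x)
    {m : ℕ} (h1 : P.c ≤ m) (h2 : m < P.l) : ¬ B Y u (vx P i τ x (u + (m : ZMod P.l))) := by
  intro hB
  obtain ⟨-, n, hn, he⟩ := key hF h hB
  have hc := P.two_c_lt
  have := P.add_cast_inj u h2 (by omega) he
  omega

theorem sub_one_eq (u : ZMod P.l) : u - 1 = u + ((P.l - 1 : ℕ) : ZMod P.l) := by
  have h5 := P.five_le_l
  rw [Nat.cast_sub (by omega), ZMod.natCast_self]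
  push_cast
  ring

theorem far_pred (hF : Y.Folded) {i : P.ι} {τ : ZMod P.l → Y.J} {x : S.X} (h : Y.C i τ x) :
    ¬ B Y u (vx P i τ x (u - 1)) := by
  have hc := P.two_c_lt
  have h2 := P.two_le_c
  rw [sub_one_eq]
  exact far hF h (by omega) (by omega)

variable (Y u)

theorem strR_del (σ : Option P.ι × Bool) (p q : Y.J × S.X) :
    StR P (fun s j j' x => Y.E s j j' x ∧ ¬ B Y u (j, x) ∧ ¬ B Y u (j', (P.val s)⁻¹ • x)) σ p q ↔
      Y.St σ p q ∧ ¬ B Y u p ∧ ¬ B Y u q := by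
  rcases σ with ⟨s, b⟩
  cases b
  · rw [strR_false, SG.st_false]
    constructor
    · rintro ⟨h1, h2, h3, h4⟩
      rw [← h1] at h4
      exact ⟨⟨h1, h2⟩, h4, h3⟩
    · rintro ⟨⟨h1, h2⟩, h3, h4⟩
      refine ⟨h1, h2, h4, ?_⟩
      rw [← h1]; exact h3
  · rw [strR_true, SG.st_true]
    constructor
    · rintro ⟨h1, h2, h3, h4⟩
      rw [← h1] at h4
      exact ⟨⟨h1, h2⟩, h3, h4⟩
    · rintro ⟨⟨h1, h2⟩, h3, h4⟩
      refine ⟨h1, h2, h3, ?_⟩
      rw [← h1]; exact h4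

/-- the collapsed graph -/
def del (hF : Y.Folded) : SG P S where
  J := Y.J
  V j x := Y.V j x ∧ ¬ B Y u (j, x)
  E s j j' x := Y.E s j j' x ∧ ¬ B Y u (j, x) ∧ ¬ B Y u (j', (P.val s)⁻¹ • x)
  C i τ x := Y.C i τ x ∧ ¬ K Y u i τ x
  mV j := (Y.mV j).and (meas_B Y u j).not
  mE s j j' := (Y.mE s j j').and ((meas_B Y u j).not.and
    (S.meas_comp (p := fun y => ¬ B Y u (j', y)) (meas_B Y u j').not _))
  mC i τ := (Y.mC i τ).and (meas_K Y u i τ).not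
  EV1 s j j' x h := ⟨Y.EV1 s j j' x h.1, h.2.1⟩
  EV2 s j j' x h := ⟨Y.EV2 s j j' x h.1, h.2.2⟩
  CE i τ x h k := (strR_del Y u _ _ _).2
    ⟨SG.cell_st h.1 k, fun hB => h.2 (key hF h.1 hB).1, fun hB => h.2 (key hF h.1 hB).1⟩

variable {Y u}

theorem st_del (hF : Y.Folded) (σ : Option P.ι × Bool) (p q : Y.J × S.X) :
    (del Y u hF).St σ p q ↔ Y.St σ p q ∧ ¬ B Y u p ∧ ¬ B Y u q := strR_del Y u σ p q

theorem folded_del (hF : Y.Folded) : (del Y u hF).Folded := fun σ p q q' h h' =>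
  hF σ p q q' ((st_del hF σ p q).1 h).1 ((st_del hF σ p q').1 h').1

theorem far_reach (hF : Y.Folded) {i : P.ι} {τ : ZMod P.l → Y.J} {x : S.X} (h : Y.C i τ x) :
    (del Y u hF).Reach (vx P i τ x (u + (P.c : ZMod P.l))) (vx P i τ x (u - 1)) := by
  have hc := P.two_c_lt
  have h2 := P.two_le_c
  have hm : ∀ m : ℕ, P.c + m < P.l → (del Y u hF).Reach (vx P i τ x (u + (P.c : ZMod P.l)))
      (vx P i τ x (u + ((P.c + m : ℕ) : ZMod P.l))) := by
    intro m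
    induction m with
    | zero => intro _; exact SG.Reach.refl (Y := del Y u hF) _
    | succ m ih =>
      intro hm
      refine (ih (by omega)).trans (SG.St.reach (Y := del Y u hF)
        (σ := P.R i (u + ((P.c + m : ℕ) : ZMod P.l))) ((st_del hF _ _ _).2 ⟨?_, ?_, ?_⟩))
      · have := SG.cell_st h (u + ((P.c + m : ℕ) : ZMod P.l))
        rwa [add_assoc u, ← Nat.cast_succ] at this
      · exact far hF h (by omega) (by omega)
      · exact far hF h (by omega) hm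
  have := hm (P.l - 1 - P.c) (by omega)
  rwa [show P.c + (P.l - 1 - P.c) = P.l - 1 by omega, ← sub_one_eq] at this

/-- a step from a window vertex follows the cell -/
theorem step_cases (hF : Y.Folded) {i : P.ι} {τ : ZMod P.l → Y.J} {x : S.X} (hK : K Y u i τ x)
    {n : ℕ} (hn : n < P.c) {σ : Option P.ι × Bool} {b : Y.J × S.X}
    (hs : Y.St σ (vx P i τ x (u + (n : ZMod P.l))) b) :
    (∃ n' : ℕ, n' < P.c ∧ b = vx P i τ x (u + (n' : ZMod P.l))) ∨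
      b = vx P i τ x (u + (P.c : ZMod P.l)) ∨ b = vx P i τ x (u - 1) := by
  rcases SG.cell_letters hK.1 (hK.2 n hn) hs with rfl | rfl
  · have hb := hF _ _ _ _ hs (SG.cell_st hK.1 _)
    rw [add_assoc u, ← Nat.cast_succ] at hb
    by_cases h : n + 1 < P.c
    · exact Or.inl ⟨n + 1, h, hb⟩
    · have : n.succ = P.c := by omega
      rw [this] at hb
      exact Or.inr (Or.inl hb)
  · have hb := hF _ _ _ _ hs (SG.cell_st' hK.1 _)
    rcases n with _ | n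
    · refine Or.inr (Or.inr ?_)
      simpa using hb
    · refine Or.inl ⟨n, by omega, ?_⟩
      rw [hb]
      congr 1
      push_cast
      ring

theorem conn_del (hF : Y.Folded) (hC : Y.Conn) : (del Y u hF).Conn := by
  intro p q hp hq hg
  obtain ⟨W, hW⟩ := hC p q hp.1 hq.1 hg
  let A : Y.J × S.X → Prop := fun a => (¬ B Y u a ∧ (del Y u hF).Reach p a) ∨
    ∃ (i : P.ι) (τ : ZMod P.l → Y.J) (x : S.X) (n : ℕ), n < P.c ∧ K Y u i τ x ∧
      a = vx P i τ x (u + (n : ZMod P.l)) ∧ (del Y u hF).Reach p (vx P i τ x (u - 1))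
  have hA : ∀ σ a b, A a → Y.St σ a b → A b := by
    intro σ a b ha hs
    rcases ha with ⟨ha, hr⟩ | ⟨i, τ, x, n, hn, hK, rfl, hr⟩
    · by_cases hb : B Y u b
      · obtain ⟨i, τ, x, n, hn, hK, rfl⟩ := hb
        refine Or.inr ⟨i, τ, x, n, hn, hK, rfl, ?_⟩
        rcases step_cases hF hK hn hs.symm with ⟨n', hn', rfl⟩ | rfl | rfl
        · exact absurd ⟨i, τ, x, n', hn', hK, rfl⟩ ha
        · exact hr.trans (far_reach hF hK.1)
        · exact hr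
      · exact Or.inl ⟨hb, hr.trans
          (SG.St.reach (Y := del Y u hF) (σ := σ) ((st_del hF _ _ _).2 ⟨hs, ha, hb⟩))⟩
    · have hc := P.two_c_lt
      rcases step_cases hF hK hn hs with ⟨n', hn', rfl⟩ | rfl | rfl
      · exact Or.inr ⟨i, τ, x, n', hn', hK, rfl, hr⟩
      · exact Or.inl ⟨far hF hK.1 le_rfl (by omega), hr.trans (far_reach hF hK.1).symm⟩
      · exact Or.inl ⟨far_pred hF hK.1, hr⟩
  have h0 : A p := Or.inl ⟨hp.2, SG.Reach.refl (Y := del Y u hF) _⟩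
  rcases hW.closed A hA h0 with ⟨-, hr⟩ | ⟨i, τ, x, n, hn, hK, hq', -⟩
  · exact hr
  · exact absurd ⟨i, τ, x, n, hn, hK, hq'⟩ hq.2

theorem vpos_del (hF : Y.Folded) (hv : 0 < Y.v) : 0 < (del Y u hF).v := by
  refine SG.vpos_of_cover (Filter.Eventually.of_forall fun y j hj => ?_) hv
  by_cases hB : B Y u (j, y)
  · obtain ⟨i, τ, n, -, hK⟩ := (B_iff Y u j y).1 hB
    refine ⟨(P.pre i (u - 1))⁻¹ * P.pre i (u + (n : ZMod P.l)), τ (u - 1), ?_⟩
    rw [mul_smul]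
    exact ⟨SG.cell_V hK.1 _, far_pred hF hK.1⟩
  · exact ⟨1, j, by rw [one_smul]; exact ⟨hj, hB⟩⟩

theorem collapsible_eq :
    Y.collapsible u = S.cnt fun (t : P.ι × (ZMod P.l → Y.J)) => K Y u t.1 t.2 := rfl

theorem f_del (hF : Y.Folded) : Y.f = Y.collapsible u + (del Y u hF).f := by
  unfold SG.f
  rw [S.cnt_split _ (fun (t : P.ι × (ZMod P.l → Y.J)) => K Y u t.1 t.2)
    (fun t => meas_K Y u t.1 t.2), collapsible_eq]
  congr 1
  exact S.cnt_congr fun t x => ⟨fun h => h.2, fun h => ⟨h.1, h⟩⟩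

theorem v_del (hF : Y.Folded) : Y.v ≤ P.c * Y.collapsible u + (del Y u hF).v := by
  unfold SG.v
  rw [S.cnt_split _ (fun j y => B Y u (j, y)) (meas_B Y u)]
  refine add_le_add ?_ le_rfl
  have h1 : S.cnt (fun j y => Y.V j y ∧ B Y u (j, y)) ≤
      S.cnt (fun (d : (P.ι × (ZMod P.l → Y.J)) × Fin P.c) y =>
        K Y u d.1.1 d.1.2 (P.pre d.1.1 (u + ((d.2 : ℕ) : ZMod P.l)) • y)) := by
    refine S.cnt_le_of_cover (fun d => d.1.2 (u + ((d.2 : ℕ) : ZMod P.l))) ?_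
    intro j y h
    obtain ⟨i, τ, n, ⟨hn, hj⟩, hK⟩ := (B_iff Y u j y).1 h.2
    exact ⟨((i, τ), ⟨n, hn⟩), hj, hK⟩
  refine h1.trans (le_of_eq ?_)
  rw [S.cnt_shift (fun (d : (P.ι × (ZMod P.l → Y.J)) × Fin P.c) => K Y u d.1.1 d.1.2)
    (fun d => P.pre d.1.1 (u + ((d.2 : ℕ) : ZMod P.l))),
    S.cnt_prod_const (fun (t : P.ι × (ZMod P.l → Y.J)) => K Y u t.1 t.2), collapsible_eq]
  simp

/-- the edge under a step -/
theorem edge_cases {σ σ' : Option P.ι × Bool} {a b a' b' : Y.J × S.X} (h : Y.St σ a b)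
    (h' : Y.St σ' a' b')
    (h1 : (cond σ.2 (σ.1, a.1, b.1) (σ.1, b.1, a.1) : Option P.ι × Y.J × Y.J)
      = cond σ'.2 (σ'.1, a'.1, b'.1) (σ'.1, b'.1, a'.1))
    (h2 : cond σ.2 a.2 b.2 = cond σ'.2 a'.2 b'.2) :
    (a = a' ∧ b = b') ∨ (σ = sinv σ' ∧ a = b' ∧ b = a') := by
  rcases σ with ⟨s, _ | _⟩ <;> rcases σ' with ⟨s', _ | _⟩ <;>
    simp only [cond_true, cond_false, Prod.mk.injEq] at h1 h2 <;>
    obtain ⟨rfl, h3, h4⟩ := h1
  · rw [SG.st_false] at h h'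
    exact Or.inl ⟨Prod.ext h4 (by rw [h.1, h'.1, h2]), Prod.ext h3 h2⟩
  · rw [SG.st_false] at h
    rw [SG.st_true] at h'
    exact Or.inr ⟨rfl, Prod.ext h4 (by rw [h.1, h'.1, h2]), Prod.ext h3 h2⟩
  · rw [SG.st_true] at h
    rw [SG.st_false] at h'
    exact Or.inr ⟨rfl, Prod.ext h3 h2, Prod.ext h4 (by rw [h.1, h'.1, h2])⟩
  · rw [SG.st_true] at h h'
    exact Or.inl ⟨Prod.ext h3 h2, Prod.ext h4 (by rw [h.1, h'.1, h2])⟩

theorem edge_into {σ : Option P.ι × Bool} {a b : Y.J × S.X} (h : Y.St σ a b)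
    (hB : B Y u a ∨ B Y u b) :
    let t : Option P.ι × Y.J × Y.J := cond σ.2 (σ.1, a.1, b.1) (σ.1, b.1, a.1)
    let y : S.X := cond σ.2 a.2 b.2
    Y.E t.1 t.2.1 t.2.2 y ∧ ¬ (¬ B Y u (t.2.1, y) ∧ ¬ B Y u (t.2.2, (P.val t.1)⁻¹ • y)) := by
  rcases σ with ⟨s, _ | _⟩
  · rw [SG.st_false] at h
    simp only [cond_false]
    rw [← h.1]
    exact ⟨h.2, fun hh => hB.elim hh.2 hh.1⟩
  · rw [SG.st_true] at h
    simp only [cond_true]
    rw [← h.1]
    exact ⟨h.2, fun hh => hB.elim hh.1 hh.2⟩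

/-- one end of each of the `c + 1` edges lies in the window -/
theorem window_end (n : ℕ) (hn : n < P.c + 1) :
    (∃ m : ℕ, m < P.c ∧ u - 1 + (n : ZMod P.l) = u + (m : ZMod P.l)) ∨
      ∃ m : ℕ, m < P.c ∧ u - 1 + (n : ZMod P.l) + 1 = u + (m : ZMod P.l) := by
  have h2 := P.two_le_c
  rcases n with _ | n
  · exact Or.inr ⟨0, by omega, by simp⟩
  · exact Or.inl ⟨n, by omega, by push_cast; ring⟩

theorem e_del (hF : Y.Folded) : (P.c + 1) * Y.collapsible u + (del Y u hF).e ≤ Y.e := by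
  unfold SG.e
  rw [S.cnt_split (fun t : Option P.ι × Y.J × Y.J => Y.E t.1 t.2.1 t.2.2)
    (fun t y => ¬ B Y u (t.2.1, y) ∧ ¬ B Y u (t.2.2, (P.val t.1)⁻¹ • y))
    (fun t => (meas_B Y u t.2.1).not.and
      (S.meas_comp (p := fun y => ¬ B Y u (t.2.2, y)) (meas_B Y u t.2.2).not _)), add_comm]
  refine add_le_add le_rfl ?_
  have h0 : (P.c + 1 : ℝ) * Y.collapsible u =
      S.cnt (fun (d : (P.ι × (ZMod P.l → Y.J)) × Fin (P.c + 1)) => K Y u d.1.1 d.1.2) := by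
    rw [S.cnt_prod_const (fun (t : P.ι × (ZMod P.l → Y.J)) => K Y u t.1 t.2), collapsible_eq]
    simp
  rw [h0]
  let k : (P.ι × (ZMod P.l → Y.J)) × Fin (P.c + 1) → ZMod P.l :=
    fun d => u - 1 + ((d.2 : ℕ) : ZMod P.l)
  have hsh : ∀ (d : (P.ι × (ZMod P.l → Y.J)) × Fin (P.c + 1)) (x : S.X),
      (cond (P.R d.1.1 (k d)).2 (P.pre d.1.1 (k d))⁻¹ (P.pre d.1.1 (k d + 1))⁻¹) • x
        = cond (P.R d.1.1 (k d)).2 (vx P d.1.1 d.1.2 x (k d)).2
          (vx P d.1.1 d.1.2 x (k d + 1)).2 := by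
    intro d x
    cases (P.R d.1.1 (k d)).2 <;> rfl
  refine S.cnt_le_of_inj (fun d => meas_K Y u d.1.1 d.1.2)
    (fun d => cond (P.R d.1.1 (k d)).2 ((P.R d.1.1 (k d)).1, d.1.2 (k d), d.1.2 (k d + 1))
      ((P.R d.1.1 (k d)).1, d.1.2 (k d + 1), d.1.2 (k d)))
    (fun d => cond (P.R d.1.1 (k d)).2 (P.pre d.1.1 (k d))⁻¹ (P.pre d.1.1 (k d + 1))⁻¹) ?_ ?_
  · intro d x hK
    rw [hsh]
    refine edge_into (SG.cell_st hK.1 (k d)) ?_
    rcases window_end (u := u) d.2 d.2.2 with ⟨m, hm, he⟩ | ⟨m, hm, he⟩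
    · exact Or.inl ⟨_, _, x, m, hm, hK, by rw [← he]⟩
    · exact Or.inr ⟨_, _, x, m, hm, hK, by rw [← he]⟩
  · rintro ⟨⟨i, τ⟩, n⟩ ⟨⟨i', τ'⟩, n'⟩ x x' hK hK' h1 h2
    rw [hsh, hsh] at h2
    have hc := P.two_c_lt
    have h2c := P.two_le_c
    have hfin : u - 1 + ((n : ℕ) : ZMod P.l) = u - 1 + ((n' : ℕ) : ZMod P.l) → n = n' := fun h =>
      Fin.ext (P.add_cast_inj (u - 1) (by omega) (by omega) h)
    have hd : Y.deg (vx P i τ x (k ((i, τ), n))) ≤ 2 ∨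
        Y.deg (vx P i τ x (k ((i, τ), n) + 1)) ≤ 2 := by
      rcases window_end (u := u) n n.2 with ⟨m, hm, he⟩ | ⟨m, hm, he⟩
      · exact Or.inl (by have := hK.2 m hm; rwa [← he] at this)
      · exact Or.inr (by have := hK.2 m hm; rwa [← he] at this)
    rcases edge_cases (SG.cell_st hK.1 (k ((i, τ), n))) (SG.cell_st hK'.1 (k ((i', τ'), n'))) h1 h2
      with ⟨ha, hb⟩ | ⟨hσ, ha, hb⟩
    · rcases hd with hd | hd
      · obtain ⟨rfl, hk, rfl, -⟩ := SG.corner_unique hF hK.1 hK'.1 ha hd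
        rw [hfin hk]
      · obtain ⟨rfl, hk, rfl, -⟩ := SG.corner_unique hF hK.1 hK'.1 hb hd
        rw [hfin (add_right_cancel hk)]
    · exfalso
      rcases hd with hd | hd
      · obtain ⟨rfl, hk, -, -⟩ := SG.corner_unique hF hK.1 hK'.1 ha hd
        rw [hk] at hσ
        exact P.R_ne _ _ hσ
      · obtain ⟨rfl, hk, -, -⟩ := SG.corner_unique hF hK.1 hK'.1 hb hd
        rw [← hk] at hσ
        exact P.R_ne _ _ (by rw [hσ, sinv_sinv])

end Collapse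

theorem collapseStmt : CollapseStmt := by
  intro Γ _ P S k0 Y hY u
  have hf := Collapse.f_del (u := u) hY.folded
  have hv := Collapse.v_del (u := u) hY.folded
  have he := Collapse.e_del (u := u) hY.folded
  have h0 : 0 ≤ Y.collapsible u := S.cnt_nonneg _
  have h1 := hY.fle
  have h2 := hY.chile
  refine ⟨Collapse.del Y u hY.folded, ⟨Collapse.folded_del _, Collapse.conn_del _ hY.conn,
    Collapse.vpos_del _ hY.vpos, by linarith, ?_⟩, ?_⟩
  · unfold SG.chi at h2 ⊢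
    linarith
  · unfold SG.psi
    rw [hf]
    linarith

end Crest.Agent.R191
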