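import Crest.Agent.R191.Graph

/-! Row 191, module G: counting in folded graphs. -/

set_option autoImplicit false

open MeasureTheory

noncomputable section

namespace Crest.Agent.R191

namespace CountG

theorem le_ncard_fin {B : Type} [Fintype B] {N m : ℕ} (hm : m ≤ N) (b : B) (q : B × Fin N → Prop)
    (h : ∀ n : Fin N, n.val < m → q (b, n)) : m ≤ Set.ncard {t : B × Fin N | t.1 = b ∧ q t} := by
  have := Set.ncard_le_ncard_of_injOn (s := (Set.univ : Set (Fin m)))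
    (t := {t : B × Fin N | t.1 = b ∧ q t}) (fun n => (b, Fin.castLE hm n))
    (fun n _ => ⟨rfl, h _ n.2⟩)
    (fun n _ n' _ e => Fin.castLE_injective hm (Prod.ext_iff.1 e).2)
  simpa [Set.ncard_univ] using this

theorem ncard_fin_le {B : Type} {N m : ℕ} (b : B) (q : B × Fin N → Prop)
    (h : ∀ n : Fin N, q (b, n) → n.val < m) : Set.ncard {t : B × Fin N | t.1 = b ∧ q t} ≤ m := by
  have := Set.ncard_le_ncard_of_injOn (s := {t : B × Fin N | t.1 = b ∧ q t})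
    (t := (Finset.range m : Set ℕ)) (fun t => t.2.val)
    (by
      rintro ⟨b', n⟩ ⟨rfl, hq⟩
      simpa using h n hq)
    (by
      rintro ⟨b', n⟩ ⟨rfl, -⟩ ⟨b'', n'⟩ ⟨rfl, -⟩ e
      exact Prod.ext rfl (Fin.ext e))
  rwa [Set.ncard_coe_finset, Finset.card_range] at this

theorem ncard_le_card' {K : Type} [Fintype K] (p : K → Prop) :
    Set.ncard {k | p k} ≤ Fintype.card K := by
  have := Set.ncard_le_card {k | p k}
  rwa [Nat.card_eq_fintype_card] at this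

variable {Γ : Type} [Group Γ] {P : Pres Γ} {S : Sp Γ}

theorem cnt4 {K₁ K₂ K₃ K₄ : Type} [Fintype K₁] [Fintype K₂] [Fintype K₃] [Fintype K₄]
    {P₁ : K₁ → S.X → Prop} {P₂ : K₂ → S.X → Prop} {P₃ : K₃ → S.X → Prop} {P₄ : K₄ → S.X → Prop}
    (h₁ : ∀ k, Measurable (P₁ k)) (h₂ : ∀ k, Measurable (P₂ k)) (h₃ : ∀ k, Measurable (P₃ k))
    (h₄ : ∀ k, Measurable (P₄ k)) (a b c d : ℝ)
    (h : ∀ x, a * (Set.ncard {k | P₁ k x} : ℝ) + b * (Set.ncard {k | P₂ k x} : ℝ) ≤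
      c * (Set.ncard {k | P₃ k x} : ℝ) + d * (Set.ncard {k | P₄ k x} : ℝ)) :
    a * S.cnt P₁ + b * S.cnt P₂ ≤ c * S.cnt P₃ + d * S.cnt P₄ := by
  rw [S.cnt_eq_integral h₁, S.cnt_eq_integral h₂, S.cnt_eq_integral h₃, S.cnt_eq_integral h₄,
    ← integral_const_mul, ← integral_const_mul, ← integral_const_mul, ← integral_const_mul,
    ← integral_add ((S.integrable_ncard h₁).const_mul a) ((S.integrable_ncard h₂).const_mul b),
    ← integral_add ((S.integrable_ncard h₃).const_mul c) ((S.integrable_ncard h₄).const_mul d)]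
  exact integral_mono
    (((S.integrable_ncard h₁).const_mul a).add ((S.integrable_ncard h₂).const_mul b))
    (((S.integrable_ncard h₃).const_mul c).add ((S.integrable_ncard h₄).const_mul d)) h

variable (Y : SG P S)

/-- sum of the degrees over a set of vertices -/
def dsum (B : Y.J → S.X → Prop) : ℝ :=
  S.cnt fun (t : (Option P.ι × Bool) × Y.J) x => B t.2 x ∧ ∃ q, Y.St t.1 (t.2, x) q

/-- signed steps inside a set of vertices -/
def sin (D : Y.J → S.X → Prop) : ℝ :=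
  S.cnt fun (t : (Option P.ι × Bool) × Y.J × Y.J) x =>
    Y.St t.1 (t.2.1, x) (t.2.2, (lv P.val t.1)⁻¹ • x) ∧ D t.2.1 x ∧ D t.2.2 ((lv P.val t.1)⁻¹ • x)

/-- edges inside a set of vertices -/
def ein (D : Y.J → S.X → Prop) : ℝ :=
  S.cnt fun (t : Option P.ι × Y.J × Y.J) x =>
    Y.E t.1 t.2.1 t.2.2 x ∧ D t.2.1 x ∧ D t.2.2 ((P.val t.1)⁻¹ • x)

/-- sides of cells inside a set of vertices -/
def inc (B : Y.J → S.X → Prop) : ℝ :=
  S.cnt fun (t : P.ι × (ZMod P.l → Y.J) × ZMod P.l) x => Y.C t.1 t.2.1 x ∧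
    B (t.2.1 t.2.2) ((P.pre t.1 t.2.2)⁻¹ • x) ∧
    B (t.2.1 (t.2.2 + 1)) ((P.pre t.1 (t.2.2 + 1))⁻¹ • x)

theorem sin_le {D : Y.J → S.X → Prop} (hD : ∀ j, Measurable (D j)) : sin Y D ≤ 2 * ein Y D := by
  have h := S.cnt_prod_const (D := Bool) fun (t : Option P.ι × Y.J × Y.J) x =>
    Y.E t.1 t.2.1 t.2.2 x ∧ D t.2.1 x ∧ D t.2.2 ((P.val t.1)⁻¹ • x)
  simp only [Fintype.card_bool, Nat.cast_ofNat] at h
  rw [ein, ← h]
  refine S.cnt_le_of_inj
    (fun t => (Y.meas_st' _ _ _ _).and ((hD _).and (S.meas_comp (hD _) _)))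
    (fun t => (cond t.1.2 (t.1.1, t.2.1, t.2.2) (t.1.1, t.2.2, t.2.1), t.1.2))
    (fun t => cond t.1.2 1 (P.val t.1.1)) ?_ ?_
  · rintro ⟨⟨s, b⟩, j, j'⟩ x ⟨h1, h2, h3⟩
    cases b
    · rw [Y.st_false] at h1
      simp only [lv_false, inv_inv] at h1 h3
      exact ⟨h1.2, h3, by simpa using h2⟩
    · simp only [cond_true, one_smul]
      exact ⟨h1.2, h2, h3⟩
  · rintro ⟨⟨s, b⟩, j, j'⟩ ⟨⟨s', b'⟩, k, k'⟩ x x' - - e -
    obtain rfl : b = b' := (Prod.ext_iff.1 e).2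
    cases b <;> simp_all

theorem dsum_mono {B B' : Y.J → S.X → Prop} (h : ∀ j x, B j x → B' j x) : dsum Y B ≤ dsum Y B' :=
  S.cnt_mono fun _ _ hx => ⟨h _ _ hx.1, hx.2⟩

theorem dsum_le (B : Y.J → S.X → Prop) : dsum Y B ≤ 2 * Y.e := by
  have h1 : dsum Y B ≤ sin Y fun _ _ => True := by
    refine S.cnt_le_of_cover (fun t => (t.1, t.2.1)) ?_
    rintro ⟨σ, j⟩ x ⟨-, ⟨j', y⟩, h⟩
    obtain rfl : y = _ := h.pos
    exact ⟨(σ, j, j'), rfl, h, trivial, trivial⟩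
  have h2 : ein Y (fun _ _ => True) ≤ Y.e := S.cnt_mono fun _ _ h => h.1
  have := sin_le Y (D := fun _ _ => True) fun _ => measurable_const
  linarith

variable {Y}

theorem ein_le (hS : S.Expand) (hF : Y.Folded) {D : Y.J → S.X → Prop} (hD : ∀ j, Measurable (D j))
    (hr : Fintype.card P.ι * S.cnt D ≤ 1) : ein Y D ≤ P.aa * S.cnt D := by
  have hm : ∀ t : Option P.ι × Y.J × Y.J, Measurable fun x =>
      Y.E t.1 t.2.1 t.2.2 x ∧ D t.2.1 x ∧ D t.2.2 ((P.val t.1)⁻¹ • x) :=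
    fun t => (Y.mE _ _ _).and ((hD _).and (S.meas_comp (hD _) _))
  have hE : ∀ s j j₁ j₂ x, Y.E s j j₁ x → Y.E s j j₂ x → j₁ = j₂ := fun s j j₁ j₂ x h1 h2 =>
    (Prod.ext_iff.1 (hF _ _ _ _ (Y.st_of_E h1) (Y.st_of_E h2))).1
  have hE' : ∀ s j j₁ j₂ x, Y.E s j₁ j x → Y.E s j₂ j x → j₁ = j₂ := fun s j j₁ j₂ x h1 h2 =>
    (Prod.ext_iff.1 (hF.left (Y.st_of_E h1) (Y.st_of_E h2))).1
  let m : S.X → ℕ := fun x => Set.ncard {j | D j x}
  have hmm : Measurable m := S.meas_ncard hD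
  let N := Fintype.card Y.J
  have hDn : ∀ n : ℕ, Measurable fun x => n < m x := fun n =>
    (measurable_from_top (f := fun a : ℕ => n < a)).comp hmm
  have h1 : S.cnt (fun (t : Y.J × Y.J) x =>
      Y.E none t.1 t.2 x ∧ D t.1 x ∧ D t.2 ((P.val none)⁻¹ • x)) ≤ S.cnt D := by
    refine S.cnt_le_of_injOn (fun t => hm (none, t)) hD (fun _ t => t.1) (fun x t h => h.2.1) ?_
    rintro x ⟨j, j₁⟩ ⟨j', j₂⟩ h h' (rfl : j = j')
    exact Prod.ext rfl (hE _ _ _ _ _ h.1 h'.1)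
  have h2 : ∀ i, S.cnt (fun (t : Y.J × Y.J) x =>
      Y.E (some i) t.1 t.2 x ∧ D t.1 x ∧ D t.2 ((P.val (some i))⁻¹ • x)) ≤
      S.cnt (fun (n : Unit × Fin N) x => n.2 < m x ∧ n.2 < m ((P.val (some i))⁻¹ • x)) := by
    intro i
    refine S.cnt_le_of_fiber (fun t => hm (some i, t))
      (fun n => (hDn _).and (S.meas_comp (hDn _) _)) (fun _ => ()) Prod.fst fun x b => ?_
    refine le_trans (le_min ?_ ?_) (le_ncard_fin (m := min (m x) (m ((P.val (some i))⁻¹ • x)))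
      ((min_le_left _ _).trans (ncard_le_card' _)) b _ fun n hn => lt_min_iff.1 hn)
    · refine Set.ncard_le_ncard_of_injOn Prod.fst (fun t h => h.2.2.1) ?_
      rintro ⟨j, j₁⟩ h ⟨j', j₂⟩ h' (rfl : j = j')
      exact Prod.ext rfl (hE _ _ _ _ _ h.2.1 h'.2.1)
    · refine Set.ncard_le_ncard_of_injOn Prod.snd (fun t h => h.2.2.2) ?_
      rintro ⟨j₁, j⟩ h ⟨j₂, j'⟩ h' (rfl : j = j')
      exact Prod.ext (hE' _ _ _ _ _ h.2.1 h'.2.1) rfl
  have h3 : S.cnt (fun (n : Unit × Fin N) x => n.2 < m x) ≤ S.cnt D := by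
    refine S.cnt_le_of_fiber (fun n => hDn _) hD Prod.fst (fun _ => ()) fun x b => ?_
    refine (ncard_fin_le (m := m x) b _ fun n hn => hn).trans (le_of_eq ?_)
    simp [m]
  have h4 : ∑ i, S.cnt (fun (n : Unit × Fin N) x =>
      n.2 < m x ∧ n.2 < m ((P.val (some i))⁻¹ • x)) ≤
      (1 + 2 * Real.sqrt (Fintype.card P.ι)) * S.cnt (fun (n : Unit × Fin N) x => n.2 < m x) := by
    unfold Sp.cnt
    rw [Finset.sum_comm, Finset.mul_sum]
    refine Finset.sum_le_sum fun n _ => ?_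
    refine (hS P.ι (fun i => P.val (some i)) P.free {x | n.2 < m x} (hDn _).setOf).trans ?_
    have h5 : S.μ.real {x | n.2 < m x} ≤ S.cnt D :=
      (S.real_le_cnt (fun (n : Unit × Fin N) x => n.2 < m x) n).trans h3
    have h6 : (Fintype.card P.ι : ℝ) * S.μ.real {x | n.2 < m x} ≤ 1 :=
      le_trans (by gcongr) hr
    have h7 : 0 ≤ S.μ.real {x | n.2 < m x} := measureReal_nonneg
    nlinarith
  rw [ein, S.cnt_prod', Fintype.sum_option]
  have h5 := (Finset.sum_le_sum fun i (_ : i ∈ Finset.univ) => h2 i).trans h4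
  have h6 : (1 + 2 * Real.sqrt (Fintype.card P.ι)) *
      S.cnt (fun (n : Unit × Fin N) x => n.2 < m x) ≤
      (1 + 2 * Real.sqrt (Fintype.card P.ι)) * S.cnt D := by gcongr
  unfold Pres.aa
  linarith

theorem inc_le (hS : S.Expand) (hF : Y.Folded) {B : Y.J → S.X → Prop} (hB : ∀ j, Measurable (B j))
    (hr : Fintype.card P.ι * S.cnt B ≤ 1) : inc Y B ≤ 2 * P.aa * dsum Y B := by
  let N := Fintype.card (Option P.ι × Bool)
  let Dn : Fin N → Y.J → S.X → Prop := fun n j x => B j x ∧ n < Y.deg (j, x)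
  have hDn : ∀ n j, Measurable (Dn n j) := fun n j =>
    (hB j).and (Y.meas_deg_prop' j fun a => n < a)
  have h1 : inc Y B ≤ ∑ n, sin Y (Dn n) := by
    unfold sin
    rw [← S.cnt_prod (fun (t : ((Option P.ι × Bool) × Y.J × Y.J) × Fin N) x =>
      Y.St t.1.1 (t.1.2.1, x) (t.1.2.2, (lv P.val t.1.1)⁻¹ • x) ∧ Dn t.2 t.1.2.1 x ∧
        Dn t.2 t.1.2.2 ((lv P.val t.1.1)⁻¹ • x)), inc,
      ← S.cnt_shift _ (fun t => P.pre t.1 t.2.2)]
    refine S.cnt_le_of_fiber (fun t => S.meas_comp (p := fun x => Y.C t.1 t.2.1 x ∧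
        B (t.2.1 t.2.2) ((P.pre t.1 t.2.2)⁻¹ • x) ∧
        B (t.2.1 (t.2.2 + 1)) ((P.pre t.1 (t.2.2 + 1))⁻¹ • x))
        ((Y.mC _ _).and ((S.meas_comp (hB _) _).and (S.meas_comp (hB _) _))) _)
      (fun t => (Y.meas_st' _ _ _ _).and ((hDn _ _).and (S.meas_comp (hDn _ _) _)))
      (fun t => (P.R t.1 t.2.2, t.2.1 t.2.2, t.2.1 (t.2.2 + 1))) Prod.fst fun y b => ?_
    obtain ⟨σ, j, j'⟩ := b
    have hv : ∀ (i : P.ι) (τ : ZMod P.l → Y.J) (k : ZMod P.l),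
        vx P i τ (P.pre i k • y) k = (τ k, y) := fun i τ k => by simp [vx]
    have hv' : ∀ (i : P.ι) (τ : ZMod P.l → Y.J) (k : ZMod P.l),
        vx P i τ (P.pre i k • y) (k + 1) = (τ (k + 1), (lv P.val (P.R i k))⁻¹ • y) :=
      fun i τ k => Prod.ext rfl (by rw [vx_snd_succ, hv])
    rcases Set.eq_empty_or_nonempty {t : P.ι × (ZMod P.l → Y.J) × ZMod P.l |
      (P.R t.1 t.2.2, t.2.1 t.2.2, t.2.1 (t.2.2 + 1)) = (σ, j, j') ∧
      Y.C t.1 t.2.1 (P.pre t.1 t.2.2 • y) ∧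
        B (t.2.1 t.2.2) ((P.pre t.1 t.2.2)⁻¹ • P.pre t.1 t.2.2 • y) ∧
        B (t.2.1 (t.2.2 + 1)) ((P.pre t.1 (t.2.2 + 1))⁻¹ • P.pre t.1 t.2.2 • y)} with h0 | h0
    · rw [h0, Set.ncard_empty]
      exact Nat.zero_le _
    obtain ⟨⟨i₀, τ₀, k₀⟩, e₀, hC₀, hB₀, hB₀'⟩ := h0
    simp only [Prod.mk.injEq] at e₀ hC₀
    have hst : Y.St σ (j, y) (j', (lv P.val σ)⁻¹ • y) := by
      have := SG.cell_st hC₀ k₀
      rwa [hv, hv', e₀.1, e₀.2.1, e₀.2.2] at this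
    have hb1 : B j y := by simpa [e₀.2.1] using hB₀
    have hb2 : B j' ((lv P.val σ)⁻¹ • y) := by
      have := congrArg Prod.snd (hv' i₀ τ₀ k₀)
      rw [vx_snd, e₀.1] at this
      simp only at hB₀' this
      rwa [this, e₀.2.2] at hB₀'
    refine le_trans (le_min ?_ ?_) (le_ncard_fin
      (m := min (Y.deg (j, y)) (Y.deg (j', (lv P.val σ)⁻¹ • y)))
      ((min_le_left _ _).trans (Y.deg_le _)) _ _ fun n hn =>
        ⟨hst, ⟨hb1, (lt_min_iff.1 hn).1⟩, ⟨hb2, (lt_min_iff.1 hn).2⟩⟩)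
    · refine Set.ncard_le_ncard_of_injOn (fun t => sinv (P.R t.1 (t.2.2 - 1))) ?_ ?_
      · rintro ⟨i, τ, k⟩ ⟨e, hC, -⟩
        simp only [Prod.mk.injEq] at e hC
        have := SG.cell_st' hC k
        rw [hv, e.2.1] at this
        exact ⟨_, this⟩
      · rintro ⟨i, τ, k⟩ ⟨e, hC, -⟩ ⟨i', τ', k'⟩ ⟨e', hC', -⟩ h
        simp only [Prod.mk.injEq] at e e' hC hC'
        obtain ⟨rfl, hk⟩ := P.corner i (k - 1) i' (k' - 1) (sinv_injective h)
          (by rw [sub_add_cancel, sub_add_cancel, e.1, e'.1])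
        obtain rfl : k = k' := by simpa using hk
        rw [(SG.cell_unique hF hC hC' (k := k) (by rw [hv, hv, e.2.1, e'.2.1])).1]
    · refine Set.ncard_le_ncard_of_injOn (fun t => P.R t.1 (t.2.2 + 1)) ?_ ?_
      · rintro ⟨i, τ, k⟩ ⟨e, hC, -⟩
        simp only [Prod.mk.injEq] at e hC
        have := SG.cell_st hC (k + 1)
        rw [hv', e.1, e.2.2] at this
        exact ⟨_, this⟩
      · rintro ⟨i, τ, k⟩ ⟨e, hC, -⟩ ⟨i', τ', k'⟩ ⟨e', hC', -⟩ h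
        simp only [Prod.mk.injEq] at e e' hC hC'
        obtain ⟨rfl, rfl⟩ := P.corner i k i' k' (e.1.trans e'.1.symm) h
        rw [(SG.cell_unique hF hC hC' (k := k) (by rw [hv, hv, e.2.1, e'.2.1])).1]
  have h2 : ∑ n, S.cnt (Dn n) ≤ dsum Y B := by
    rw [← S.cnt_prod (fun (t : Y.J × Fin N) x => Dn t.2 t.1 x)]
    refine S.cnt_le_of_fiber (fun t => hDn _ _) (fun t => (hB _).and (Y.meas_exists_st _ _))
      Prod.fst Prod.snd fun x j => ?_
    by_cases hb : B j x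
    · refine (ncard_fin_le (m := Y.deg (j, x)) j _ fun n hn => hn.2).trans ?_
      exact Set.ncard_le_ncard_of_injOn (fun σ => (σ, j)) (fun σ hσ => ⟨rfl, hb, hσ⟩)
        (fun σ _ σ' _ e => (Prod.ext_iff.1 e).1)
    · exact (ncard_fin_le (m := 0) j _ fun n hn => absurd hn.1 hb).trans (Nat.zero_le _)
  have ha := P.aa_pos
  refine h1.trans (le_trans ?_ (mul_le_mul_of_nonneg_left h2 (by positivity)))
  rw [Finset.mul_sum]
  refine Finset.sum_le_sum fun n _ => (sin_le Y (hDn n)).trans ?_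
  have h3 : S.cnt (Dn n) ≤ S.cnt B := S.cnt_mono fun _ _ h => h.1
  have := ein_le hS hF (hDn n) (le_trans (by gcongr) hr)
  linarith

variable (Y)

theorem cnt_corner : S.cnt (fun (t : P.ι × (ZMod P.l → Y.J) × ZMod P.l) x => Y.C t.1 t.2.1 x) =
    P.l * Y.f := by
  rw [← S.cnt_equiv (Equiv.prodAssoc _ _ _)]
  have := S.cnt_prod_const (D := ZMod P.l) fun t : P.ι × (ZMod P.l → Y.J) => Y.C t.1 t.2
  rw [ZMod.card] at this
  exact this

/-- vertices lying on a cell -/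
def onC (j : Y.J) (y : S.X) : Prop := ∃ i τ k, τ k = j ∧ Y.C i τ (P.pre i k • y)

theorem meas_onC (j : Y.J) : Measurable (onC Y j) :=
  Measurable.exists fun _ => Measurable.exists fun _ => Measurable.exists fun _ =>
    measurable_const.and (S.meas_comp (Y.mC _ _) _)

theorem cnt_onC : S.cnt (onC Y) ≤ P.l * Y.f := by
  rw [← cnt_corner, ← S.cnt_shift (K := P.ι × (ZMod P.l → Y.J) × ZMod P.l) _
    (fun t => P.pre t.1 t.2.2)]
  refine S.cnt_le_of_cover (fun t => t.2.1 t.2.2) ?_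
  rintro j y ⟨i, τ, k, h1, h2⟩
  exact ⟨(i, τ, k), h1, h2⟩

variable {Y} in
theorem onC_of {i : P.ι} {τ : ZMod P.l → Y.J} {x : S.X} (h : Y.C i τ x) (k : ZMod P.l) :
    onC Y (τ k) ((P.pre i k)⁻¹ • x) := ⟨i, τ, k, rfl, by simpa using h⟩

theorem ncard_unit (p : Prop) [Decidable p] : Set.ncard {_u : Unit | p} = if p then 1 else 0 := by
  split_ifs with h <;> simp [h]

theorem ncard_deg (p : Prop) [Decidable p] (v : Y.J × S.X) :
    Set.ncard {σ | p ∧ ∃ q, Y.St σ v q} = if p then Y.deg v else 0 := by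
  split_ifs with h <;> simp [h, SG.deg]

theorem cnt_eq_sum_unit (B : Y.J → S.X → Prop) : S.cnt B = ∑ j, S.cnt fun _ : Unit => B j :=
  Finset.sum_congr rfl fun j _ => (S.cnt_unique (fun _ : Unit => B j)).symm

theorem dsum_three : dsum Y (fun j x => Y.V j x ∧ 3 ≤ Y.deg (j, x)) ≤
    3 * (2 * (Y.e - Y.v) + 2 * Y.leaves) := by
  classical
  have h1 : 1 * dsum Y (fun j x => Y.V j x ∧ 3 ≤ Y.deg (j, x)) + 6 * Y.v ≤
      3 * dsum Y Y.V + 6 * Y.leaves := by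
    rw [dsum, dsum, SG.v, SG.leaves, S.cnt_prod, S.cnt_prod, cnt_eq_sum_unit, cnt_eq_sum_unit]
    simp only [Finset.mul_sum, ← Finset.sum_add_distrib]
    refine Finset.sum_le_sum fun j _ => cnt4
      (fun σ => ((Y.mV j).and (Y.meas_deg_prop' j fun a => 3 ≤ a)).and (Y.meas_exists_st _ _))
      (fun _ => Y.mV j) (fun σ => (Y.mV j).and (Y.meas_exists_st _ _))
      (fun _ => (Y.mV j).and (Y.meas_deg_prop' j fun a => a ≤ 1)) _ _ _ _ fun x => ?_
    rw [ncard_deg, ncard_deg, ncard_unit, ncard_unit]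
    have : (1 * (if Y.V j x ∧ 3 ≤ Y.deg (j, x) then Y.deg (j, x) else 0) +
        6 * (if Y.V j x then 1 else 0) : ℕ) ≤ 3 * (if Y.V j x then Y.deg (j, x) else 0) +
        6 * (if Y.V j x ∧ Y.deg (j, x) ≤ 1 then 1 else 0) := by
      by_cases hV : Y.V j x
      · simp only [hV, true_and, if_true]
        split_ifs <;> omega
      · simp [hV]
    exact_mod_cast this
  have := dsum_le Y Y.V
  linarith

end CountG

open CountG

theorem degStmt : DegStmt := by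
  classical
  intro Γ _ P S Y _
  have h1 : 1 * S.cnt (fun j x => Y.V j x ∧ 3 ≤ Y.deg (j, x)) + 2 * Y.v ≤
      1 * dsum Y Y.V + 2 * Y.leaves := by
    rw [dsum, SG.v, SG.leaves, S.cnt_prod, cnt_eq_sum_unit, cnt_eq_sum_unit, cnt_eq_sum_unit]
    simp only [Finset.mul_sum, ← Finset.sum_add_distrib]
    refine Finset.sum_le_sum fun j _ => cnt4
      (fun _ => (Y.mV j).and (Y.meas_deg_prop' j fun a => 3 ≤ a))
      (fun _ => Y.mV j) (fun σ => (Y.mV j).and (Y.meas_exists_st _ _))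
      (fun _ => (Y.mV j).and (Y.meas_deg_prop' j fun a => a ≤ 1)) _ _ _ _ fun x => ?_
    rw [ncard_deg, ncard_unit, ncard_unit, ncard_unit]
    have : (1 * (if Y.V j x ∧ 3 ≤ Y.deg (j, x) then 1 else 0) +
        2 * (if Y.V j x then 1 else 0) : ℕ) ≤ 1 * (if Y.V j x then Y.deg (j, x) else 0) +
        2 * (if Y.V j x ∧ Y.deg (j, x) ≤ 1 then 1 else 0) := by
      by_cases hV : Y.V j x
      · simp only [hV, true_and, if_true]
        split_ifs <;> omega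
      · simp [hV]
    exact_mod_cast this
  have := dsum_le Y Y.V
  linarith

theorem coverStmt : CoverStmt := by
  intro Γ _ P S hS Y hF hr
  have ha := P.aa_pos
  have h1 : P.l * Y.f ≤ inc Y (onC Y) := by
    rw [← cnt_corner]
    exact S.cnt_mono fun t x h => ⟨h, onC_of h _, onC_of h _⟩
  have h2 := inc_le hS hF (meas_onC Y) (le_trans (by gcongr; exact cnt_onC Y) hr)
  have h3 := dsum_le Y (onC Y)
  nlinarith

theorem n3Stmt : N3Stmt := by
  intro Γ _ P S hS Y hF hr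
  have ha := P.aa_pos
  let B : Y.J → S.X → Prop := fun j y => onC Y j y ∧ 3 ≤ Y.deg (j, y)
  have hB : ∀ j, Measurable (B j) := fun j =>
    (meas_onC Y j).and (Y.meas_deg_prop' j fun a => 3 ≤ a)
  have h0 : S.cnt B ≤ P.l * Y.f := (S.cnt_mono fun _ _ h => h.1).trans (cnt_onC Y)
  have h2 := inc_le hS hF hB (le_trans (by gcongr) hr)
  have h3 : dsum Y B ≤ 3 * (2 * (Y.e - Y.v) + 2 * Y.leaves) := by
    refine (dsum_mono Y ?_).trans (dsum_three Y)
    rintro j y ⟨⟨i, τ, k, rfl, h⟩, h'⟩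
    exact ⟨by simpa using SG.cell_V h k, h'⟩
  have h4 : Y.n3 ≤ inc Y B + dsum Y B := by
    rw [SG.n3, S.cnt_split (K := P.ι × (ZMod P.l → Y.J) × ZMod P.l) _
      (fun t x => 3 ≤ Y.deg (vx P t.1 t.2.1 x (t.2.2 + 1))) (fun t => Y.meas_deg_vx t.1 t.2.1 (t.2.2 + 1) fun a => 3 ≤ a)]
    refine add_le_add (S.cnt_mono fun t x h => ⟨h.1.1, ⟨onC_of h.1.1 _, h.1.2⟩, ⟨onC_of h.1.1 _, h.2⟩⟩)
      ?_
    unfold dsum
    refine S.cnt_le_of_inj (fun t => ((Y.mC _ _).and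
        (Y.meas_deg_vx t.1 t.2.1 t.2.2 fun a => 3 ≤ a)).and
        (Y.meas_deg_vx t.1 t.2.1 (t.2.2 + 1) fun a => ¬ 3 ≤ a))
        (fun t => (P.R t.1 t.2.2, t.2.1 t.2.2)) (fun t => (P.pre t.1 t.2.2)⁻¹)
        (fun t x h => ⟨⟨onC_of h.1.1 _, h.1.2⟩, _, SG.cell_st h.1.1 t.2.2⟩) ?_
    rintro ⟨i, τ, k⟩ ⟨i', τ', k'⟩ x x' ⟨⟨hC, -⟩, hd⟩ ⟨⟨hC', -⟩, -⟩ e e'
    simp only [Prod.mk.injEq] at e hC hC' hd e'
    have hv : vx P i τ x k = vx P i' τ' x' k' := Prod.ext e.2 e'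
    have h5 := SG.cell_st hC k
    rw [e.1, hv] at h5
    obtain ⟨rfl, hk, rfl, -⟩ := SG.corner_unique hF hC hC' (hF _ _ _ _ h5 (SG.cell_st hC' k'))
      (by rw [hF _ _ _ _ h5 (SG.cell_st hC' k')] at hd ⊢; omega)
    rw [add_right_cancel hk]
  nlinarith

end Crest.Agent.R191
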