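import Mathlib
import Crest.Prelude.Def_Cost

/-! Row 191 (S0291, fixed price fails): definitions and the statements of the modules. -/

set_option autoImplicit false

open MeasureTheory

noncomputable section

namespace Crest.Agent.R191

/-! ### Words -/

/-- inverse of a signed letter -/
def sinv {S : Type} (σ : S × Bool) : S × Bool := (σ.1, !σ.2)

/-- value of a signed letter -/
def lv {S Γ : Type} [Group Γ] (val : S → Γ) (σ : S × Bool) : Γ :=
  cond σ.2 (val σ.1) (val σ.1)⁻¹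

/-- value of a word -/
def wv {S Γ : Type} [Group Γ] (val : S → Γ) (W : List (S × Bool)) : Γ :=
  (W.map (lv val)).prod

/-- the word `a0^m a_i a0^n` -/
def gam {ι : Type} (a0 i : ι) (m n : ℕ) : List (Option ι × Bool) :=
  List.replicate m (some a0, true) ++ (some i, true) :: List.replicate n (some a0, true)

/-- `len` cyclically consecutive letters of the relator `R i`, starting at position `u` -/
def arcW {ι S : Type} {l : ℕ} (R : ι → ZMod l → S) (len : ℕ) (i : ι) (u : ZMod l) : List S :=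
  (List.range len).map (fun n : ℕ => R i (u + (n : ZMod l)))

/-! ### Presentations -/

/-- The combinatorial data of the presentation that the measured argument uses.  Letters are
`Option ι` (`none` is the stable letter `t`), there is one cyclic relator `R i` of length `l` for
each `i : ι`, and `pre i k` is the value of its prefix of length `k`. -/
structure Pres (Γ : Type) [Group Γ] where
  ι : Type
  [fι : Fintype ι]
  [dι : DecidableEq ι]
  val : Option ι → Γ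
  l : ℕ
  [nz : NeZero l]
  c : ℕ
  two_le_c : 2 ≤ c
  two_c_lt : 2 * c < l
  R : ι → ZMod l → Option ι × Bool
  pre : ι → ZMod l → Γ
  pre_zero : ∀ i, pre i 0 = 1
  pre_succ : ∀ i k, pre i (k + 1) = pre i k * lv val (R i k)
  corner : ∀ i k i' k', R i k = R i' k' → R i (k + 1) = R i' (k' + 1) → i = i' ∧ k = k'
  norev : ∀ i k i' k', R i k = sinv (R i' (k' + 1)) → R i (k + 1) = sinv (R i' k') → False
  ht : Γ →* Multiplicative ℤ
  ht_a : ∀ i, ht (val (some i)) = 1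
  top : ∀ i, R i 0 = (some i, true)
  low : ∀ i k i', k ≠ 0 → (R i k).1 = some i' → ht (pre i k) = Multiplicative.ofAdd (-1)
  gen : ∀ g : Γ, ∃ W, wv val W = g
  free : Function.Injective (FreeGroup.lift (fun i => val (some i)))
  a0 : ι
  dehn : ∀ (W : List (Option ι × Bool)) (i : ι) (m n : ℕ), FreeGroup.IsReduced W →
    wv val W = wv val (gam a0 i m n) → W ≠ gam a0 i m n →
    ∃ i' u, arcW R (l - c) i' u <:+: W ∨ arcW R (l - c) i' u <:+: FreeGroup.invRev W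

attribute [instance] Pres.fι Pres.dι Pres.nz

/-- Abstract ascending HNN extension of a free group: `t a_i t⁻¹ = w_i` with positive words
`w_i = a_{w i 0} ⋯ a_{w i (L-1)}` with a small-overlap condition. -/
structure AHNN (Γ : Type) [Group Γ] (ι : Type) (L : ℕ) where
  of : FreeGroup ι →* Γ
  of_inj : Function.Injective of
  t : Γ
  w : ι → ℕ → ι
  rel : ∀ i, t * of (FreeGroup.of i) * t⁻¹
    = of (FreeGroup.mk ((List.range L).map (fun k => (w i k, true))))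
  ht : Γ →* Multiplicative ℤ
  ht_of : ∀ x, ht (of x) = 1
  ht_t : ht t = Multiplicative.ofAdd 1
  gen : Subgroup.closure (Set.range of ∪ {t}) = ⊤
  first_inj : Function.Injective (fun i => w i 0)
  last_inj : Function.Injective (fun i => w i (L - 1))
  two_inj : ∀ i k i' k', k + 1 < L → k' + 1 < L → w i k = w i' k' →
    w i (k + 1) = w i' (k' + 1) → i = i' ∧ k = k'
  no_aa : ∀ i k, k + 1 < L → w i k ≠ w i (k + 1)

/-- values of the letters -/
def AHNN.val {Γ : Type} [Group Γ] {ι : Type} {L : ℕ} (H : AHNN Γ ι L) : Option ι → Γ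
  | none => H.t
  | some i => H.of (FreeGroup.of i)

/-- the relator `a_i t⁻¹ w_i⁻¹ t`, of length `L + 3` -/
def AHNN.R {Γ : Type} [Group Γ] {ι : Type} {L : ℕ} (H : AHNN Γ ι L) (i : ι) (k : ZMod (L + 3)) :
    Option ι × Bool :=
  if k.val = 0 then (some i, true)
  else if k.val = 1 then (none, false)
  else if k.val ≤ L + 1 then (some (H.w i (L + 1 - k.val)), false)
  else (none, true)

/-- (D1) the group exists -/
def GroupStmt : Prop :=
  ∀ r : ℕ, 2 ≤ r → ∃ (Γ : Type) (_ : Group Γ), Nonempty (AHNN Γ (ZMod r) r)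

/-- (D2) the Dehn-type lemma, with `c = 12` -/
def DehnStmt : Prop :=
  ∀ (Γ : Type) [Group Γ] (ι : Type) (L : ℕ) (H : AHNN Γ ι L), 100 ≤ L →
    ∀ (a0 : ι) (W : List (Option ι × Bool)) (i : ι) (m n : ℕ), FreeGroup.IsReduced W →
      wv H.val W = wv H.val (gam a0 i m n) → W ≠ gam a0 i m n →
      ∃ i' u, arcW H.R (L + 3 - 12) i' u <:+: W ∨
        arcW H.R (L + 3 - 12) i' u <:+: FreeGroup.invRev W

/-- (D1+D2) the presentation exists -/
def PresStmt : Prop :=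
  ∀ r : ℕ, 100 ≤ r → ∃ (Γ : Type) (_ : Group Γ) (P : Pres Γ),
    Fintype.card P.ι = r ∧ P.l = r + 3 ∧ P.c = 12

/-! ### Spaces -/

/-- an everywhere free p.m.p. action on a standard Borel probability space -/
structure Sp (Γ : Type) [Group Γ] where
  X : Type
  [ms : MeasurableSpace X]
  [sb : StandardBorelSpace X]
  [act : MulAction Γ X]
  μ : Measure X
  [prob : IsProbabilityMeasure μ]
  [mc : MeasurableConstSMul Γ X]
  [inv : SMulInvariantMeasure Γ X μ]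
  free : ∀ (g : Γ) (x : X), g • x = x → g = 1

attribute [instance] Sp.ms Sp.sb Sp.act Sp.prob Sp.mc Sp.inv

section
variable {Γ : Type} [Group Γ]

/-- total measure of a finite family of sets -/
def Sp.cnt (S : Sp Γ) {K : Type} [Fintype K] (P : K → S.X → Prop) : ℝ :=
  ∑ k, S.μ.real {x | P k x}

def Sp.Cover (S : Sp Γ) : Prop :=
  ∀ ε : ℝ, 0 < ε → ∃ (n : ℕ) (A : Fin n → Set S.X), (∀ k, MeasurableSet (A k)) ∧
    (∀ k, S.μ.real (A k) ≤ ε) ∧ ∀ x, ∃ k, x ∈ A k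

def Sp.Recur (S : Sp Γ) : Prop :=
  ∀ a : Γ, ¬ IsOfFinOrder a → ∀ A : Set S.X, MeasurableSet A → S.μ A ≠ 0 →
    ∀ᵐ x ∂S.μ, ∃ m : ℕ, 1 ≤ m ∧ a ^ m • x ∈ A

/-- expansion of small sets under free families -/
def ExpandAt (Γ : Type) [Group Γ] {X : Type} [MeasurableSpace X] [MulAction Γ X]
    (μ : Measure X) : Prop :=
  ∀ (ι : Type) [Fintype ι] (b : ι → Γ), Function.Injective (FreeGroup.lift b) →
    ∀ D : Set X, MeasurableSet D →
      ∑ i, μ.real (D ∩ {x | (b i)⁻¹ • x ∈ D}) ≤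
        Fintype.card ι * μ.real D ^ 2 + 2 * Real.sqrt (Fintype.card ι) * μ.real D

def Sp.Expand (S : Sp Γ) : Prop := ExpandAt Γ S.μ

end

/-- the Bernoulli space -/
def BX (Γ : Type) : Type := Γ × ℕ → Bool

instance (Γ : Type) : MeasurableSpace (BX Γ) :=
  inferInstanceAs (MeasurableSpace (Γ × ℕ → Bool))

instance (Γ : Type) [Group Γ] : MulAction Γ (BX Γ) where
  smul g x := fun p => x (g⁻¹ * p.1, p.2)
  one_smul x := by
    funext p
    change x ((1 : Γ)⁻¹ * p.1, p.2) = x p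
    simp
  mul_smul g h x := by
    funext p
    change x ((g * h)⁻¹ * p.1, p.2) = x (h⁻¹ * (g⁻¹ * p.1), p.2)
    simp [mul_assoc]

theorem BX.smul_apply {Γ : Type} [Group Γ] (g : Γ) (x : BX Γ) (p : Γ × ℕ) :
    (g • x) p = x (g⁻¹ * p.1, p.2) := rfl

/-- the uniform product measure -/
def bμ (Γ : Type) : Measure (BX Γ) :=
  Measure.infinitePi (fun _ : Γ × ℕ => (PMF.uniformOfFintype Bool).toMeasure)

/-- (A2) expansion in the Bernoulli space -/
def ExpandStmt : Prop := ∀ (Γ : Type) [Group Γ] [Countable Γ], ExpandAt Γ (bμ Γ)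

/-- (A1+A2) the space exists -/
def SpaceStmt : Prop :=
  ∀ (Γ : Type) [Group Γ] [Countable Γ], ∃ S : Sp Γ, S.Cover ∧ S.Recur ∧ S.Expand

/-- (B) cheap actions -/
def UpperStmt : Prop :=
  ∀ (Γ : Type) [Group Γ] (P : Pres Γ) (_S : Sp Γ) (N : ℕ), 1 ≤ N →
    ∃ (Y : Type) (_ : MeasurableSpace Y) (_ : StandardBorelSpace Y) (ν : Measure Y)
      (_ : IsProbabilityMeasure ν) (_ : MulAction Γ Y),
      Crest.Dynamics.IsFreePMPAction Γ Y ν ∧
      Crest.Dynamics.actionCost Γ Y ν ≤ 1 + (Fintype.card P.ι : ENNReal) / (N : ENNReal)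

/-! ### The rank inequality -/

/-- Incidence data: the point `(a, x)` is sent to `∑ k, ε a k • (b a k x, g a k • x)`. -/
structure Inc {Γ : Type} [Group Γ] (S : Sp Γ) (A B K : Type) where
  g : A → K → Γ
  ε : A → K → ℝ
  b : A → K → S.X → B
  mb : ∀ a k b', Measurable fun x => b a k x = b'

section
variable {Γ : Type} [Group Γ] {S : Sp Γ} {A B K : Type}

/-- transpose of the incidence matrix, on functions -/
def Inc.pull [Fintype K] (α : Inc S A B K) (φ : B × S.X → ℝ) (p : A × S.X) : ℝ :=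
  ∑ k, α.ε p.1 k * φ (α.b p.1 k p.2, α.g p.1 k • p.2)

open Classical in
/-- the incidence matrix, on functions -/
def Inc.push [Fintype A] [Fintype K] (α : Inc S A B K) (ξ : A × S.X → ℝ) (q : B × S.X) : ℝ :=
  ∑ a, ∑ k, if α.b a k ((α.g a k)⁻¹ • q.2) = q.1 then α.ε a k * ξ (a, (α.g a k)⁻¹ • q.2) else 0

end

/-- (C) the rank inequality for a three-term complex -/
def RankStmt : Prop :=
  ∀ (Γ : Type) [Group Γ] (S : Sp Γ) (A B C K K' : Type) [Fintype A] [Fintype B] [Fintype C]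
    [Fintype K] [Fintype K'] (α : Inc S A B K) (β : Inc S B C K')
    (PA : A → S.X → Prop) (PB : B → S.X → Prop) (PC : C → S.X → Prop),
    (∀ a, Measurable (PA a)) → (∀ b, Measurable (PB b)) → (∀ c, Measurable (PC c)) →
    (∀ a k x, PA a x → PB (α.b a k x) (α.g a k • x)) →
    (∀ φ : C × S.X → ℝ, (∀ q, ¬ PC q.1 q.2 → φ q = 0) →
      ∀ p, PA p.1 p.2 → α.pull (β.pull φ) p = 0) →
    (∀ ξ : A × S.X → ℝ, (∀ p, ¬ PA p.1 p.2 → ξ p = 0) → (∀ q, α.push ξ q = 0) → ξ = 0) →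
    (∀ φ : C × S.X → ℝ, (∀ q, ¬ PC q.1 q.2 → φ q = 0) →
      (∀ q, PB q.1 q.2 → β.pull φ q = 0) → φ = 0) →
    S.cnt PA + S.cnt PC ≤ S.cnt PB

/-! ### Sheeted graphs with cells -/

section
variable {Γ : Type} [Group Γ]

/-- a step along the signed letter `σ` for the edge relation `E`
(`E s j j' x`: an edge labelled `s` from `(j, x)` to `(j', (val s)⁻¹ • x)`) -/
def StR (P : Pres Γ) {S : Sp Γ} {J : Type} (E : Option P.ι → J → J → S.X → Prop)
    (σ : Option P.ι × Bool) (p q : J × S.X) : Prop :=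
  q.2 = (lv P.val σ)⁻¹ • p.2 ∧ cond σ.2 (E σ.1 p.1 q.1 p.2) (E σ.1 q.1 p.1 q.2)

/-- the `k`-th vertex of the cell `(i, τ)` based at `x` -/
def vx (P : Pres Γ) {S : Sp Γ} {J : Type} (i : P.ι) (τ : ZMod P.l → J) (x : S.X) (k : ZMod P.l) :
    J × S.X := (τ k, (P.pre i k)⁻¹ • x)

/-- A measurable labelled graph on `J × X` with a family of cells. -/
structure SG (P : Pres Γ) (S : Sp Γ) where
  J : Type
  [fJ : Fintype J]
  [dJ : DecidableEq J]
  V : J → S.X → Prop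
  E : Option P.ι → J → J → S.X → Prop
  C : P.ι → (ZMod P.l → J) → S.X → Prop
  mV : ∀ j, Measurable (V j)
  mE : ∀ s j j', Measurable (E s j j')
  mC : ∀ i τ, Measurable (C i τ)
  EV1 : ∀ s j j' x, E s j j' x → V j x
  EV2 : ∀ s j j' x, E s j j' x → V j' ((P.val s)⁻¹ • x)
  CE : ∀ i τ x, C i τ x → ∀ k, StR P E (P.R i k) (vx P i τ x k) (vx P i τ x (k + 1))

attribute [instance] SG.fJ SG.dJ

variable {P : Pres Γ} {S : Sp Γ}

namespace SG

variable (Y : SG P S)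

def St (σ : Option P.ι × Bool) (p q : Y.J × S.X) : Prop := StR P Y.E σ p q

def Path : List (Option P.ι × Bool) → Y.J × S.X → Y.J × S.X → Prop
  | [], p, q => p = q
  | σ :: W, p, q => ∃ m, Y.St σ p m ∧ Path W m q

def Folded : Prop := ∀ σ p q q', Y.St σ p q → Y.St σ p q' → q = q'

def Conn : Prop :=
  ∀ p q : Y.J × S.X, Y.V p.1 p.2 → Y.V q.1 q.2 → (∃ g : Γ, q.2 = g • p.2) → ∃ W, Y.Path W p q

/-- distinct cells over the same Cayley cell are edge-disjoint -/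
def ED : Prop :=
  ∀ i τ τ' x k, Y.C i τ x → Y.C i τ' x → τ k = τ' k → τ (k + 1) = τ' (k + 1) → τ = τ'

def v : ℝ := S.cnt Y.V
def e : ℝ := S.cnt fun t : Option P.ι × Y.J × Y.J => Y.E t.1 t.2.1 t.2.2
def f : ℝ := S.cnt fun t : P.ι × (ZMod P.l → Y.J) => Y.C t.1 t.2
def chi : ℝ := Y.e - Y.v - Y.f
def psi : ℝ := Y.e - P.c * Y.f

/-- number of signed letters that can be read from `p` -/
def deg (p : Y.J × S.X) : ℕ := Set.ncard {σ | ∃ q, Y.St σ p q}

def leaves : ℝ := S.cnt fun j x => Y.V j x ∧ Y.deg (j, x) ≤ 1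

/-- cells with `c` consecutive vertices of degree at most two, starting at position `u` -/
def collapsible (u : ZMod P.l) : ℝ :=
  S.cnt fun (t : P.ι × (ZMod P.l → Y.J)) x => Y.C t.1 t.2 x ∧
    ∀ n : ℕ, n < P.c → Y.deg (vx P t.1 t.2 x (u + (n : ZMod P.l))) ≤ 2

/-- corners of cells at vertices of degree at least three -/
def n3 : ℝ :=
  S.cnt fun (t : P.ι × (ZMod P.l → Y.J) × ZMod P.l) x => Y.C t.1 t.2.1 x ∧
    3 ≤ Y.deg (vx P t.1 t.2.1 x t.2.2)

structure Good (k0 : ℝ) : Prop where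
  folded : Y.Folded
  conn : Y.Conn
  vpos : 0 < Y.v
  fle : Y.f ≤ k0
  chile : Y.chi ≤ k0

end SG

/-- `Y'` is the full folding of `Y`, with quotient map `ρ` -/
structure IsFold (Y Y' : SG P S) (ρ : S.X → Y.J → Y'.J) : Prop where
  meas : ∀ j j', Measurable fun x => ρ x j = j'
  V : ∀ j' x, Y'.V j' x ↔ ∃ j, Y.V j x ∧ ρ x j = j'
  E : ∀ s j1 j2 x, Y'.E s j1 j2 x ↔
    ∃ k1 k2, Y.E s k1 k2 x ∧ ρ x k1 = j1 ∧ ρ ((P.val s)⁻¹ • x) k2 = j2
  C : ∀ i τ' x, Y'.C i τ' x ↔ ∃ τ, Y.C i τ x ∧ ∀ k, ρ ((P.pre i k)⁻¹ • x) (τ k) = τ' k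
  folded : Y'.Folded
  least : ∀ Q : Y.J × S.X → Y.J × S.X → Prop, Equivalence Q →
    (∀ σ p p' q q', p.2 = p'.2 → ρ p.2 p.1 = ρ p'.2 p'.1 → Q p p' → Y.St σ p q → Y.St σ p' q' →
      Q q q') →
    ∀ x j j', ρ x j = ρ x j' → Q (j, x) (j', x)

/-- the expansion constant -/
def Pres.aa (P : Pres Γ) : ℝ := 2 * Real.sqrt (Fintype.card P.ι) + 2

end

/-- (E) the initial graph -/
def InitStmt : Prop :=
  ∀ (Γ : Type) [Group Γ] (P : Pres Γ) (S : Sp Γ) (k0 : ℝ), 0 < k0 →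
    Crest.Dynamics.actionCost Γ S.X S.μ < 1 + ENNReal.ofReal k0 →
    ∃ Y : SG P S, Y.Conn ∧ 0 < Y.v ∧ (∀ i τ x, ¬ Y.C i τ x) ∧ Y.e - Y.v ≤ k0

/-- (F1) foldings exist -/
def FoldExStmt : Prop :=
  ∀ (Γ : Type) [Group Γ] (P : Pres Γ) (S : Sp Γ) (Y : SG P S),
    ∃ (Y' : SG P S) (ρ : S.X → Y.J → Y'.J), IsFold Y Y' ρ

/-- (F2) folding does not increase `chi` (uses `RankStmt`) -/
def FoldChiStmt : Prop :=
  ∀ (Γ : Type) [Group Γ] (P : Pres Γ) (S : Sp Γ) (Y Y' : SG P S) (ρ : S.X → Y.J → Y'.J),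
    IsFold Y Y' ρ → Y.ED → Y'.chi ≤ Y.chi

/-- (G1) few cells cover many edges -/
def CoverStmt : Prop :=
  ∀ (Γ : Type) [Group Γ] (P : Pres Γ) (S : Sp Γ), S.Expand → ∀ Y : SG P S, Y.Folded →
    Fintype.card P.ι * (P.l * Y.f) ≤ 1 → P.l * Y.f ≤ 4 * P.aa * Y.e

/-- (G2) corners at vertices of degree at least three -/
def N3Stmt : Prop :=
  ∀ (Γ : Type) [Group Γ] (P : Pres Γ) (S : Sp Γ), S.Expand → ∀ Y : SG P S, Y.Folded →
    Fintype.card P.ι * (P.l * Y.f) ≤ 1 →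
    Y.n3 ≤ 3 * (2 * P.aa + 1) * (2 * (Y.e - Y.v) + 2 * Y.leaves)

/-- (G3) vertices of degree at least three -/
def DegStmt : Prop :=
  ∀ (Γ : Type) [Group Γ] (P : Pres Γ) (S : Sp Γ) (Y : SG P S), Y.Folded →
    S.cnt (fun j x => Y.V j x ∧ 3 ≤ Y.deg (j, x)) ≤ 2 * (Y.e - Y.v) + 2 * Y.leaves

/-- (F3) folding does not increase `psi` (uses `CoverStmt`) -/
def FoldPsiStmt : Prop :=
  ∀ (Γ : Type) [Group Γ] (P : Pres Γ) (S : Sp Γ), S.Expand →
    ∀ (Y Y' : SG P S) (ρ : S.X → Y.J → Y'.J), IsFold Y Y' ρ → Y.ED →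
    Fintype.card P.ι * (P.l * Y.f) ≤ 1 → 4 * P.aa * P.c ≤ P.l → Y'.psi ≤ Y.psi

/-- (H1) pruning leaves -/
def PruneStmt : Prop :=
  ∀ (Γ : Type) [Group Γ] (P : Pres Γ) (S : Sp Γ), S.Recur → ∀ (k0 : ℝ) (Y : SG P S), Y.Good k0 →
    ∃ Y' : SG P S, Y'.Good k0 ∧ Y'.psi ≤ Y.psi - Y.leaves

/-- (H2) collapsing cells -/
def CollapseStmt : Prop :=
  ∀ (Γ : Type) [Group Γ] (P : Pres Γ) (S : Sp Γ) (k0 : ℝ) (Y : SG P S), Y.Good k0 →
    ∀ u, ∃ Y' : SG P S, Y'.Good k0 ∧ Y'.psi ≤ Y.psi - Y.collapsible u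

/-- (I) adding cells along non-closed arcs -/
def AddStmt : Prop :=
  ∀ (Γ : Type) [Group Γ] (P : Pres Γ) (S : Sp Γ) (Y : SG P S), Y.Folded → Y.Conn → 0 < Y.v →
    ∀ (i : P.ι) (u : ZMod P.l) (PL : Y.J → S.X → Prop), (∀ j, Measurable (PL j)) →
    (∀ j y, PL j y → ∃ q, Y.Path (arcW P.R (P.l - P.c) i u) (j, y) q) →
    (∀ j y, PL j y → ∀ τ, Y.C i τ (P.pre i u • y) → τ u ≠ j) →
    ∃ (Y' : SG P S) (em : Y.J → Y'.J), Y'.Conn ∧ Y'.ED ∧ 0 < Y'.v ∧ Y'.f ≤ Y.f + S.cnt PL ∧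
      Y'.chi ≤ Y.chi ∧ Y'.psi ≤ Y.psi ∧ (∀ j x, Y.V j x → Y'.V (em j) x) ∧
      (∀ σ p q, Y.St σ p q → Y'.St σ (em p.1, p.2) (em q.1, q.2)) ∧
      ∀ j y q, PL j y → Y.Path (arcW P.R (P.l - P.c) i u) (j, y) q →
        ∃ W, W.length = P.c ∧ Y'.Path W (em j, y) (em q.1, q.2)

end Crest.Agent.R191
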