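import Crest.Agent.R191.Dehn3

/-! Row 191, subtask D2: the Dehn-type lemma. -/

set_option autoImplicit false
set_option linter.unusedVariables false
set_option linter.unusedSectionVars false

namespace Crest.Agent.R191.Dehn

open FreeGroup hiding map_one map_mul map_inv

variable {Γ : Type} [Group Γ] {ι : Type} {L : ℕ} (H : AHNN Γ ι L)

/-- the moves at the bottom level of a Dyck word -/
abbrev Item (ι : Type) : Type := (ι × Bool) ⊕ (Wd ι × FreeGroup ι)

/-- the word of a move -/
def ex : Item ι → Wd ι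
  | .inl σ => [up σ]
  | .inr p => tp :: p.1 ++ [tm]

/-- the value of a move -/
def fv : Item ι → FreeGroup ι
  | .inl σ => mk [σ]
  | .inr p => phi H p.2

/-- correct moves -/
def ok : Item ι → Prop
  | .inl _ => True
  | .inr p => Dyck p.1 ∧ wv H.val p.1 = H.of p.2

/-- the inverse move -/
def iv : Item ι → Item ι
  | .inl σ => .inl (sinv σ)
  | .inr p => .inr (invRev p.1, p.2⁻¹)

/-- the word of a list of moves -/
def E (I : List (Item ι)) : Wd ι := I.flatMap ex

/-- the reversed list of moves -/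
def rv (I : List (Item ι)) : List (Item ι) := (I.map iv).reverse

lemma E_append (I J : List (Item ι)) : E (I ++ J) = E I ++ E J := List.flatMap_append
lemma E_cons (m : Item ι) (J : List (Item ι)) : E (m :: J) = ex m ++ E J := rfl

lemma E_inl (g : List (ι × Bool)) : E (g.map Sum.inl) = g.map up := by
  induction g with
  | nil => rfl
  | cons σ g ih => rw [List.map_cons, E_cons, ih]; rfl

lemma E_infix {I J : List (Item ι)} (h : J <:+: I) : E J <:+: E I := by
  obtain ⟨s, t, rfl⟩ := h
  exact ⟨E s, E t, by simp [E_append]⟩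

lemma eq_nil_of_E {I : List (Item ι)} (h : E I = []) : I = [] := by
  cases I with
  | nil => rfl
  | cons m I => cases m <;> simp [E_cons, ex] at h

lemma iv_iv (m : Item ι) : iv (iv m) = m := by
  cases m <;> simp [iv, sinv_sinv]

lemma rv_rv (I : List (Item ι)) : rv (rv I) = I := by
  simp [rv, Function.comp_def, iv_iv]

lemma rv_append (I J : List (Item ι)) : rv (I ++ J) = rv J ++ rv I := by simp [rv]

lemma rv_cons (m : Item ι) (J : List (Item ι)) : rv (m :: J) = rv J ++ [iv m] := by simp [rv]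

lemma rv_inl (g : List (ι × Bool)) : rv (g.map Sum.inl) = (invRev g).map Sum.inl := by
  simp [rv, invRev, iv, sinv, Function.comp_def]

lemma fv_iv (m : Item ι) : fv H (iv m) = (fv H m)⁻¹ := by
  cases m with
  | inl σ => rfl
  | inr p => exact map_inv _ _

lemma pr_rv (I : List (Item ι)) : ((rv I).map (fv H)).prod = (I.map (fv H)).prod⁻¹ := by
  induction I with
  | nil => simp [rv]
  | cons m I ih => simp [rv_cons, ih, fv_iv]

lemma exists_items {W : Wd ι} (h : Dyck W) : ∃ I, E I = W ∧ ∀ m ∈ I, ok H m := by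
  induction h with
  | nil => exact ⟨[], rfl, by simp⟩
  | letter σ W _ ih =>
    obtain ⟨I, rfl, h⟩ := ih
    exact ⟨.inl σ :: I, rfl, List.forall_mem_cons.2 ⟨trivial, h⟩⟩
  | seg U W hU _ _ ih =>
    obtain ⟨I, rfl, h⟩ := ih
    obtain ⟨v, hv⟩ := hU.val H
    exact ⟨.inr (U, v) :: I, by simp [E_cons, ex], List.forall_mem_cons.2 ⟨⟨hU, hv⟩, h⟩⟩

lemma dyck_E {I : List (Item ι)} (h : ∀ m ∈ I, ok H m) : Dyck (E I) := by
  induction I with
  | nil => exact .nil
  | cons m I ih =>
    rw [List.forall_mem_cons] at h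
    cases m with
    | inl σ => exact .letter σ _ (ih h.2)
    | inr p => simpa [E_cons, ex] using Dyck.seg _ _ h.1.1 (ih h.2)

lemma wv_E {I : List (Item ι)} (h : ∀ m ∈ I, ok H m) :
    wv H.val (E I) = H.of (I.map (fv H)).prod := by
  induction I with
  | nil => exact (map_one _).symm
  | cons m I ih =>
    rw [List.forall_mem_cons] at h
    rw [E_cons, wv_append, ih h.2, List.map_cons, List.prod_cons, map_mul]
    congr 1
    cases m with
    | inl σ => rw [ex, wv_cons, wv_nil, mul_one, lv_up, fv]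
    | inr p =>
      rw [ex, List.cons_append, wv_cons, wv_append, h.1.2, wv_cons, wv_nil, mul_one, fv, ← conj_of,
        lv_tp, lv_tm, mul_assoc]

lemma not_red_tm_tp : ¬ IsReduced [(tm : Option ι × Bool), tp] := by simp [tm, tp]
lemma not_red_tp_tm : ¬ IsReduced [(tp : Option ι × Bool), tm] := by simp [tm, tp]

variable [DecidableEq ι]

lemma seg_thru (hL : 100 ≤ L) {x v : FreeGroup ι} {P e : List (ι × Bool)}
    (ha : apex x (phi H v) ≤ P.length)
    (h : P ++ e <+: x.toWord ∨ P ++ e <+: (x * phi H v).toWord) :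
    ∃ c ∈ (phi H).range, ∃ u, Thru (x * c) (PW H u) (mk P) e := by
  obtain ⟨P', Q, Z', h1, h2, h3, h4⟩ := apex_spec x (phi H v)
  rw [toWord_phi H (by omega)] at h2
  rcases h with h | h
  · refine ⟨phi H v, ⟨v, rfl⟩, invRev v.toWord, ?_⟩
    rw [PW_invRev, h2, invRev_append, invRev_invRev]
    exact thru_of_prefix h3 (h1 ▸ h) (h4 ▸ ha)
  · refine ⟨1, one_mem _, v.toWord, ?_⟩
    rw [h2, mul_one]
    exact thru_of_prefix h1 (h3 ▸ h) (h4 ▸ ha)

lemma same_coset (hL : 100 ≤ L) {x v x' v' : FreeGroup ι} {P e : List (ι × Bool)}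
    (he : 4 ≤ e.length) (ha : apex x (phi H v) ≤ P.length)
    (h : P ++ e <+: x.toWord ∨ P ++ e <+: (x * phi H v).toWord)
    (ha' : apex x' (phi H v') ≤ P.length)
    (h' : P ++ e <+: x'.toWord ∨ P ++ e <+: (x' * phi H v').toWord) :
    x⁻¹ * x' ∈ (phi H).range := by
  obtain ⟨c, hc, u, h1⟩ := seg_thru H hL ha h
  obtain ⟨c', hc', u', h1'⟩ := seg_thru H hL ha' h'
  have := mul_mem (mul_mem hc (align H hL he h1 h1')) (inv_mem hc')
  convert this using 1
  group

theorem main (hL : 100 ≤ L) (n : ℕ) : ∀ W : Wd ι, W.length < n → Dyck W → IsReduced W →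
    ∀ g, wv H.val W = H.of g → ((Thin H g.toWord ∧ W ≠ g.toWord.map up) ∨
      (g ∈ (phi H).range ∧ IsReduced (tm :: W ++ [tp]))) → Good H W := by
  induction n with
  | zero => exact fun W h => absurd h (Nat.not_lt_zero _)
  | succ n ih =>
  intro W hn hD hR g hg hcase
  obtain ⟨I, rfl, hok⟩ := exists_items H hD
  obtain rfl : (I.map (fv H)).prod = g := H.of_inj ((wv_E H hok).symm.trans hg)
  by_contra hG
  have loop : ∀ J, J <:+: I → (E J).length < (E I).length → (J.map (fv H)).prod = 1 → J = [] := by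
    intro J hJ hl h1
    by_contra hne
    have hok' : ∀ m ∈ J, ok H m := fun m hm => hok m (hJ.subset hm)
    refine hG ((ih (E J) (by omega) (dyck_E H hok') (hR.infix (E_infix hJ)) _ (wv_E H hok')
      (Or.inl ?_)).mono (E_infix hJ))
    rw [h1, toWord_one]
    exact ⟨thin_of_short H (by simp), fun h => hne (eq_nil_of_E h)⟩
  have pinch : ∀ J, J <:+: I → (E J).length < (E I).length → IsReduced (tm :: E J ++ [tp]) →
      (J.map (fv H)).prod ∉ (phi H).range := by
    intro J hJ hl h1 h2
    have hok' : ∀ m ∈ J, ok H m := fun m hm => hok m (hJ.subset hm)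
    exact hG ((ih (E J) (by omega) (dyck_E H hok') (hR.infix (E_infix hJ)) _ (wv_E H hok')
      (Or.inr ⟨h2, h1⟩)).mono (E_infix hJ))
  by_cases hseg : ∃ m ∈ I, Sum.isRight m = true
  swap
  · obtain ⟨g, rfl⟩ : ∃ g : List (ι × Bool), I = g.map Sum.inl := by
      refine ⟨I.filterMap Sum.getLeft?, ?_⟩
      clear * - hseg
      induction I with
      | nil => rfl
      | cons m I ih =>
        cases m with
        | inl σ =>
          simp only [List.filterMap_cons, Sum.getLeft?_inl, List.map_cons, List.cons.injEq,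
            true_and]
          exact ih fun ⟨m, h1, h2⟩ => hseg ⟨m, List.mem_cons_of_mem _ h1, h2⟩
        | inr p => exact absurd ⟨_, List.mem_cons_self, rfl⟩ hseg
    rw [E_inl] at hR hg hcase hG
    have e : ((g.map Sum.inl).map (fv H)).prod = mk g := H.of_inj (hg.symm.trans (wv_up H g))
    rw [e] at hcase
    rcases hcase with ⟨_, h⟩ | ⟨⟨v, hv⟩, h⟩
    · exact h (by rw [toWord_red (red_of_up hR)])
    · have e2 : g = PW H v.toWord := by
        rw [← toWord_phi H (by omega), hv, toWord_red (red_of_up hR)]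
      have e3 : v.toWord ≠ [] := fun h' => by
        rw [e2, h'] at h
        exact not_red_tm_tp h
      refine hG (good_PW_prefix H (e2 ▸ List.prefix_rfl) ?_ e3)
      rw [e2, length_PW]
      have := List.length_pos_iff.2 e3
      nlinarith [Nat.sub_le (L + 3) 12, show L + 3 - 12 ≤ L by omega]
  obtain ⟨I₁, m, I₂, hI, hm, hmax⟩ := exists_max_split (fun m => Sum.isRight m = true)
    (fun J m => apex (J.map (fv H)).prod (fv H m)) I hseg
  obtain ⟨⟨U, v⟩, rfl⟩ := Sum.isRight_iff.1 hm
  have hU : Dyck U ∧ wv H.val U = H.of v := hok (.inr (U, v)) (by simp [hI])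
  have hE : E I = E I₁ ++ (tp :: U ++ [tm]) ++ E I₂ := by
    rw [hI, E_append, E_cons, List.append_assoc]
    rfl
  have hlen : (E I).length = (E I₁).length + U.length + 2 + (E I₂).length := by
    simp [hE]
    omega
  have hUI : U <:+: E I := ⟨E I₁ ++ [tp], tm :: E I₂, by simp [hE]⟩
  have hthin : ∀ h : v.toWord.length < 5, U = v.toWord.map up := fun h => by
    by_contra hne
    exact hG ((ih U (by omega) hU.1 (hR.infix hUI) v hU.2
      (Or.inl ⟨thin_of_short H h, hne⟩)).mono hUI)
  have hv : v.toWord ≠ [] := fun h => by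
    have := hthin (by simp [h])
    rw [h] at this
    exact not_red_tp_tm (hR.infix ⟨E I₁, E I₂, by simp [hE, this]⟩)
  set x₀ := (I₁.map (fv H)).prod with hx₀
  obtain ⟨P, Q, D₀, h1, h2, h3, h4⟩ := apex_spec x₀ (phi H v)
  rw [toWord_phi H (by omega)] at h2
  have hmax' : ∀ J₁ p J₂, I = J₁ ++ .inr p :: J₂ →
      apex (J₁.map (fv H)).prod (phi H p.2) ≤ P.length :=
    fun J₁ p J₂ e => (hmax J₁ _ J₂ e rfl).trans h4.ge
  have fwd : (invRev (D₀.drop 5)).map Sum.inl <+: I₂ := by
    rcases le_or_gt D₀.length 5 with h5 | h5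
    · rw [List.drop_eq_nil_of_le h5]
      exact List.nil_prefix
    have he : (D₀.take 5).length = 5 := by simp; omega
    have hT : P ++ D₀.take 5 <+: (x₀ * phi H v).toWord :=
      ⟨D₀.drop 5, by rw [h3, List.append_assoc, List.take_append_drop]⟩
    refine desc (fv H) Sum.inl (fun _ => rfl) (P ++ D₀.take 5) _ I₂ (x₀ * phi H v)
      (by rw [h3, List.append_assoc, List.take_append_drop]) ?_ ?_ ?_
    · have e : x₀ * phi H v * (I₂.map (fv H)).prod = (I.map (fv H)).prod := by
        simp [hI, hx₀, fv, mul_assoc]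
      rw [e]
      intro hT'
      rcases hcase with ⟨h, _⟩ | ⟨⟨u, hu⟩, h⟩
      · refine h _ he ((List.suffix_append _ _).isInfix.trans hT'.isInfix) v.toWord ?_
        rw [h2]
        exact (List.take_prefix _ _).isInfix.trans (List.suffix_append _ _).isInfix
      · obtain ⟨c, hc, u', h6⟩ := seg_thru H hL h4.ge (Or.inr hT)
        rw [← hu, toWord_phi H (by omega)] at hT'
        obtain ⟨β, hβ⟩ := hT'
        have h7 := align H hL (by omega) h6 (x' := 1) (v' := u.toWord) ⟨P, β, hβ.symm, one_mul _⟩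
        refine pinch I₁ (hI ▸ (List.prefix_append _ _).isInfix) (by omega)
          (h.infix ⟨[], U ++ tm :: E I₂ ++ [tp], by simp [hE]⟩) ?_
        convert mul_mem (inv_mem h7) (inv_mem hc) using 1
        rw [← hx₀]
        group
    · intro J hJ
      have := (E_infix hJ).length_le
      exact loop J (hJ.trans ⟨I₁ ++ [.inr (U, v)], [], by simp [hI]⟩) (by omega)
    · intro J₁ m J₂ e hT'
      cases m with
      | inl σ => exact ⟨σ, rfl⟩
      | inr p =>
        exfalso
        have e1 : I = (I₁ ++ .inr (U, v) :: J₁) ++ .inr p :: J₂ := by simp [hI, e]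
        have e2 : ((I₁ ++ .inr (U, v) :: J₁).map (fv H)).prod =
            x₀ * phi H v * (J₁.map (fv H)).prod := by simp [hx₀, fv, mul_assoc]
        have h6 := hmax' _ _ _ e1
        rw [e2] at h6
        have h7 := same_coset H hL (by omega) h4.ge (Or.inr hT) h6 (Or.inl hT')
        have h8 : (E J₁).length ≤ (E I₂).length :=
          (E_infix (e ▸ (List.prefix_append _ _).isInfix)).length_le
        refine pinch J₁ ⟨I₁ ++ [.inr (U, v)], .inr p :: J₂, by simp [e1]⟩ (by omega)
          (hR.infix ⟨E I₁ ++ tp :: U, p.1 ++ tm :: E J₂, by simp [hE, e, E_append, E_cons, ex]⟩) ?_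
        convert mul_mem (inv_mem (⟨v, rfl⟩ : phi H v ∈ (phi H).range)) h7 using 1
        group
  have bwd : (invRev (Q.drop 5)).map Sum.inl <+: rv I₁ := by
    rcases le_or_gt Q.length 5 with h5 | h5
    · rw [List.drop_eq_nil_of_le h5]
      exact List.nil_prefix
    have he : (Q.take 5).length = 5 := by simp; omega
    have hT : P ++ Q.take 5 <+: x₀.toWord :=
      ⟨Q.drop 5, by rw [h1, List.append_assoc, List.take_append_drop]⟩
    refine desc (fv H) Sum.inl (fun _ => rfl) (P ++ Q.take 5) _ (rv I₁) x₀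
      (by rw [h1, List.append_assoc, List.take_append_drop]) ?_ ?_ ?_
    · rw [pr_rv, mul_inv_cancel, toWord_one]
      intro h
      have := h.length_le
      simp only [List.length_append, List.length_nil] at this
      omega
    · rintro J ⟨s, t, hJ⟩ h
      have e : I₁ = rv t ++ rv J ++ rv s := by
        rw [← rv_rv I₁, ← hJ, rv_append, rv_append, List.append_assoc]
      have hJ' : rv J <:+: I₁ := ⟨_, _, e.symm⟩
      have := (E_infix hJ').length_le
      have h6 := loop (rv J) (hJ'.trans (hI ▸ (List.prefix_append _ _).isInfix)) (by omega)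
        (by rw [pr_rv, h, inv_one])
      rw [← rv_rv J, h6]
      rfl
    · intro J₁ m J₂ e hT'
      cases m with
      | inl σ => exact ⟨σ, rfl⟩
      | inr p =>
        exfalso
        have e0 : I₁ = rv J₂ ++ .inr (invRev p.1, p.2⁻¹) :: rv J₁ := by
          rw [← rv_rv I₁, e, rv_append, rv_cons, List.append_assoc]
          rfl
        have e1 : I = rv J₂ ++ .inr (invRev p.1, p.2⁻¹) :: (rv J₁ ++ .inr (U, v) :: I₂) := by
          rw [hI, e0]
          simp
        have e2 : x₀ = ((rv J₂).map (fv H)).prod * phi H p.2⁻¹ * ((rv J₁).map (fv H)).prod := by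
          rw [hx₀, e0]
          simp [fv, mul_assoc]
        have e3 : x₀ * (J₁.map (fv H)).prod = ((rv J₂).map (fv H)).prod * phi H p.2⁻¹ := by
          rw [e2, pr_rv H J₁, inv_mul_cancel_right]
        rw [e3] at hT'
        have h7 := same_coset H hL (by omega) h4.ge (Or.inl hT) (hmax' _ _ _ e1) (Or.inr hT')
        have h8 : (E (rv J₁)).length ≤ (E I₁).length :=
          (E_infix ⟨rv J₂ ++ [.inr (invRev p.1, p.2⁻¹)], [], by simp [e0]⟩).length_le
        refine pinch (rv J₁) ⟨rv J₂ ++ [.inr (invRev p.1, p.2⁻¹)], .inr (U, v) :: I₂, by simp [e1]⟩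
          (by omega) (hR.infix ⟨E (rv J₂) ++ tp :: invRev p.1, U ++ tm :: E I₂, by
            rw [e1]
            simp [E_append, E_cons, ex]⟩) ?_
        convert mul_mem (inv_mem (⟨p.2⁻¹, rfl⟩ : phi H p.2⁻¹ ∈ (phi H).range)) (inv_mem h7) using 1
        rw [e2]
        group
  obtain ⟨I₂', e₂⟩ := fwd
  obtain ⟨I₁', e₁⟩ := bwd
  have e₁' : I₁ = rv I₁' ++ (Q.drop 5).map Sum.inl := by
    rw [← rv_rv I₁, ← e₁, rv_append, rv_inl, invRev_invRev]
  have hinf : (Q.drop 5).map up ++ tp :: U ++ tm :: (invRev (D₀.drop 5)).map up <:+: E I :=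
    ⟨E (rv I₁'), E I₂', by
      rw [hE, e₁', ← e₂, E_append, E_append, E_inl, E_inl]
      simp⟩
  have hPW : PW H v.toWord =
      invRev (Q.drop 5) ++ (invRev (Q.take 5) ++ D₀.take 5) ++ D₀.drop 5 := by
    rw [h2, ← List.append_assoc, ← invRev_append, List.take_append_drop, List.append_assoc,
      List.take_append_drop]
  have hB : (invRev (Q.take 5) ++ D₀.take 5).length ≤ 10 := by
    simp only [List.length_append, invRev_length, List.length_take]
    omega
  by_cases c1 : L + 3 - 12 ≤ (Q.drop 5).length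
  · have := good_PW_prefix H (v := v.toWord) (e := invRev (Q.drop 5))
      ⟨_, by rw [hPW, List.append_assoc]⟩ (by simpa using c1) hv
    rw [← invRev_up] at this
    exact hG (this.of_invRev.mono (List.IsInfix.trans ⟨[], _, by simp; rfl⟩ hinf))
  by_cases c2 : L + 3 - 12 ≤ (D₀.drop 5).length
  · have := good_PW_prefix H (v := invRev v.toWord) (e := invRev (D₀.drop 5))
      ⟨_, by rw [PW_invRev, hPW, invRev_append]⟩ (by simpa using c2)
      (fun h => hv (by simpa using congrArg invRev h))
    exact hG (this.mono (List.IsInfix.trans ⟨(Q.drop 5).map up ++ tp :: U ++ [tm], [], by simp⟩ hinf))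
  have hl := congrArg List.length hPW
  rw [length_PW, List.length_append, List.length_append, invRev_length] at hl
  have hv1 : v.toWord.length = 1 := by
    have := List.length_pos_iff.2 hv
    by_contra hne
    have : L * 2 ≤ L * v.toWord.length := Nat.mul_le_mul_left _ (by omega)
    omega
  obtain ⟨σ, hσ⟩ := List.length_eq_one_iff.1 hv1
  have hUσ := hthin (by omega)
  rw [hσ] at hUσ hPW
  rw [PW_single] at hPW
  refine hG ((good_top H hPW (by omega)).mono ?_)
  rw [hUσ] at hinf
  simpa using hinf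

end Crest.Agent.R191.Dehn

namespace Crest.Agent.R191

open Dehn

theorem dehnStmt : DehnStmt := by
  classical
  intro Γ _ ι L H hL a0 W i m n hW hv hne
  set g : List (ι × Bool) :=
    List.replicate m (a0, true) ++ (i, true) :: List.replicate n (a0, true) with hg
  have e : gam a0 i m n = g.map up := by simp [gam, hg, up]
  have hr : FreeGroup.IsReduced g := by
    refine List.Pairwise.isChain (List.pairwise_of_forall_mem_list fun a ha b hb _ => ?_)
    have : ∀ c ∈ g, c.2 = true := by
      intro c hc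
      simp only [hg, List.mem_append, List.mem_replicate, List.mem_cons] at hc
      rcases hc with ⟨_, rfl⟩ | rfl | ⟨_, rfl⟩ <;> rfl
    rw [this a ha, this b hb]
  rw [e, wv_up] at hv
  rw [e] at hne
  rcases dyck_or_pinch H hv with h | ⟨D, v, h1, h2, h3⟩
  · refine main H hL _ W (Nat.lt_succ_self _) h hW _ hv (Or.inl ?_)
    rw [toWord_red hr]
    exact ⟨thin_gam H hL a0 i m n, hne⟩
  · have h4 : D <:+: W := List.IsInfix.trans ⟨[tm], [tp], rfl⟩ h2
    exact (main H hL _ D (Nat.lt_succ_self _) h1 (hW.infix h4) _ h3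
      (Or.inr ⟨⟨v, rfl⟩, hW.infix h2⟩)).mono h4

end Crest.Agent.R191
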