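import Crest.Agent.R191.Defs

/-! Row 191, subtask D2: closed walks in the Cayley tree of a free group. -/

set_option autoImplicit false
set_option linter.unusedVariables false
set_option linter.unusedSectionVars false

namespace Crest.Agent.R191.Dehn

open FreeGroup

variable {ι : Type}

lemma invRev_single (σ : ι × Bool) : invRev [σ] = [sinv σ] := rfl

lemma sinv_sinv (σ : ι × Bool) : sinv (sinv σ) = σ := by simp [sinv]

lemma red_invRev {X : List (ι × Bool)} (h : IsReduced X) : IsReduced (invRev X) := by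
  rw [isReduced_iff_not_step] at h ⊢
  intro L₂ hs
  have := hs.invRev
  rw [invRev_invRev] at this
  exact h _ this

lemma invRev_infix {X Y : List (ι × Bool)} (h : X <:+: Y) : invRev X <:+: invRev Y := by
  obtain ⟨s, t, rfl⟩ := h
  exact ⟨invRev t, invRev s, by simp⟩

lemma mk_append (X Y : List (ι × Bool)) : mk (X ++ Y) = mk X * mk Y := mul_mk.symm

lemma mk_invRev (X : List (ι × Bool)) : mk (invRev X) = (mk X)⁻¹ := inv_mk.symm

lemma exists_apex_list (Z : List (ι × Bool)) : ∀ X : List (ι × Bool), IsReduced X → IsReduced Z →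
    ∃ P Q Z', X = P ++ Q ∧ Z = invRev Q ++ Z' ∧ IsReduced (P ++ Z') := by
  induction Z with
  | nil => exact fun X hX _ => ⟨X, [], [], by simp, by simp, by simpa using hX⟩
  | cons σ Z ih =>
    intro X hX hZ
    by_cases h : ∃ X₁, X = X₁ ++ [sinv σ]
    · obtain ⟨X₁, rfl⟩ := h
      obtain ⟨P, Q, Z', h1, h2, h3⟩ := ih X₁ (hX.infix (List.prefix_append _ _).isInfix)
        (hZ.infix (List.suffix_cons _ _).isInfix)
      exact ⟨P, Q ++ [sinv σ], Z', by rw [h1, List.append_assoc],
        by rw [invRev_append, invRev_single, sinv_sinv, h2]; rfl, h3⟩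
    · refine ⟨X, [], σ :: Z, by simp, by simp, ?_⟩
      refine List.IsChain.append hX hZ fun a ha b hb hab => ?_
      obtain rfl : σ = b := by simpa using hb
      by_contra hne
      refine h ⟨X.dropLast, ?_⟩
      have : a = sinv σ := Prod.ext hab (Bool.eq_not_of_ne hne)
      rw [← this]
      exact (List.dropLast_append_getLast? a ha).symm

variable [DecidableEq ι]

lemma toWord_red {X : List (ι × Bool)} (h : IsReduced X) : (mk X).toWord = X := h.reduce_eq

lemma exists_apex (x z : FreeGroup ι) : ∃ P Q Z', x.toWord = P ++ Q ∧ z.toWord = invRev Q ++ Z' ∧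
    (x * z).toWord = P ++ Z' := by
  obtain ⟨P, Q, Z', h1, h2, h3⟩ := exists_apex_list z.toWord x.toWord isReduced_toWord
    isReduced_toWord
  refine ⟨P, Q, Z', h1, h2, ?_⟩
  rw [← toWord_red h3]
  congr 1
  rw [← mk_toWord (x := x), ← mk_toWord (x := z), h1, h2]
  simp only [mk_append, mk_invRev]
  group

lemma letter_step (x : FreeGroup ι) (σ : ι × Bool) :
    (x * mk [σ]).toWord = x.toWord ++ [σ] ∨ x.toWord = (x * mk [σ]).toWord ++ [sinv σ] := by
  obtain ⟨P, Q, Z', h1, h2, h3⟩ := exists_apex x (mk [σ])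
  rw [toWord_red IsReduced.singleton] at h2
  rcases List.singleton_eq_append_iff.1 h2 with ⟨h4, h5⟩ | ⟨h4, h5⟩
  · left
    have : Q = [] := by simpa using congrArg invRev h4
    rw [h1, h3, this, h5, List.append_nil]
  · right
    have : Q = [sinv σ] := by simpa [invRev_single] using congrArg invRev h4
    rw [h1, h3, this, h5, List.append_nil]

/-- The depth of the highest point of the geodesic from `x` to `x * z`. -/
noncomputable def apex (x z : FreeGroup ι) : ℕ := (exists_apex x z).choose.length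

lemma apex_spec (x z : FreeGroup ι) : ∃ P Q Z', x.toWord = P ++ Q ∧ z.toWord = invRev Q ++ Z' ∧
    (x * z).toWord = P ++ Z' ∧ P.length = apex x z := by
  obtain ⟨Q, Z', h1, h2, h3⟩ := (exists_apex x z).choose_spec
  exact ⟨_, Q, Z', h1, h2, h3, rfl⟩

omit [DecidableEq ι] in
/-- The path `Z` read from `x` passes along `e` from the vertex `y`. -/
def Thru (x : FreeGroup ι) (Z : List (ι × Bool)) (y : FreeGroup ι) (e : List (ι × Bool)) : Prop :=
  ∃ α β, Z = α ++ e ++ β ∧ x * mk α = y

lemma thru_of_prefix {x' : FreeGroup ι} {P Q Z' y e : List (ι × Bool)} (h : x'.toWord = P ++ Z')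
    (hy : y ++ e <+: P ++ Q) (hl : P.length ≤ y.length) : Thru x' (invRev Z' ++ Q) (mk y) e := by
  obtain ⟨Q₂, h2⟩ := hy
  have h3 : P <+: y := List.prefix_of_prefix_length_le (List.prefix_append P Q)
    ⟨e ++ Q₂, by rw [← h2, List.append_assoc]⟩ hl
  obtain ⟨Q₁, rfl⟩ := h3
  have h4 : Q = Q₁ ++ e ++ Q₂ := by
    simp only [List.append_assoc] at h2 ⊢
    exact (List.append_cancel_left h2).symm
  refine ⟨invRev Z' ++ Q₁, Q₂, by simp [h4], ?_⟩
  rw [← mk_toWord (x := x'), h]
  simp only [mk_append, mk_invRev]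
  group

section desc
variable {M : Type} (fv : M → FreeGroup ι)

omit [DecidableEq ι] in
lemma exists_cross (p : FreeGroup ι → Prop) (J : List M) : ∀ x, p x → ¬ p (x * (J.map fv).prod) →
    ∃ J₁ m J₂, J = J₁ ++ m :: J₂ ∧ p (x * (J₁.map fv).prod) ∧
      ¬ p (x * (J₁.map fv).prod * fv m) := by
  induction J with
  | nil => exact fun x h h' => absurd h (by simpa using h')
  | cons m J ih =>
    intro x h h'
    by_cases h1 : p (x * fv m)
    · obtain ⟨J₁, m', J₂, e, h2, h3⟩ := ih _ h1 (by simpa [mul_assoc] using h')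
      exact ⟨m :: J₁, m', J₂, by rw [e]; rfl, by simpa [mul_assoc] using h2,
        by simpa [mul_assoc] using h3⟩
    · exact ⟨[], m, J, rfl, by simpa using h, by simpa using h1⟩

/-- A walk without loops that only makes one-letter moves below `T` climbs straight up. -/
lemma desc (lt : ι × Bool → M) (hlt : ∀ σ, fv (lt σ) = mk [σ]) (T D : List (ι × Bool)) :
    ∀ (J : List M) (x : FreeGroup ι), x.toWord = T ++ D → ¬ T <+: (x * (J.map fv).prod).toWord →
      (∀ J₁, J₁ <:+: J → (J₁.map fv).prod = 1 → J₁ = []) →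
      (∀ J₁ m J₂, J = J₁ ++ m :: J₂ → T <+: (x * (J₁.map fv).prod).toWord → ∃ σ, m = lt σ) →
      (invRev D).map lt <+: J := by
  induction D using List.reverseRecOn with
  | nil => exact fun J _ _ _ _ _ => List.nil_prefix
  | append_singleton D c ih =>
    intro J x hx hfin hloop hstep
    obtain ⟨J₁, m, J₂, e, h1, h2⟩ := exists_cross fv (fun y => x.toWord <+: y.toWord) J x
      List.prefix_rfl fun h => hfin ((hx ▸ List.prefix_append T _).trans h)
    obtain ⟨σ, rfl⟩ := hstep J₁ m J₂ e ((hx ▸ List.prefix_append T _).trans h1)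
    rw [hlt] at h2
    rcases letter_step (x * (J₁.map fv).prod) σ with h3 | h3
    · exact absurd (h3 ▸ h1.trans (List.prefix_append _ _)) h2
    have h4 : x.toWord = (x * (J₁.map fv).prod).toWord := by
      rw [h3] at h1 ⊢
      rcases List.prefix_concat_iff.1 h1 with h | h
      · exact h
      · exact absurd h h2
    have h5 : J₁ = [] := hloop J₁ (e ▸ (List.prefix_append _ _).isInfix)
      (mul_eq_left.1 (toWord_injective h4).symm)
    subst h5
    simp only [List.map_nil, List.prod_nil, mul_one, List.nil_append] at h3 e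
    rw [hx, ← List.append_assoc] at h3
    obtain ⟨h6, h7⟩ := List.append_inj' h3 rfl
    have h8 : σ = sinv c := by
      rw [List.singleton_inj.1 h7, sinv_sinv]
    subst e
    rw [invRev_append, invRev_single, ← h8, List.singleton_append, List.map_cons,
      List.cons_prefix_cons]
    refine ⟨rfl, ih J₂ (x * mk [σ]) h6.symm ?_ ?_ ?_⟩
    · simpa [hlt, mul_assoc] using hfin
    · exact fun J₁ h => hloop J₁ (h.trans (List.suffix_cons _ _).isInfix)
    · intro J₁ m J₃ e h
      exact hstep (lt σ :: J₁) m J₃ (by rw [e]; rfl) (by simpa [hlt, mul_assoc] using h)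

end desc

omit [DecidableEq ι] in
lemma exists_max_split {M : Type} (S : M → Prop) (f : List M → M → ℕ) (I : List M)
    (h : ∃ m ∈ I, S m) : ∃ I₁ m I₂, I = I₁ ++ m :: I₂ ∧ S m ∧
      ∀ J₁ m' J₂, I = J₁ ++ m' :: J₂ → S m' → f J₁ m' ≤ f I₁ m := by
  classical
  obtain ⟨m₀, hm₀, hS⟩ := h
  obtain ⟨j₀, rfl⟩ := List.get_of_mem hm₀
  obtain ⟨j, hj, hmax⟩ := Finset.exists_max_image
    (Finset.univ.filter fun j : Fin I.length => S (I.get j)) (fun j => f (I.take j) (I.get j))
    ⟨j₀, by simpa using hS⟩
  refine ⟨I.take j, I.get j, I.drop (j + 1), by simp, by simpa using hj, ?_⟩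
  intro J₁ m' J₂ e hS'
  have hl : J₁.length < I.length := by simp [e]
  have e1 : I.get ⟨J₁.length, hl⟩ = m' := by simp [e]
  have e2 : I.take J₁.length = J₁ := by simp [e]
  have := hmax ⟨J₁.length, hl⟩ (by simpa only [Finset.mem_filter, Finset.mem_univ, true_and, e1])
  simpa only [e1, e2] using this

end Crest.Agent.R191.Dehn
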