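import Crest.Agent.R191.Dehn1

/-! Row 191, subtask D2: the substitution `φ` and the arcs of the relators. -/

set_option autoImplicit false
set_option linter.unusedVariables false
set_option linter.unusedSectionVars false

namespace Crest.Agent.R191.Dehn

open FreeGroup hiding map_one map_mul map_inv

variable {Γ : Type} [Group Γ] {ι : Type} {L : ℕ} (H : AHNN Γ ι L)

/-- the word `w_i` -/
def wl (i : ι) : List (ι × Bool) := (List.range L).map fun k => (H.w i k, true)

/-- the image of a signed letter -/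
def blk (σ : ι × Bool) : List (ι × Bool) := cond σ.2 (wl H σ.1) (invRev (wl H σ.1))

/-- the image of a word -/
def PW (v : List (ι × Bool)) : List (ι × Bool) := v.flatMap (blk H)

/-- the substitution -/
def phi : FreeGroup ι →* FreeGroup ι := FreeGroup.lift fun i => mk (wl H i)

lemma length_blk (σ : ι × Bool) : (blk H σ).length = L := by
  obtain ⟨i, b⟩ := σ
  cases b <;> simp [blk, wl]

lemma blk_sinv (σ : ι × Bool) : blk H (sinv σ) = invRev (blk H σ) := by
  obtain ⟨i, b⟩ := σ
  cases b <;> simp [blk, sinv]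

lemma PW_nil : PW H [] = [] := rfl
lemma PW_cons (σ : ι × Bool) (v : List (ι × Bool)) : PW H (σ :: v) = blk H σ ++ PW H v := rfl
lemma PW_append (v v' : List (ι × Bool)) : PW H (v ++ v') = PW H v ++ PW H v' :=
  List.flatMap_append
lemma PW_single (σ : ι × Bool) : PW H [σ] = blk H σ := by simp [PW]

lemma PW_invRev (v : List (ι × Bool)) : PW H (invRev v) = invRev (PW H v) := by
  induction v with
  | nil => rfl
  | cons σ v ih =>
    rw [invRev_cons, PW_append, ih, invRev_single, PW_single, blk_sinv, PW_cons, invRev_append]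

lemma length_PW (v : List (ι × Bool)) : (PW H v).length = L * v.length := by
  induction v with
  | nil => rfl
  | cons σ v ih => rw [PW_cons, List.length_append, ih, length_blk, List.length_cons]; ring

lemma phi_single (σ : ι × Bool) : phi H (mk [σ]) = mk (blk H σ) := by
  obtain ⟨i, b⟩ := σ
  cases b <;> simp [phi, blk]

lemma phi_mk (v : List (ι × Bool)) : phi H (mk v) = mk (PW H v) := by
  induction v with
  | nil => exact map_one _
  | cons σ v ih =>
    rw [PW_cons, mk_append, ← ih, ← phi_single, ← map_mul, ← mk_append]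
    rfl

/-- the letters of a block -/
def bl (σ : ι × Bool) (k : ℕ) : ι × Bool := (H.w σ.1 (cond σ.2 k (L - 1 - k)), σ.2)

lemma blk_eq (σ : ι × Bool) : blk H σ = (List.range L).map (bl H σ) := by
  obtain ⟨i, b⟩ := σ
  cases b
  · apply List.ext_getElem
    · simp [length_blk]
    · intro k h1 h2
      simp [blk, wl, invRev, bl]
  · rfl

lemma bl_of_split {σ : ι × Bool} {b₁ b₃ : List (ι × Bool)} {c₁ c₂ : ι × Bool}
    (h : blk H σ = b₁ ++ c₁ :: c₂ :: b₃) :
    b₁.length + 1 < L ∧ c₁ = bl H σ b₁.length ∧ c₂ = bl H σ (b₁.length + 1) := by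
  have hl : b₁.length + 1 < L := by
    have := congrArg List.length h
    simp only [length_blk, List.length_append, List.length_cons] at this
    omega
  rw [blk_eq] at h
  have h1 := congrArg (·[b₁.length]?) h
  have h2 := congrArg (·[b₁.length + 1]?) h
  simp [List.getElem?_range (show b₁.length < L by omega), List.getElem?_range hl] at h1 h2
  exact ⟨hl, h1.symm, h2.symm⟩

lemma blk_two {σ σ' : ι × Bool} {b₁ b₃ b₁' b₃' : List (ι × Bool)} {c₁ c₂ : ι × Bool}
    (h : blk H σ = b₁ ++ c₁ :: c₂ :: b₃) (h' : blk H σ' = b₁' ++ c₁ :: c₂ :: b₃') : b₁ = b₁' := by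
  obtain ⟨l1, e1, e2⟩ := bl_of_split H h
  obtain ⟨l1', e1', e2'⟩ := bl_of_split H h'
  obtain ⟨i, b⟩ := σ
  obtain ⟨i', b'⟩ := σ'
  rw [e1] at e1'
  rw [e2] at e2'
  simp only [bl, Prod.mk.injEq] at e1' e2'
  obtain rfl := e1'.2
  have key : i = i' ∧ b₁.length = b₁'.length := by
    cases b
    · simp only [cond_false] at e1' e2'
      have := H.two_inj i (L - 1 - (b₁.length + 1)) i' (L - 1 - (b₁'.length + 1)) (by omega)
        (by omega) e2'.1 (by
          rw [show L - 1 - (b₁.length + 1) + 1 = L - 1 - b₁.length by omega,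
            show L - 1 - (b₁'.length + 1) + 1 = L - 1 - b₁'.length by omega]
          exact e1'.1)
      exact ⟨this.1, by omega⟩
    · exact H.two_inj i _ i' _ l1 l1' e1'.1 e2'.1
  obtain ⟨rfl, hl⟩ := key
  exact (List.append_inj (h.symm.trans h') hl).1

lemma blk_ne {σ : ι × Bool} {b₁ b₃ : List (ι × Bool)} {c₁ c₂ : ι × Bool}
    (h : blk H σ = b₁ ++ c₁ :: c₂ :: b₃) : c₁ ≠ c₂ := by
  obtain ⟨l1, rfl, rfl⟩ := bl_of_split H h
  obtain ⟨i, b⟩ := σ
  intro e
  simp only [bl, Prod.mk.injEq, and_true] at e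
  cases b
  · refine H.no_aa i (L - 1 - (b₁.length + 1)) (by omega) ?_
    rw [show L - 1 - (b₁.length + 1) + 1 = L - 1 - b₁.length by omega]
    exact e.symm
  · exact H.no_aa i _ l1 e

lemma red_blk (σ : ι × Bool) : IsReduced (blk H σ) := by
  rw [blk_eq, FreeGroup.IsReduced, List.isChain_map]
  exact List.isChain_iff_getElem.2 fun i _ _ => rfl

lemma red_PW (hL : 0 < L) {v : List (ι × Bool)} (hv : IsReduced v) : IsReduced (PW H v) := by
  induction v with
  | nil => exact IsReduced.nil
  | cons σ v ih =>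
    rw [PW_cons]
    refine List.IsChain.append (red_blk H σ) (ih (hv.infix (List.suffix_cons _ _).isInfix)) ?_
    cases v with
    | nil => simp [PW_nil]
    | cons σ' v =>
      intro a ha b hb hab
      have h1 : a = bl H σ (L - 1) := by
        obtain ⟨m, rfl⟩ : ∃ m, L = m + 1 := ⟨L - 1, by omega⟩
        rw [blk_eq, List.range_succ] at ha
        simpa [eq_comm] using ha
      have h2 : b = bl H σ' 0 := by
        obtain ⟨m, rfl⟩ : ∃ m, L = m + 1 := ⟨L - 1, by omega⟩
        rw [PW_cons, blk_eq, List.range_succ_eq_map] at hb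
        simpa [eq_comm] using hb
      subst h1 h2
      have h3 := (isReduced_cons_cons.1 hv).1
      obtain ⟨i, s⟩ := σ
      obtain ⟨i', s'⟩ := σ'
      cases s <;> cases s' <;> simp only [bl, cond_true, cond_false, Nat.sub_self, Nat.sub_zero] at *
      · exact h3 (H.first_inj hab)
      · exact h3 (H.last_inj hab)

lemma toWord_phi [DecidableEq ι] (hL : 0 < L) (v : FreeGroup ι) :
    (phi H v).toWord = PW H v.toWord := by
  rw [← toWord_red (red_PW H hL (isReduced_toWord (x := v))), ← phi_mk, mk_toWord]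

lemma split_PW (v : List (ι × Bool)) : ∀ α β, PW H v = α ++ β → β ≠ [] →
    ∃ v₁ σ v₂ b₁ b₂, blk H σ = b₁ ++ b₂ ∧ b₂ ≠ [] ∧ α = PW H v₁ ++ b₁ ∧ β = b₂ ++ PW H v₂ := by
  induction v with
  | nil =>
    intro α β h hβ
    exact absurd (List.append_eq_nil_iff.1 h.symm).2 hβ
  | cons σ v ih =>
    intro α β h hβ
    rw [PW_cons] at h
    rcases List.append_eq_append_iff.1 h with ⟨a, h1, h2⟩ | ⟨c, h1, h2⟩
    · obtain ⟨v₁, σ', v₂, b₁, b₂, e1, e2, e3, e4⟩ := ih a β h2 hβ
      exact ⟨σ :: v₁, σ', v₂, b₁, b₂, e1, e2, by rw [h1, e3, PW_cons, List.append_assoc], e4⟩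
    · by_cases hc : c = []
      · subst hc
        obtain ⟨v₁, σ', v₂, b₁, b₂, e1, e2, e3, e4⟩ := ih [] β (by simpa using h2.symm) hβ
        refine ⟨σ :: v₁, σ', v₂, b₁, b₂, e1, e2, ?_, e4⟩
        rw [PW_cons, List.append_assoc, ← e3, h1]
        simp
      · exact ⟨[], σ, v, α, c, h1, hc, rfl, h2⟩

lemma interior_PW {v α β : List (ι × Bool)} {c₁ c₂ : ι × Bool} (h : PW H v = α ++ c₁ :: c₂ :: β)
    (hd : ¬ L ∣ α.length + 1) :
    ∃ v₁ σ b₁ b₃, α = PW H v₁ ++ b₁ ∧ blk H σ = b₁ ++ c₁ :: c₂ :: b₃ := by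
  obtain ⟨v₁, σ, v₂, b₁, b₂, e1, e2, e3, e4⟩ := split_PW H v α _ h (by simp)
  have hl := congrArg List.length e1
  rw [length_blk, List.length_append] at hl
  match b₂, e2 with
  | [d], _ =>
    refine absurd ⟨v₁.length + 1, ?_⟩ hd
    rw [e3, List.length_append, length_PW, mul_add, mul_one]
    simp at hl
    omega
  | d₁ :: d₂ :: b₃, _ =>
    simp only [List.cons_append, List.cons.injEq] at e4
    exact ⟨v₁, σ, b₁, b₃, e3, by rw [e1, e4.1, e4.2.1]⟩

lemma split_at {α β e Z : List (ι × Bool)} (h : Z = α ++ e ++ β) (r : ℕ) (hr : r + 1 < e.length) :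
    Z = (α ++ e.take r) ++ e[r] :: e[r + 1] :: (e.drop (r + 2) ++ β) := by
  rw [h]
  conv_lhs => rw [← List.take_append_drop r e, List.drop_eq_getElem_cons (by omega : r < e.length),
    List.drop_eq_getElem_cons hr]
  simp only [List.append_assoc, List.cons_append]

lemma not_dvd_both (hL : 100 ≤ L) {a r r' : ℕ} (h : r < r') (h' : r' < 10) (h1 : L ∣ a + r + 1)
    (h2 : L ∣ a + r' + 1) : False := by
  have := Nat.le_of_dvd (by omega) ((Nat.dvd_sub h2 h1).trans
    (dvd_of_eq (show a + r' + 1 - (a + r + 1) = r' - r by omega)))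
  omega

/-- Two images of words that pass along the same long path lie in the same coset. -/
lemma align (hL : 100 ≤ L) {x x' y : FreeGroup ι} {v v' e : List (ι × Bool)} (he : 4 ≤ e.length)
    (h : Thru x (PW H v) y e) (h' : Thru x' (PW H v') y e) : x⁻¹ * x' ∈ (phi H).range := by
  obtain ⟨α, β, e1, e2⟩ := h
  obtain ⟨α', β', e1', e2'⟩ := h'
  obtain ⟨r, hr, h1, h2⟩ : ∃ r, r < 3 ∧ ¬ L ∣ α.length + r + 1 ∧ ¬ L ∣ α'.length + r + 1 := by
    by_contra hc
    push Not at hc
    have := @not_dvd_both L hL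
    by_cases a0 : L ∣ α.length + 0 + 1
    · have a1 : ¬ L ∣ α.length + 1 + 1 :=
        fun h => this (r := 0) (r' := 1) (by norm_num) (by norm_num) a0 h
      have a2 : ¬ L ∣ α.length + 2 + 1 :=
        fun h => this (r := 0) (r' := 2) (by norm_num) (by norm_num) a0 h
      exact this (r := 1) (r' := 2) (by norm_num) (by norm_num) (hc 1 (by norm_num) a1)
        (hc 2 (by norm_num) a2)
    · by_cases a1 : L ∣ α.length + 1 + 1
      · have a2 : ¬ L ∣ α.length + 2 + 1 :=
          fun h => this (r := 1) (r' := 2) (by norm_num) (by norm_num) a1 h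
        exact this (r := 0) (r' := 2) (by norm_num) (by norm_num) (hc 0 (by norm_num) a0)
          (hc 2 (by norm_num) a2)
      · exact this (r := 0) (r' := 1) (by norm_num) (by norm_num) (hc 0 (by norm_num) a0)
          (hc 1 (by norm_num) a1)
  have hl : (e.take r).length = r := by simp; omega
  obtain ⟨v₁, σ, b₁, b₃, f1, f2⟩ := interior_PW H (split_at e1 r (by omega))
    (by rwa [List.length_append, hl])
  obtain ⟨v₁', σ', b₁', b₃', f1', f2'⟩ := interior_PW H (split_at e1' r (by omega))
    (by rwa [List.length_append, hl])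
  obtain rfl := blk_two H f2 f2'
  refine ⟨mk v₁ * (mk v₁')⁻¹, ?_⟩
  have g1 := congrArg mk f1
  have g2 := congrArg mk f1'
  rw [mk_append, mk_append, ← phi_mk] at g1 g2
  rw [map_mul, map_inv, eq_mul_inv_of_mul_eq g1.symm, eq_mul_inv_of_mul_eq g2.symm,
    eq_mul_inv_of_mul_eq (e2'.trans e2.symm)]
  group

/-- no five letters in common with the image of a word -/
def Thin (g : List (ι × Bool)) : Prop := ∀ e, e.length = 5 → e <:+: g → ∀ v, ¬ e <:+: PW H v

lemma thin_of_short {g : List (ι × Bool)} (h : g.length < 5) : Thin H g :=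
  fun e he h1 _ _ => by have := h1.length_le; omega

lemma thin_gam (hL : 100 ≤ L) (a0 i : ι) (m n : ℕ) :
    Thin H (List.replicate m (a0, true) ++ (i, true) :: List.replicate n (a0, true)) := by
  rintro e he ⟨s, t, h1⟩ v ⟨α, β, h2⟩
  have k1 : ∀ r (hr : r < e.length), s.length + r ≠ m → e[r] = (a0, true) := by
    intro r hr hm
    have := congrArg (·[s.length + r]?) h1
    simp only [List.append_assoc, List.getElem?_append_right (Nat.le_add_right _ _),
      Nat.add_sub_cancel_left, List.getElem?_append_left hr, List.getElem?_eq_getElem hr] at this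
    rcases lt_or_gt_of_ne hm with h | h
    · rw [List.getElem?_append_left (by simpa using h), List.getElem?_replicate, if_pos h] at this
      exact Option.some.inj this
    · rw [List.getElem?_append_right (by simpa using h.le), List.length_replicate,
        show s.length + r - m = s.length + r - m - 1 + 1 by omega, List.getElem?_cons_succ,
        List.getElem?_replicate] at this
      split_ifs at this
      exact Option.some.inj this
  have k2 : ∀ r, r < 4 → s.length + r ≠ m → s.length + r + 1 ≠ m → L ∣ α.length + r + 1 := by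
    intro r hr h3 h4
    by_contra hd
    have hl : (e.take r).length = r := by simp; omega
    obtain ⟨v₁, σ, b₁, b₃, f1, f2⟩ := interior_PW H (split_at h2.symm r (by omega))
      (by rwa [List.length_append, hl])
    exact blk_ne H f2 ((k1 r _ h3).trans (k1 (r + 1) _ h4).symm)
  have := @not_dvd_both L hL α.length
  by_cases c1 : m ≤ s.length + 1
  · exact this (r := 2) (r' := 3) (by norm_num) (by norm_num) (k2 2 (by norm_num) (by omega) (by omega))
      (k2 3 (by norm_num) (by omega) (by omega))
  · by_cases c2 : m = s.length + 2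
    · exact this (r := 0) (r' := 3) (by norm_num) (by norm_num)
        (k2 0 (by norm_num) (by omega) (by omega)) (k2 3 (by norm_num) (by omega) (by omega))
    · exact this (r := 0) (r' := 1) (by norm_num) (by norm_num)
        (k2 0 (by norm_num) (by omega) (by omega)) (k2 1 (by norm_num) (by omega) (by omega))

end Crest.Agent.R191.Dehn
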