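import Crest.Agent.R191.Dehn2

/-! Row 191, subtask D2: words in the HNN extension, arcs and Dyck words. -/

set_option autoImplicit false
set_option linter.unusedVariables false
set_option linter.unusedSectionVars false

namespace Crest.Agent.R191.Dehn

open FreeGroup hiding map_one map_mul map_inv

variable {Γ : Type} [Group Γ] {ι : Type} {L : ℕ} (H : AHNN Γ ι L)

/-- words of the presentation -/
abbrev Wd (ι : Type) : Type := List (Option ι × Bool)

/-- a letter of the free group as a letter of the presentation -/
def up (σ : ι × Bool) : Option ι × Bool := (some σ.1, σ.2)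

/-- the letter `t` -/
def tp : Option ι × Bool := (none, true)

/-- the letter `t⁻¹` -/
def tm : Option ι × Bool := (none, false)

lemma invRev_up (g : List (ι × Bool)) : invRev (g.map up) = (invRev g).map up := by
  simp [invRev, up, Function.comp_def]

lemma invRev_tp : invRev [(tp : Option ι × Bool)] = [tm] := rfl
lemma invRev_tm : invRev [(tm : Option ι × Bool)] = [tp] := rfl

lemma red_of_up {g : List (ι × Bool)} (h : IsReduced (g.map up)) : IsReduced g := by
  rw [FreeGroup.IsReduced, List.isChain_map] at h
  exact h.imp fun a b h' hab => h' (congrArg some hab)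

lemma wv_nil : wv H.val [] = 1 := rfl
lemma wv_cons (σ : Option ι × Bool) (W : Wd ι) : wv H.val (σ :: W) = lv H.val σ * wv H.val W := by
  simp [wv]
lemma wv_append (W W' : Wd ι) : wv H.val (W ++ W') = wv H.val W * wv H.val W' := by
  simp [wv]
lemma lv_tp : lv H.val tp = H.t := rfl
lemma lv_tm : lv H.val tm = H.t⁻¹ := rfl

lemma lv_up (σ : ι × Bool) : lv H.val (up σ) = H.of (mk [σ]) := by
  obtain ⟨i, b⟩ := σ
  cases b
  · exact (map_inv H.of (FreeGroup.of i)).symm
  · rfl

lemma wv_up (g : List (ι × Bool)) : wv H.val (g.map up) = H.of (mk g) := by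
  induction g with
  | nil => exact (map_one H.of).symm
  | cons σ g ih =>
    rw [List.map_cons, wv_cons, ih, lv_up, ← map_mul, ← mk_append]
    rfl

lemma wv_invRev (W : Wd ι) : wv H.val (invRev W) = (wv H.val W)⁻¹ := by
  induction W with
  | nil => exact inv_one.symm
  | cons σ W ih =>
    rw [invRev_cons, wv_append, ih, wv_cons, mul_inv_rev, invRev_single, wv_cons, wv_nil, mul_one]
    congr 1
    obtain ⟨s, b⟩ := σ
    cases b <;> simp [lv, sinv]

lemma conj_of (x : FreeGroup ι) : H.t * H.of x * H.t⁻¹ = H.of (phi H x) := by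
  have : (MulAut.conj H.t).toMonoidHom.comp H.of = H.of.comp (phi H) := by
    ext i
    simpa [phi, wl] using H.rel i
  exact DFunLike.congr_fun this x

lemma t_mul_of (x : FreeGroup ι) : H.t * H.of x = H.of (phi H x) * H.t := by
  rw [← conj_of, inv_mul_cancel_right]

/-! ### Arcs -/

/-- the conclusion of the lemma -/
def Good (W : Wd ι) : Prop :=
  ∃ i' u, arcW H.R (L + 3 - 12) i' u <:+: W ∨ arcW H.R (L + 3 - 12) i' u <:+: invRev W

variable {H} in
lemma Good.mono {W W' : Wd ι} (h : Good H W) (h' : W <:+: W') : Good H W' := by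
  obtain ⟨i, u, h | h⟩ := h
  exacts [⟨i, u, Or.inl (h.trans h')⟩, ⟨i, u, Or.inr (h.trans (invRev_infix h'))⟩]

variable {H} in
lemma Good.of_invRev {W : Wd ι} (h : Good H (invRev W)) : Good H W := by
  obtain ⟨i, u, h | h⟩ := h
  exacts [⟨i, u, Or.inr h⟩, ⟨i, u, Or.inl (by rwa [invRev_invRev] at h)⟩]

/-- the relator as a list -/
def RL (i : ι) : Wd ι := up (i, true) :: tm :: (invRev (wl H i)).map up ++ [tp]

lemma RL_eq (i : ι) : RL H i = (List.range (L + 3)).map fun n : ℕ => H.R i (n : ZMod (L + 3)) := by
  have hb : invRev (wl H i) = (List.range L).map (bl H (i, false)) := blk_eq H (i, false)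
  rw [RL, hb]
  apply List.ext_getElem
  · simp
  · intro k h1 h2
    have hk : k < L + 3 := by simpa using h2
    simp only [List.getElem_map, List.getElem_range, AHNN.R, ZMod.val_natCast,
      Nat.mod_eq_of_lt hk]
    match k with
    | 0 => rfl
    | 1 => rfl
    | k + 2 =>
      simp only [List.cons_append, List.getElem_cons_succ]
      rw [if_neg (by omega), if_neg (by omega)]
      by_cases h : k < L
      · rw [if_pos (by omega), List.getElem_append_left (by simpa using h)]
        simp only [List.getElem_map, List.getElem_range, up, bl, cond_false]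
        rw [show L + 1 - (k + 2) = L - 1 - k by omega]
      · rw [if_neg (by omega), List.getElem_append_right (by simpa using h)]
        simp [tp]

lemma good_of_infix (i : ι) {e : Wd ι} (h : e <:+: RL H i ++ RL H i) (hl : L + 3 - 12 ≤ e.length) :
    Good H e := by
  have h2 : RL H i ++ RL H i =
      (List.range (L + 3 + (L + 3))).map fun n : ℕ => H.R i (n : ZMod (L + 3)) := by
    rw [List.range_add, List.map_append, ← RL_eq, List.map_map, RL_eq]
    congr 2
    funext n
    simp only [Function.comp, Nat.cast_add (L + 3) n, ZMod.natCast_self, zero_add]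
  obtain ⟨s, t, h3⟩ := h
  refine ⟨i, (s.length : ZMod (L + 3)), Or.inl (List.IsPrefix.isInfix ?_)⟩
  rw [List.prefix_iff_eq_take]
  apply List.ext_getElem
  · simp only [arcW, List.length_map, List.length_range, List.length_take, min_eq_left hl]
  · intro k h4 h5
    have hk : k < e.length := by simp at h5; omega
    have h6 := congrArg (·[s.length + k]?) (h3.trans h2)
    have h7 : s.length + k < L + 3 + (L + 3) := by
      have := congrArg List.length (h3.trans h2)
      simp at this
      omega
    simp only [List.append_assoc, List.getElem?_append_right (Nat.le_add_right _ _),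
      Nat.add_sub_cancel_left, List.getElem?_append_left hk, List.getElem?_eq_getElem hk,
      List.getElem?_map, List.getElem?_range h7, Option.map_some, Option.some.injEq] at h6
    simp [arcW, h6]

lemma good_blk {σ : ι × Bool} {e : List (ι × Bool)} (h : e <:+: blk H σ)
    (hl : L + 3 - 12 ≤ e.length) : Good H (e.map up) := by
  have key : ∀ i (e : List (ι × Bool)), e <:+: invRev (wl H i) → L + 3 - 12 ≤ e.length →
      Good H (e.map up) := fun i e h hl => by
    refine good_of_infix H i ((h.map up).trans ?_) (by simpa using hl)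
    exact ⟨[up (i, true), tm], [tp] ++ RL H i, by simp [RL]⟩
  obtain ⟨i, b⟩ := σ
  cases b
  · exact key i e h hl
  · refine Good.of_invRev ?_
    rw [invRev_up]
    exact key i _ (invRev_infix h) (by simpa using hl)

lemma good_top {σ : ι × Bool} {A B D : List (ι × Bool)} (h : blk H σ = invRev A ++ B ++ D)
    (hl : B.length ≤ 12) : Good H (A.map up ++ tp :: up σ :: tm :: (invRev D).map up) := by
  have key : ∀ i (A B D : List (ι × Bool)), wl H i = invRev A ++ B ++ D → B.length ≤ 12 →
      Good H (A.map up ++ tp :: up (i, true) :: tm :: (invRev D).map up) := fun i A B D h hl => by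
    refine good_of_infix H i ⟨up (i, true) :: tm :: (invRev D).map up ++ (invRev B).map up,
      (invRev B).map up ++ A.map up ++ [tp], by simp [RL, h]⟩ ?_
    have := congrArg List.length h
    simp [wl] at this ⊢
    omega
  obtain ⟨i, b⟩ := σ
  cases b
  · refine Good.of_invRev ?_
    have h' : wl H i = invRev D ++ invRev B ++ A := by
      have := congrArg invRev h
      simpa [blk] using this
    have := key i D (invRev B) A h' (by simpa using hl)
    convert this using 1
    simp [invRev, up, tp, tm, Function.comp_def]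
  · exact key i A B D h hl

lemma good_PW_prefix {v e : List (ι × Bool)} (h : e <+: PW H v) (hl : L + 3 - 12 ≤ e.length)
    (hv : v ≠ []) : Good H (e.map up) := by
  obtain ⟨σ, v, rfl⟩ := List.exists_cons_of_ne_nil hv
  rw [PW_cons] at h
  have h1 : e.take (L + 3 - 12) <+: blk H σ :=
    List.prefix_of_prefix_length_le ((List.take_prefix _ _).trans h) (List.prefix_append _ _)
      (by simp [length_blk])
  exact (good_blk H h1.isInfix (by rw [List.length_take, min_eq_left hl])).mono ((List.take_prefix _ _).isInfix.map up)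

/-! ### Dyck words -/

/-- words staying above their initial height and coming back to it -/
inductive Dyck : Wd ι → Prop
  | nil : Dyck []
  | letter (σ : ι × Bool) (W : Wd ι) : Dyck W → Dyck (up σ :: W)
  | seg (U W : Wd ι) : Dyck U → Dyck W → Dyck (tp :: U ++ tm :: W)

lemma Dyck.append {W W' : Wd ι} (h : Dyck W) (h' : Dyck W') : Dyck (W ++ W') := by
  induction h with
  | nil => exact h'
  | letter σ W _ ih => exact .letter σ _ ih
  | seg U W hU _ _ ih =>
    rw [List.append_assoc]
    exact .seg U _ hU ih

lemma Dyck.invRev {W : Wd ι} (h : Dyck W) : Dyck (invRev W) := by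
  induction h with
  | nil => exact .nil
  | letter σ W _ ih =>
    rw [invRev_cons]
    exact ih.append (.letter (sinv σ) [] .nil)
  | seg U W _ _ ihU ihW =>
    have := ihW.append (.seg _ _ ihU .nil)
    convert this using 1
    simp [FreeGroup.invRev, tp, tm]

lemma Dyck.val {W : Wd ι} (h : Dyck W) : ∃ f, wv H.val W = H.of f := by
  induction h with
  | nil => exact ⟨1, (map_one _).symm⟩
  | letter σ W _ ih =>
    obtain ⟨f, hf⟩ := ih
    exact ⟨mk [σ] * f, by rw [wv_cons, hf, lv_up, map_mul]⟩
  | seg U W _ _ ihU ihW =>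
    obtain ⟨f, hf⟩ := ihU
    obtain ⟨g, hg⟩ := ihW
    refine ⟨phi H f * g, ?_⟩
    rw [List.cons_append, wv_cons, wv_append, wv_cons, hf, hg, map_mul, ← conj_of, lv_tp, lv_tm]
    group

/-- `a` unmatched letters `t⁻¹` followed by `b` unmatched letters `t` -/
inductive Form : ℕ → ℕ → Wd ι → Prop
  | base (D : Wd ι) : Dyck D → Form 0 0 D
  | up (b : ℕ) (D W : Wd ι) : Dyck D → Form 0 b W → Form 0 (b + 1) (D ++ tp :: W)
  | down (a b : ℕ) (D W : Wd ι) : Dyck D → Form a b W → Form (a + 1) b (D ++ tm :: W)

lemma Form.prepend {a b : ℕ} {D W : Wd ι} (hD : Dyck D) (h : Form a b W) : Form a b (D ++ W) := by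
  cases h with
  | base _ h => exact .base _ (hD.append h)
  | up b D' W h h' =>
    rw [← List.append_assoc]
    exact .up b _ W (hD.append h) h'
  | down a b D' W h h' =>
    rw [← List.append_assoc]
    exact .down a b _ W (hD.append h) h'

lemma exists_form (W : Wd ι) : ∃ a b, Form a b W := by
  induction W with
  | nil => exact ⟨0, 0, .base _ .nil⟩
  | cons σ W ih =>
    obtain ⟨a, b, h⟩ := ih
    obtain ⟨_ | i, s⟩ := σ
    · cases s
      · exact ⟨a + 1, b, .down a b [] W .nil h⟩
      · cases h with
        | base _ h => exact ⟨0, 1, .up 0 [] _ .nil (.base _ h)⟩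
        | up b D W h h' => exact ⟨0, b + 2, .up _ [] _ .nil (.up b D W h h')⟩
        | down a b D W h h' =>
          refine ⟨a, b, ?_⟩
          have := Form.prepend (.seg D [] h .nil) h'
          simpa [tp] using this
    · exact ⟨a, b, Form.prepend (D := [up (i, s)]) (.letter (i, s) [] .nil) h⟩

lemma form_val {b : ℕ} : ∀ {W : Wd ι}, Form 0 b W → ∃ f, wv H.val W = H.of f * H.t ^ b := by
  induction b with
  | zero =>
    intro W h
    cases h with
    | base _ h => simpa using h.val H
  | succ b ih =>
    intro W h
    cases h with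
    | up _ D W h h' =>
      obtain ⟨f, hf⟩ := h.val H
      obtain ⟨g, hg⟩ := ih h'
      refine ⟨f * phi H g, ?_⟩
      rw [wv_append, wv_cons, hf, hg, lv_tp, map_mul, ← conj_of, pow_succ']
      group

lemma height_eq {f g : FreeGroup ι} {b c : ℕ} (h : H.of f * H.t ^ b = H.of g * H.t ^ c) :
    b = c := by
  have := congrArg H.ht h
  simp only [map_mul, map_pow, H.ht_of, H.ht_t, one_mul, ← ofAdd_nsmul] at this
  simpa using this

lemma form_pinch {a b : ℕ} : ∀ {W : Wd ι} {x : FreeGroup ι} {c : ℕ}, Form (a + 1) b W →
    wv H.val W = H.of x * H.t ^ c →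
      ∃ D v, Dyck D ∧ tm :: D ++ [tp] <:+: W ∧ wv H.val D = H.of (phi H v) := by
  induction a with
  | zero =>
    intro W x c h hx
    cases h with
    | down _ _ D W h h' =>
      obtain ⟨f, hf⟩ := h.val H
      have e : wv H.val W = H.of (phi H (f⁻¹ * x)) * H.t ^ (c + 1) := by
        rw [wv_append, wv_cons, hf, lv_tm] at hx
        rw [← conj_of, map_mul, map_inv, pow_succ', eq_inv_mul_of_mul_eq (eq_inv_mul_of_mul_eq hx)]
        group
      obtain ⟨g, hg⟩ := form_val H h'
      obtain rfl := height_eq H (hg.symm.trans e)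
      cases h' with
      | up _ D' W' h1 h2 =>
        obtain ⟨g', hg'⟩ := form_val H h2
        refine ⟨D', f⁻¹ * x * g'⁻¹, h1, ⟨D, W', by simp⟩, ?_⟩
        rw [wv_append, wv_cons, hg', lv_tp] at e
        rw [map_mul (phi H), map_inv (phi H), map_mul, map_inv, ← conj_of H g',
          eq_mul_inv_of_mul_eq e, pow_succ']
        group
  | succ a ih =>
    intro W x c h hx
    cases h with
    | down _ _ D W h h' =>
      obtain ⟨f, hf⟩ := h.val H
      have e : wv H.val W = H.of (phi H (f⁻¹ * x)) * H.t ^ (c + 1) := by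
        rw [wv_append, wv_cons, hf, lv_tm] at hx
        rw [← conj_of, map_mul, map_inv, pow_succ', eq_inv_mul_of_mul_eq (eq_inv_mul_of_mul_eq hx)]
        group
      obtain ⟨D', v, h1, h2, h3⟩ := ih h' e
      exact ⟨D', v, h1, h2.trans ⟨D ++ [tm], [], by simp⟩, h3⟩

lemma dyck_or_pinch {W : Wd ι} {x : FreeGroup ι} (hx : wv H.val W = H.of x) :
    Dyck W ∨ ∃ D v, Dyck D ∧ tm :: D ++ [tp] <:+: W ∧ wv H.val D = H.of (phi H v) := by
  obtain ⟨a, b, h⟩ := exists_form W
  cases a with
  | zero =>
    obtain ⟨g, hg⟩ := form_val H h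
    obtain rfl : b = 0 := height_eq H (c := 0) (g := x) (by rw [← hg, hx, pow_zero, mul_one])
    cases h with
    | base _ h => exact Or.inl h
  | succ a => exact Or.inr (form_pinch H (c := 0) (x := x) h (by rw [hx, pow_zero, mul_one]))

end Crest.Agent.R191.Dehn
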