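import Mathlib
import Crest.Agent.R191.Defs

/-! Row 191, module A2: expansion of small sets in the Bernoulli space (moment method). -/

set_option autoImplicit false

open MeasureTheory Finset
open scoped RealInnerProductSpace symmDiff

noncomputable section

namespace Crest.Agent.R191

namespace Expand

/-- the weight `lam ^ (-|g|)` is almost subharmonic on the free group -/
lemma weight_le {ι : Type} [Fintype ι] [DecidableEq ι] {lam : ℝ} (hlam : 1 ≤ lam)
    (g : FreeGroup ι) :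
    ∑ σ : ι × Bool, lam⁻¹ ^ (FreeGroup.mk [σ] * g).norm ≤
      (2 * Fintype.card ι / lam + lam) * lam⁻¹ ^ g.norm := by
  have h0 : 0 < lam := by linarith
  have hpos : 0 < lam⁻¹ ^ g.norm := by positivity
  obtain ⟨σ₀, hσ₀⟩ : ∃ σ₀ : Option (ι × Bool), ∀ σ : ι × Bool, some σ ≠ σ₀ →
      (FreeGroup.mk [σ] * g).norm = g.norm + 1 := by
    have h1 : ∀ σ : ι × Bool, (FreeGroup.mk [σ] * g).toWord = FreeGroup.reduce (σ :: g.toWord) := by
      intro σ
      conv_lhs => rw [← FreeGroup.mk_toWord (x := g), FreeGroup.mul_mk, FreeGroup.toWord_mk]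
      rfl
    simp only [FreeGroup.norm, h1, FreeGroup.reduce.cons, FreeGroup.reduce_toWord]
    cases g.toWord with
    | nil => exact ⟨none, fun σ _ => rfl⟩
    | cons hd tl =>
      refine ⟨some (hd.1, !hd.2), fun σ hσ => ?_⟩
      dsimp only
      rw [if_neg fun h => hσ (by rw [← h.1, ← h.2])]
      rfl
  have h2 : ∀ σ : ι × Bool, lam⁻¹ ^ (FreeGroup.mk [σ] * g).norm ≤
      lam⁻¹ * lam⁻¹ ^ g.norm + if some σ = σ₀ then lam * lam⁻¹ ^ g.norm else 0 := by
    intro σ
    split_ifs with h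
    · have h3 : g.norm ≤ 1 + (FreeGroup.mk [σ] * g).norm := by
        have h4 := FreeGroup.norm_mul_le (FreeGroup.mk [σ])⁻¹ (FreeGroup.mk [σ] * g)
        have h5 : (FreeGroup.mk [σ]).norm ≤ 1 := FreeGroup.norm_mk_le
        rw [inv_mul_cancel_left, FreeGroup.norm_inv_eq] at h4
        omega
      have h4 : lam⁻¹ ^ (1 + (FreeGroup.mk [σ] * g).norm) ≤ lam⁻¹ ^ g.norm :=
        pow_le_pow_of_le_one (by positivity) (inv_le_one_of_one_le₀ hlam) h3
      rw [pow_add, pow_one, inv_mul_le_iff₀ h0] at h4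
      have : 0 < lam⁻¹ * lam⁻¹ ^ g.norm := by positivity
      linarith
    · rw [hσ₀ σ h, pow_succ', add_zero]
  refine (sum_le_sum fun σ _ => h2 σ).trans ?_
  rw [sum_add_distrib, sum_const, card_univ, Fintype.card_prod, Fintype.card_bool, nsmul_eq_mul,
    add_mul]
  refine add_le_add (le_of_eq (by push_cast; ring)) ?_
  cases σ₀ with
  | none => simp; positivity
  | some τ => simp

lemma convex_bdd {c : ℕ → ℝ} {C : ℝ} (h1 : ∀ n, 0 ≤ c (n + 2) - 2 * c (n + 1) + c n)
    (h2 : ∀ n, c n ≤ C) : c 1 ≤ c 0 := by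
  by_contra hcon
  have hd : 0 < c 1 - c 0 := by linarith [not_le.1 hcon]
  have h3 : ∀ n, c 1 - c 0 ≤ c (n + 1) - c n := by
    intro n
    induction n with
    | zero => simp
    | succ n ih => linarith [h1 n]
  have h4 : ∀ n : ℕ, c 0 + n * (c 1 - c 0) ≤ c n := by
    intro n
    induction n with
    | zero => simp
    | succ n ih => push_cast; linarith [h3 n]
  obtain ⟨n, hn⟩ := exists_nat_gt ((C - c 0) / (c 1 - c 0))
  rw [div_lt_iff₀ hd] at hn
  linarith [h4 n, h2 n]

/-- Kesten-type bound for a vector with finitely supported matrix coefficient. -/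
theorem kesten {E : Type} [NormedAddCommGroup E] [InnerProductSpace ℝ E] {ι : Type} [Fintype ι]
    (U : FreeGroup ι → E →ₗ[ℝ] E) (hone : ∀ x, U 1 x = x)
    (hmul : ∀ g h x, U (g * h) x = U g (U h x)) (hadj : ∀ g x y, ⟪U g x, y⟫ = ⟪x, U g⁻¹ y⟫)
    (v : E) (hfin : {g | ⟪v, U g v⟫ ≠ 0}.Finite) :
    ∑ i, ⟪v, U (FreeGroup.of i) v⟫ ≤ 2 * √(Fintype.card ι) * ⟪v, v⟫ := by
  classical
  rcases isEmpty_or_nonempty ι with hι | hι
  · simp
  set lam := √(Fintype.card ι : ℝ) with hlam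
  have hr : (1 : ℝ) ≤ Fintype.card ι := by exact_mod_cast Fintype.card_pos
  have hlam1 : 1 ≤ lam := Real.one_le_sqrt.2 hr
  have hlam0 : 0 < lam := by linarith
  have hρ : 2 * (Fintype.card ι : ℝ) / lam + lam = 3 * lam := by
    rw [← Real.mul_self_sqrt (by linarith : (0 : ℝ) ≤ Fintype.card ι), ← hlam]
    field_simp
    ring
  set S : E →ₗ[ℝ] E := ∑ σ : ι × Bool, U (FreeGroup.mk [σ]) with hS
  have hinv : ∀ σ : ι × Bool, (FreeGroup.mk [σ])⁻¹ = FreeGroup.mk [(σ.1, !σ.2)] := fun σ => by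
    rw [FreeGroup.inv_mk]; rfl
  have hSadj : ∀ x y, ⟪S x, y⟫ = ⟪x, S y⟫ := by
    intro x y
    simp only [hS, LinearMap.sum_apply, sum_inner, inner_sum, hadj, hinv]
    exact Fintype.sum_equiv (Equiv.prodCongr (Equiv.refl ι) Equiv.boolNot) _ _ fun σ => rfl
  obtain ⟨C, hC⟩ : ∃ C : ℝ, ∀ g, |⟪v, U g v⟫| ≤ C * lam⁻¹ ^ g.norm := by
    refine ⟨∑ g ∈ hfin.toFinset, |⟪v, U g v⟫| * lam ^ g.norm, fun g => ?_⟩
    have h0 : ∀ g ∈ hfin.toFinset, 0 ≤ |⟪v, U g v⟫| * lam ^ g.norm := fun _ _ => by positivity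
    by_cases hg : ⟪v, U g v⟫ = 0
    · rw [hg, abs_zero]
      exact mul_nonneg (sum_nonneg h0) (by positivity)
    · rw [inv_pow, ← div_eq_mul_inv, le_div_iff₀ (by positivity)]
      exact single_le_sum h0 (by simpa using hg)
  have hC0 : 0 ≤ C := by simpa using (abs_nonneg _).trans (hC 1)
  have hn : ∀ (n : ℕ) (g : FreeGroup ι),
      |⟪(S ^ n) v, U g v⟫| ≤ C * (3 * lam) ^ n * lam⁻¹ ^ g.norm := by
    intro n
    induction n with
    | zero => simpa using hC
    | succ n ih =>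
      intro g
      rw [pow_succ', Module.End.mul_apply, hSadj, hS, LinearMap.sum_apply, inner_sum]
      simp only [← hmul, ← hS]
      refine (abs_sum_le_sum_abs _ _).trans ((sum_le_sum fun σ _ => ih _).trans ?_)
      rw [← mul_sum, pow_succ, ← mul_assoc, mul_assoc _ (3 * lam), ← hρ]
      exact mul_le_mul_of_nonneg_left (weight_le hlam1 g) (by positivity)
  have hpow : ∀ (n : ℕ) x y, ⟪(S ^ n) x, y⟫ = ⟪x, (S ^ n) y⟫ := by
    intro n
    induction n with
    | zero => simp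
    | succ n ih =>
      intro x y
      rw [pow_succ', Module.End.mul_apply, hSadj, ih, ← Module.End.mul_apply, ← pow_succ,
        ← pow_succ']
  set ρ := 3 * lam with hρdef
  have hρ0 : 0 < ρ := by positivity
  have h1 := convex_bdd (c := fun n => ⟪(S ^ n) v, (S ^ n) v⟫ / ρ ^ (2 * n)) (C := C)
    (fun n => by
      have h2 := real_inner_self_nonneg (x := (S ^ (n + 2)) v - ρ ^ 2 • (S ^ n) v)
      have h3 : ⟪(S ^ (n + 2)) v, (S ^ n) v⟫ = ⟪(S ^ (n + 1)) v, (S ^ (n + 1)) v⟫ := by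
        rw [pow_succ' S (n + 1), Module.End.mul_apply, hSadj, ← Module.End.mul_apply, ← pow_succ']
      simp only [inner_sub_left, inner_sub_right, real_inner_smul_left, real_inner_smul_right,
        real_inner_comm ((S ^ (n + 2)) v) ((S ^ n) v), h3] at h2
      refine le_of_le_of_eq (div_nonneg h2 (pow_nonneg hρ0.le (2 * (n + 2)))) ?_
      field_simp
      ring)
    (fun n => by
      have h2 := hn (2 * n) 1
      rw [hone, FreeGroup.norm_one, pow_zero, mul_one] at h2
      rw [div_le_iff₀ (by positivity), ← hpow, ← Module.End.mul_apply, ← pow_add, ← two_mul]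
      exact (le_abs_self _).trans h2)
  simp only [pow_one, mul_one, pow_zero, mul_zero, div_one, Module.End.one_apply] at h1
  rw [div_le_iff₀ (by positivity)] at h1
  have h2 := real_inner_self_nonneg (x := S v - ρ • v)
  simp only [inner_sub_left, inner_sub_right, real_inner_smul_left, real_inner_smul_right,
    real_inner_comm v (S v)] at h2
  have h3 : ⟪v, S v⟫ = 2 * ∑ i, ⟪v, U (FreeGroup.of i) v⟫ := by
    rw [hS, LinearMap.sum_apply, inner_sum, Fintype.sum_prod_type, mul_sum]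
    refine sum_congr rfl fun i _ => ?_
    rw [Fintype.sum_bool, two_mul]
    congr 1
    rw [real_inner_comm, hadj, hinv]
    rfl
  have h4 : ⟪v, S v⟫ ≤ ρ * ⟪v, v⟫ := by
    refine le_of_mul_le_mul_left ?_ hρ0
    nlinarith
  have h5 := real_inner_self_nonneg (x := v)
  nlinarith

/-- the measure form -/
theorem expand_of_finite {Γ X : Type} [Group Γ] [MeasurableSpace X] [MulAction Γ X]
    (μ : Measure X) [IsProbabilityMeasure μ] [MeasurableConstSMul Γ X]
    [SMulInvariantMeasure Γ X μ] {ι : Type} [Fintype ι] (b : ι → Γ)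
    (hb : Function.Injective (FreeGroup.lift b)) {D : Set X} (hD : MeasurableSet D)
    (hfin : {g : Γ | μ.real (D ∩ {x | g⁻¹ • x ∈ D}) ≠ μ.real D ^ 2}.Finite) :
    ∑ i, μ.real (D ∩ {x | (b i)⁻¹ • x ∈ D}) ≤
      Fintype.card ι * μ.real D ^ 2 + 2 * √(Fintype.card ι) * μ.real D := by
  let V : Γ → Lp ℝ 2 μ →ₗᵢ[ℝ] Lp ℝ 2 μ := fun g =>
    { toFun := fun f => DomMulAct.mk g⁻¹ • f
      map_add' := DomMulAct.smul_Lp_add _
      map_smul' := fun c f => smul_comm _ c f
      norm_map' := DomMulAct.norm_smul_Lp _ }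
  have hV : ∀ g f, V g f = DomMulAct.mk g⁻¹ • f := fun _ _ => rfl
  have hone : ∀ f, V 1 f = f := fun f => by simp [hV]
  have hmul : ∀ g h f, V (g * h) f = V g (V h f) := fun g h f => by
    simp only [hV, mul_inv_rev, DomMulAct.mk_mul, mul_smul]
  have hadj : ∀ g x y, ⟪V g x, y⟫ = ⟪x, V g⁻¹ y⟫ := fun g x y => by
    rw [← (V g).inner_map_map x, ← hmul, mul_inv_cancel, hone]
  set p := μ.real D with hp
  set v : Lp ℝ 2 μ := indicatorConstLp 2 hD (measure_ne_top _ _) (1 : ℝ) -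
    p • indicatorConstLp 2 MeasurableSet.univ (measure_ne_top _ _) (1 : ℝ) with hv
  have hφ : ∀ g, ⟪v, V g v⟫ = μ.real (D ∩ {x | g⁻¹ • x ∈ D}) - p ^ 2 := by
    intro g
    rw [hv, map_sub, map_smul, hV, hV, DomMulAct.mk_smul_indicatorConstLp,
      DomMulAct.mk_smul_indicatorConstLp]
    simp only [inner_sub_left, inner_sub_right, real_inner_smul_left, real_inner_smul_right,
      L2.real_inner_indicatorConstLp_one_indicatorConstLp_one, Set.preimage_univ, Set.inter_univ,
      Set.univ_inter, probReal_univ, ← hp]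
    have : μ.real ((fun x => g⁻¹ • x) ⁻¹' D) = p := by
      rw [hp, Measure.real, Measure.real, measure_preimage_smul]
    rw [this]
    change _ = μ.real (D ∩ (fun x => g⁻¹ • x) ⁻¹' D) - p ^ 2
    ring
  have h1 := kesten (fun w => (V (FreeGroup.lift b w)).toLinearMap) (fun x => by simp [hone])
    (fun g h x => by simp [hmul]) (fun g x y => by simp [hadj]) v
    ((hfin.preimage hb.injOn).subset fun w hw => by
      simpa [hφ, sub_eq_zero] using hw)
  have h2 := hφ 1
  simp only [hone, inv_one, one_smul, Set.ofPred_mem_eq, Set.inter_self, ← hp] at h2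
  simp only [FreeGroup.lift_apply_of, LinearIsometry.coe_toLinearMap, hφ, sum_sub_distrib,
    sum_const, card_univ, nsmul_eq_mul, h2] at h1
  have := mul_nonneg (Real.sqrt_nonneg (Fintype.card ι : ℝ)) (sq_nonneg p)
  nlinarith

variable {Γ : Type} [Group Γ]

instance instProb : IsProbabilityMeasure (bμ Γ) :=
  inferInstanceAs (IsProbabilityMeasure
    (Measure.infinitePi (fun _ : Γ × ℕ => (PMF.uniformOfFintype Bool).toMeasure)))

instance instMeas : MeasurableConstSMul Γ (BX Γ) :=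
  ⟨fun _ => measurable_pi_lambda _ fun _ => measurable_pi_apply _⟩

instance instInv : SMulInvariantMeasure Γ (BX Γ) (bμ Γ) := by
  refine ⟨fun g s hs => ?_⟩
  have h := Measure.infinitePi_map_piCongrLeft
    (fun _ : Γ × ℕ => (PMF.uniformOfFintype Bool).toMeasure)
    (Equiv.prodCongr (Equiv.mulLeft g) (Equiv.refl ℕ))
  have h2 : (fun x : BX Γ => g • x) = MeasurableEquiv.piCongrLeft (fun _ : Γ × ℕ => Bool)
      (Equiv.prodCongr (Equiv.mulLeft g) (Equiv.refl ℕ)) := by
    funext x p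
    rw [BX.smul_apply, MeasurableEquiv.coe_piCongrLeft, Equiv.piCongrLeft_apply_eq_cast]
    rfl
  rw [← Measure.map_apply (measurable_const_smul g) hs, h2]
  exact congrArg (fun ν : Measure (Γ × ℕ → Bool) => ν s) h

lemma cylinder_finite (s : Finset (Γ × ℕ)) (S : Set (s → Bool)) :
    {g : Γ | (bμ Γ).real ((cylinder s S : Set (BX Γ)) ∩ {x | g⁻¹ • x ∈ cylinder s S}) ≠
      (bμ Γ).real (cylinder s S) ^ 2}.Finite := by
  classical
  refine ((s ×ˢ s).image fun q => q.1.1 * q.2.1⁻¹).finite_toSet.subset fun g hg => ?_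
  by_contra hcon
  refine hg ?_
  set t : Finset (Γ × ℕ) := s.image fun p => (g * p.1, p.2) with ht
  have hdis : Disjoint s t := by
    rw [disjoint_left]
    intro q hq hq'
    obtain ⟨p, hp, rfl⟩ := mem_image.1 hq'
    exact hcon (mem_coe.2 (mem_image.2 ⟨(_, p), mem_product.2 ⟨hq, hp⟩, by simp⟩))
  have hind := (ProbabilityTheory.iIndepFun_infinitePi
    (P := fun _ : Γ × ℕ => (PMF.uniformOfFintype Bool).toMeasure) (X := fun _ ω => ω)
    (fun _ => measurable_id)).indepFun_finset s t hdis fun _ => measurable_pi_apply _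
  set T : Set (t → Bool) :=
    {y | (fun p : s => y ⟨(g * p.1.1, p.1.2), mem_image_of_mem _ p.2⟩) ∈ S} with hT
  have h1 := hind.measure_inter_preimage_eq_mul S T (Set.toFinite S).measurableSet
    (Set.toFinite T).measurableSet
  have h2 : {x : BX Γ | g⁻¹ • x ∈ cylinder s S} =
      (fun (a : Γ × ℕ → Bool) (i : t) => a i) ⁻¹' T := by
    ext x
    change (fun p : s => x (g⁻¹⁻¹ * p.1.1, p.1.2)) ∈ S ↔ (fun p : s => x (g * p.1.1, p.1.2)) ∈ S
    rw [inv_inv]
  have h3 : bμ Γ {x : BX Γ | g⁻¹ • x ∈ cylinder s S} = bμ Γ (cylinder s S) :=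
    measure_preimage_smul (bμ Γ) g⁻¹ (cylinder s S : Set (BX Γ))
  have h4 : bμ Γ ((cylinder s S : Set (BX Γ)) ∩ {x | g⁻¹ • x ∈ cylinder s S}) =
      bμ Γ (cylinder s S) * bμ Γ {x : BX Γ | g⁻¹ • x ∈ cylinder s S} := by
    rw [h2]; exact h1
  rw [Measure.real, Measure.real, h4, h3, ENNReal.toReal_mul, sq]

end Expand

open Expand in
theorem expandStmt : ExpandStmt := by
  intro Γ _ _ ι _ b hb D hD
  have hdense : (bμ Γ).MeasureDense (measurableCylinders fun _ : Γ × ℕ => Bool) :=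
    Measure.MeasureDense.of_generateFrom_isSetAlgebra_finite (bμ Γ)
      isSetAlgebra_measurableCylinders generateFrom_measurableCylinders.symm
  set r : ℝ := (Fintype.card ι : ℝ) with hr
  have hr0 : 0 ≤ r := Nat.cast_nonneg _
  have key : ∀ ε : ℝ, 0 < ε → ∑ i, (bμ Γ).real (D ∩ {x | (b i)⁻¹ • x ∈ D}) ≤
      r * ((bμ Γ).real D + ε) ^ 2 + 2 * √r * ((bμ Γ).real D + ε) + r * (2 * ε) := by
    intro ε hε
    obtain ⟨D', hD', hε'⟩ := hdense.approx D hD (measure_ne_top _ _) ε hε
    have hm : MeasurableSet (D' : Set (BX Γ)) := hdense.measurable _ hD'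
    obtain ⟨s, S, -, rfl⟩ := (mem_measurableCylinders _).1 hD'
    have h1 := expand_of_finite (bμ Γ) b hb hm (cylinder_finite s S)
    set D' : Set (BX Γ) := cylinder s S
    have h2 : (bμ Γ).real (D ∆ D') ≤ ε := ENNReal.toReal_le_of_le_ofReal hε.le hε'.le
    have h3 : (bμ Γ).real D' ≤ (bμ Γ).real D + ε := by
      refine le_trans (measureReal_mono (show D' ⊆ D ∪ D ∆ D' from fun x hx => ?_))
        ((measureReal_union_le _ _).trans (by linarith))
      by_cases h : x ∈ D <;> simp [Set.mem_symmDiff, h, hx]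
    have h4 : ∀ i, (bμ Γ).real (D ∩ {x | (b i)⁻¹ • x ∈ D}) ≤
        (bμ Γ).real (D' ∩ {x | (b i)⁻¹ • x ∈ D'}) + 2 * ε := by
      intro i
      have h5 : (bμ Γ).real ((fun x => (b i)⁻¹ • x) ⁻¹' (D ∆ D')) = (bμ Γ).real (D ∆ D') := by
        rw [Measure.real, Measure.real, measure_preimage_smul]
      refine le_trans (measureReal_mono (show _ ⊆ (D' ∩ {x | (b i)⁻¹ • x ∈ D'}) ∪
        (D ∆ D' ∪ (fun x => (b i)⁻¹ • x) ⁻¹' (D ∆ D')) from fun x hx => ?_))
        ((measureReal_union_le _ _).trans (add_le_add le_rfl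
          ((measureReal_union_le _ _).trans (by linarith))))
      have h6 : x ∈ D := hx.1
      have h7 : (b i)⁻¹ • x ∈ D := hx.2
      by_cases h : x ∈ D' <;> by_cases h' : (b i)⁻¹ • x ∈ D' <;>
        simp [Set.mem_symmDiff, h, h', h6, h7]
    have h5 := sum_le_sum fun i (_ : i ∈ univ) => h4 i
    rw [sum_add_distrib, sum_const, card_univ, nsmul_eq_mul, ← hr] at h5
    have h6 : (bμ Γ).real D' ^ 2 ≤ ((bμ Γ).real D + ε) ^ 2 :=
      pow_le_pow_left₀ measureReal_nonneg h3 2
    have h7 := mul_le_mul_of_nonneg_left h6 hr0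
    have h8 := mul_le_mul_of_nonneg_left h3 (by positivity : 0 ≤ 2 * √r)
    linarith
  have hcont : Continuous fun ε : ℝ =>
      r * ((bμ Γ).real D + ε) ^ 2 + 2 * √r * ((bμ Γ).real D + ε) + r * (2 * ε) := by fun_prop
  have h := ge_of_tendsto ((hcont.tendsto 0).mono_left (nhdsWithin_le_nhds (s := Set.Ioi 0)))
    (eventually_nhdsWithin_of_forall fun ε hε => key ε hε)
  simpa using h

end Crest.Agent.R191
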