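import Crest.Agent.R191.Graph

/-! Row 191, module F2: folding does not increase `e - v - f` (mapping cone and rank inequality). -/

set_option autoImplicit false

open MeasureTheory Finset

noncomputable section

namespace Crest.Agent.R191

namespace FoldChi

variable {Γ : Type} [Group Γ] (P : Pres Γ) {S : Sp Γ} (M : ℕ)

/-- height modulo `M` -/
def lvl (g : Γ) : ZMod M := ((P.ht g).toAdd : ℤ)

lemma lvl_one : lvl P M 1 = 0 := by simp [lvl]

lemma lvl_mul (g h : Γ) : lvl P M (g * h) = lvl P M g + lvl P M h := by simp [lvl]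

lemma lvl_inv (g : Γ) : lvl P M g⁻¹ = -lvl P M g := by simp [lvl]

/-- the edge under position `k` of a cell -/
def ed {J : Type} (i : P.ι) (τ : ZMod P.l → J) (lam : ZMod M) (k : ZMod P.l) :
    (Option P.ι × J × J) × ZMod M :=
  cond (P.R i k).2 (((P.R i k).1, τ k, τ (k + 1)), lam - lvl P M (P.pre i k))
    (((P.R i k).1, τ (k + 1), τ k), lam - lvl P M (P.pre i (k + 1)))

/-- its shift -/
def eg (i : P.ι) (k : ZMod P.l) : Γ := cond (P.R i k).2 (P.pre i k)⁻¹ (P.pre i (k + 1))⁻¹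

/-- its sign -/
def es (i : P.ι) (k : ZMod P.l) : ℝ := cond (P.R i k).2 1 (-1)

variable {P} {Y Y' : SG P S} {ρ : S.X → Y.J → Y'.J}

lemma meas_rho (h : IsFold Y Y' ρ) {D : Type} [Fintype D] (g : D → Γ) (j : D → Y.J)
    (p : (D → Y'.J) → Prop) : Measurable fun x => p fun d => ρ (g d • x) (j d) := by
  have : (fun x => p fun d => ρ (g d • x) (j d)) =
      fun x => ∃ t : D → Y'.J, p t ∧ ∀ d, ρ (g d • x) (j d) = t d := by
    funext x
    refine propext ⟨fun hp => ⟨_, hp, fun _ => rfl⟩, ?_⟩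
    rintro ⟨t, ht, h'⟩
    rwa [funext h']
  rw [this]
  exact Measurable.exists fun t => measurable_const.and
    (Measurable.forall fun d => S.meas_comp (h.meas _ _) _)

/-- cells to edges and folded cells -/
def alpha (h : IsFold Y Y' ρ) : Inc S ((P.ι × (ZMod P.l → Y.J)) × ZMod M)
    ((Option P.ι × Y.J × Y.J) × ZMod M ⊕ (P.ι × (ZMod P.l → Y'.J)) × ZMod M)
    (Option (ZMod P.l)) where
  g a k := k.elim 1 (eg P a.1.1)
  ε a k := k.elim (-1) (es P a.1.1)
  b a k x := k.elim (.inr ((a.1.1, fun k => ρ ((P.pre a.1.1 k)⁻¹ • x) (a.1.2 k)), a.2))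
    fun k => .inl (ed P M a.1.1 a.1.2 a.2 k)
  mb a k b' := by
    cases k with
    | none => exact meas_rho h _ _ fun t => Sum.inr ((a.1.1, t), a.2) = b'
    | some k => dsimp only [Option.elim]; exact measurable_const

/-- edges and folded cells to vertices and folded edges -/
def beta (h : IsFold Y Y' ρ) : Inc S
    ((Option P.ι × Y.J × Y.J) × ZMod M ⊕ (P.ι × (ZMod P.l → Y'.J)) × ZMod M)
    (Y.J × ZMod M ⊕ (Option P.ι × Y'.J × Y'.J) × ZMod M) (Option Bool ⊕ ZMod P.l) where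
  g b k := match b, k with
    | .inl e, .inl (some true) => (P.val e.1.1)⁻¹
    | .inr c, .inr k => eg P c.1.1 k
    | _, _ => 1
  ε b k := match b, k with
    | .inl _, .inl (some true) => 1
    | .inl _, .inl (some false) => -1
    | .inl _, .inl none => 1
    | .inr c, .inr k => es P c.1.1 k
    | _, _ => 0
  b b k x := match b, k with
    | .inl e, .inl (some true) => .inl (e.1.2.2, e.2 - lvl P M (P.val e.1.1))
    | .inl e, .inl none => .inr ((e.1.1, ρ x e.1.2.1, ρ ((P.val e.1.1)⁻¹ • x) e.1.2.2), e.2)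
    | .inl e, _ => .inl (e.1.2.1, e.2)
    | .inr c, .inr k => .inr (ed P M c.1.1 c.1.2 c.2 k)
    | .inr c, _ => .inr (ed P M c.1.1 c.1.2 c.2 0)
  mb b k b' := by
    rcases b with e | c
    · rcases k with (_ | _ | _) | k
      · have := meas_rho h (fun d : Bool => cond d 1 (P.val e.1.1)⁻¹)
          (fun d => cond d e.1.2.1 e.1.2.2)
          fun t => Sum.inr ((e.1.1, t true, t false), e.2) = b'
        simpa only [cond_true, cond_false, one_smul] using this
      all_goals dsimp only; exact measurable_const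
    · rcases k with _ | k <;> dsimp only <;> exact measurable_const

variable [NeZero M]

omit [NeZero M] in
lemma pull_inl (h : IsFold Y Y' ρ) (φ : _ → ℝ) (s : Option P.ι) (j j' : Y.J) (lam : ZMod M)
    (x : S.X) : (beta M h).pull φ (.inl ((s, j, j'), lam), x) =
      φ (.inr ((s, ρ x j, ρ ((P.val s)⁻¹ • x) j'), lam), x) +
      (φ (.inl (j', lam - lvl P M (P.val s)), (P.val s)⁻¹ • x) - φ (.inl (j, lam), x)) := by
  simp [Inc.pull, beta, sub_eq_add_neg]

omit [NeZero M] in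
lemma pull_inr (h : IsFold Y Y' ρ) (φ : _ → ℝ) (i : P.ι) (τ : ZMod P.l → Y'.J) (lam : ZMod M)
    (x : S.X) : (beta M h).pull φ (.inr ((i, τ), lam), x) =
      ∑ k, es P i k * φ (.inr (ed P M i τ lam k), eg P i k • x) := by
  simp [Inc.pull, beta]

omit [NeZero M] in
lemma pull_pull (h : IsFold Y Y' ρ) (φ : _ → ℝ) (i : P.ι) (τ : ZMod P.l → Y.J) (lam : ZMod M)
    (x : S.X) : (alpha M h).pull ((beta M h).pull φ) (((i, τ), lam), x) = 0 := by
  set ψ : ZMod P.l → ℝ := fun k =>
    φ (.inl (τ k, lam - lvl P M (P.pre i k)), (P.pre i k)⁻¹ • x) with hψ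
  have h1 : ∀ k, es P i k * (beta M h).pull φ (.inl (ed P M i τ lam k), eg P i k • x) =
      es P i k * φ (.inr (ed P M i (fun k => ρ ((P.pre i k)⁻¹ • x) (τ k)) lam k), eg P i k • x) +
        (ψ (k + 1) - ψ k) := by
    intro k
    have h2 := P.pre_succ i k
    unfold es ed eg
    rcases hR : P.R i k with ⟨s, _ | _⟩
    · rw [hR, lv_false] at h2
      have h3 : P.pre i k = P.pre i (k + 1) * P.val s := by rw [h2]; simp
      simp only [cond_false, pull_inl, hψ, ← mul_smul, ← mul_inv_rev, sub_sub, ← lvl_mul, ← h3]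
      ring
    · rw [hR, lv_true] at h2
      simp only [cond_true, pull_inl, hψ, ← mul_smul, ← mul_inv_rev, sub_sub, ← lvl_mul, ← h2]
      ring
  have h2 : ∑ k, ψ (k + 1) = ∑ k, ψ k := Equiv.sum_comp (Equiv.addRight 1) ψ
  rw [Inc.pull, Fintype.sum_option]
  simp only [alpha, Option.elim, one_smul, pull_inr, h1, sum_add_distrib, sum_sub_distrib, h2]
  ring

lemma push_inj (h : IsFold Y Y' ρ) (hED : Y.ED) (ξ : _ → ℝ)
    (h1 : ∀ p : ((P.ι × (ZMod P.l → Y.J)) × ZMod M) × S.X,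
      ¬ (Y.C p.1.1.1 p.1.1.2 p.2 ∧ p.1.2 ∈ univ.erase (0 : ZMod M)) → ξ p = 0)
    (h2 : ∀ q, (alpha M h).push ξ q = 0) : ξ = 0 := by
  have key : ∀ (n : ℕ) i τ x, ξ (((i, τ), (n : ZMod M)), x) = 0 := by
    intro n
    induction n with
    | zero => intro i τ x; exact h1 _ (by simp)
    | succ n ih =>
      intro i τ x
      by_contra hne
      have hC : Y.C i τ x := by
        by_contra hC
        exact hne (h1 _ fun h => hC h.1)
      have h3 := h2 (.inl ((some i, τ 0, τ (0 + 1)), ((n + 1 : ℕ) : ZMod M)), x)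
      rw [Inc.push, ← Fintype.sum_prod_type', Fintype.sum_eq_single
        (((i, τ), ((n + 1 : ℕ) : ZMod M)), some 0)] at h3
      · refine hne ?_
        simpa [alpha, ed, eg, es, P.top, P.pre_zero, lvl_one] using h3
      rintro ⟨⟨⟨i', τ'⟩, lam⟩, _ | k⟩ hne'
      · simp [alpha]
      simp only [alpha, Option.elim, Sum.inl.injEq]
      split_ifs with h4
      swap
      · rfl
      refine mul_eq_zero_of_right _ ?_
      by_cases hk : k = 0
      · subst hk
        simp only [ed, P.top, cond_true, P.pre_zero, lvl_one, sub_zero, Prod.mk.injEq,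
          Option.some.injEq] at h4
        obtain ⟨⟨rfl, h5, h6⟩, rfl⟩ := h4
        simp only [eg, P.top, cond_true, P.pre_zero, inv_one, one_smul]
        refine h1 _ fun h7 => hne' ?_
        rw [hED _ τ' τ _ _ h7.1 hC h5 h6]
      · have h5 : (P.R i' k).1 = some i := by
          unfold ed at h4
          cases hb : (P.R i' k).2 <;> simp only [hb, cond_true, cond_false, Prod.mk.injEq] at h4 <;>
            exact h4.1.1
        have h6 : lvl P M (P.pre i' k) = -1 := by simp [lvl, P.low i' k i hk h5]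
        have h7 : lvl P M (P.pre i' (k + 1)) = -1 := by
          rw [P.pre_succ, lvl_mul, h6, lv, h5]
          cases (P.R i' k).2 <;> simp [lvl, P.ht_a]
        have h8 : lam = (n : ZMod M) := by
          unfold ed at h4
          rw [h6, h7] at h4
          cases hb : (P.R i' k).2 <;> simp only [hb, cond_true, cond_false, Prod.mk.injEq] at h4 <;>
            simpa using h4.2
        rw [h8]
        exact ih _ _ _
  funext ⟨⟨⟨i, τ⟩, lam⟩, x⟩
  have := key lam.val i τ x
  rwa [ZMod.natCast_zmod_val] at this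

/-- vertices that are not the first in their class -/
def nonrep (ρ : S.X → Y.J → Y'.J) (j : Y.J) (x : S.X) : Prop :=
  Y.V j x ∧ ∃ j1, Y.V j1 x ∧ ρ x j1 = ρ x j ∧ Fintype.equivFin _ j1 < Fintype.equivFin _ j

lemma meas_nonrep (h : IsFold Y Y' ρ) (j : Y.J) : Measurable (nonrep ρ j) := by
  refine (Y.mV j).and (Measurable.exists fun j1 => (Y.mV j1).and (Measurable.and ?_ measurable_const))
  have := meas_rho h (fun _ : Bool => 1) (fun d => cond d j1 j) fun t => t true = t false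
  simpa only [cond_true, cond_false, one_smul] using this

omit [NeZero M] in
lemma pull_inj (h : IsFold Y Y' ρ)
    (φ : (Y.J × ZMod M ⊕ (Option P.ι × Y'.J × Y'.J) × ZMod M) × S.X → ℝ)
    (h1 : ∀ j lam x, ¬ nonrep ρ j x → φ (.inl (j, lam), x) = 0)
    (h1' : ∀ s j j' lam x, ¬ Y'.E s j j' x → φ (.inr ((s, j, j'), lam), x) = 0)
    (h2 : ∀ s j j' lam x, Y.E s j j' x → (beta M h).pull φ (.inl ((s, j, j'), lam), x) = 0) :
    φ = 0 := by
  simp only [pull_inl] at h2
  have hE : ∀ s j j' x, Y.E s j j' x → Y'.E s (ρ x j) (ρ ((P.val s)⁻¹ • x) j') x :=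
    fun s j j' x hj => (h.E _ _ _ _).2 ⟨j, j', hj, rfl, rfl⟩
  have hQ := h.least (fun p p' => ∀ lam, φ (.inl (p.1, lam), p.2) = φ (.inl (p'.1, lam), p'.2))
    ⟨fun _ _ => rfl, fun h lam => (h lam).symm, fun h h' lam => (h lam).trans (h' lam)⟩ (by
      rintro ⟨s, b⟩ ⟨j, x⟩ ⟨j', x'⟩ ⟨k, y⟩ ⟨k', y'⟩ hx hρ hQ hs hs' lam
      dsimp only at hx hρ hQ ⊢
      subst hx
      have h3 := StR.map ρ hE hs
      have h4 := StR.map ρ hE hs'
      dsimp only at h3 h4
      rw [hρ] at h3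
      obtain ⟨h5, rfl⟩ := Prod.mk.inj (h.folded _ _ _ _ h3 h4)
      cases b
      · rw [SG.st_false] at hs hs'
        obtain ⟨h6, h7⟩ := hs
        dsimp only at h6 h7
        subst h6
        have h8 := h2 _ _ _ lam _ h7
        have h9 := h2 _ _ _ lam _ hs'.2
        dsimp only at h9
        rw [h5, hρ, hQ] at h8
        linarith
      · rw [SG.st_true] at hs hs'
        obtain ⟨h6, h7⟩ := hs
        dsimp only at h6 h7
        subst h6
        have h8 := h2 _ _ _ (lam + lvl P M (P.val s)) _ h7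
        have h9 := h2 _ _ _ (lam + lvl P M (P.val s)) _ hs'.2
        dsimp only at h9
        rw [add_sub_cancel_right] at h8 h9
        rw [h5, hρ, hQ] at h8
        linarith)
  have h3 : ∀ j lam x, φ (.inl (j, lam), x) = 0 := by
    classical
    intro j lam x
    by_cases hj : Y.V j x
    · obtain ⟨j0, hj0, hmin⟩ := exists_min_image (univ.filter fun j1 => Y.V j1 x ∧ ρ x j1 = ρ x j)
        (Fintype.equivFin _) ⟨j, by simp [hj]⟩
      simp only [mem_filter, mem_univ, true_and] at hj0 hmin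
      rw [← hQ x j0 j hj0.2 lam]
      refine h1 _ _ _ ?_
      rintro ⟨-, j1, h4, h5, h6⟩
      exact absurd (hmin j1 ⟨h4, h5.trans hj0.2⟩) (not_le.2 h6)
    · exact h1 _ _ _ fun h => hj h.1
  funext ⟨c, x⟩
  rcases c with ⟨j, lam⟩ | ⟨⟨s, j, j'⟩, lam⟩
  · exact h3 _ _ _
  · by_cases h4 : Y'.E s j j' x
    · obtain ⟨k, k', h5, rfl, rfl⟩ := (h.E _ _ _ _).1 h4
      simpa [h3] using h2 _ _ _ lam _ h5
    · exact h1' _ _ _ _ _ h4

lemma v_le (h : IsFold Y Y' ρ) : Y.v ≤ S.cnt (nonrep ρ) + Y'.v := by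
  rw [SG.v, S.cnt_split Y.V (nonrep ρ) (meas_nonrep h)]
  refine add_le_add (S.cnt_mono fun _ _ h => h.2) (S.cnt_le_of_injOn
    (fun j => (Y.mV j).and (meas_nonrep h j).not) Y'.mV ρ
    (fun x j hj => (h.V _ _).2 ⟨j, hj.1, rfl⟩) fun x j j' hj hj' hρ => ?_)
  rcases lt_trichotomy (Fintype.equivFin _ j) (Fintype.equivFin _ j') with h1 | h1 | h1
  · exact absurd ⟨hj'.1, j, hj.1, hρ, h1⟩ hj'.2
  · exact (Fintype.equivFin _).injective h1
  · exact absurd ⟨hj.1, j', hj'.1, hρ.symm, h1⟩ hj.2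

lemma level_ineq (hR : RankStmt) (h : IsFold Y Y' ρ) (hED : Y.ED) :
    ((M : ℝ) - 1) * Y.f + (M * S.cnt (nonrep ρ) + M * Y'.e) ≤ M * Y.e + M * Y'.f := by
  have := hR Γ S _ _ _ _ _ (alpha M h) (beta M h)
    (fun a x => Y.C a.1.1 a.1.2 x ∧ a.2 ∈ univ.erase (0 : ZMod M))
    (Sum.elim (fun e => Y.E e.1.1 e.1.2.1 e.1.2.2) fun c => Y'.C c.1.1 c.1.2)
    (Sum.elim (fun v => nonrep ρ v.1) fun e => Y'.E e.1.1 e.1.2.1 e.1.2.2)
    (fun a => (Y.mC _ _).and measurable_const)
    (by rintro (e | c); exacts [Y.mE _ _ _, Y'.mC _ _])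
    (by rintro (v | e); exacts [meas_nonrep h _, Y'.mE _ _ _])
    (by
      rintro ⟨⟨i, τ⟩, lam⟩ (_ | k) x ⟨hC, -⟩
      · simp only [alpha, Option.elim, Sum.elim_inr, one_smul]
        exact (h.C _ _ _).2 ⟨τ, hC, fun _ => rfl⟩
      · have h1 := (Y.CE i τ x hC k).2
        simp only [alpha, Option.elim, Sum.elim_inl, ed, eg]
        revert h1
        cases (P.R i k).2 <;> exact id)
    (fun φ _ p _ => pull_pull M h φ _ _ _ _)
    (fun ξ h1 h2 => push_inj M h hED ξ h1 h2)
    (fun φ h1 h2 => pull_inj M h φ (fun j lam x hj => h1 (.inl (j, lam), x) hj)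
      (fun s j j' lam x hj => h1 (.inr ((s, j, j'), lam), x) hj)
      fun s j j' lam x hj => h2 (.inl ((s, j, j'), lam), x) hj)
  rw [S.cnt_prod_mem (fun t : P.ι × (ZMod P.l → Y.J) => Y.C t.1 t.2), S.cnt_sum, S.cnt_sum] at this
  simp only [Sum.elim_inl, Sum.elim_inr] at this
  rw [S.cnt_prod_const (nonrep ρ),
    S.cnt_prod_const (fun t : Option P.ι × Y'.J × Y'.J => Y'.E t.1 t.2.1 t.2.2),
    S.cnt_prod_const (fun t : Option P.ι × Y.J × Y.J => Y.E t.1 t.2.1 t.2.2),
    S.cnt_prod_const (fun t : P.ι × (ZMod P.l → Y'.J) => Y'.C t.1 t.2),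
    card_erase_of_mem (mem_univ _), card_univ, ZMod.card,
    Nat.cast_sub (Nat.pos_of_ne_zero (NeZero.ne M)), Nat.cast_one] at this
  exact this

end FoldChi

open FoldChi in
theorem foldChi_of (hR : RankStmt) : FoldChiStmt := by
  intro Γ _ P S Y Y' ρ h hED
  have h1 := v_le h
  unfold SG.chi
  by_contra hcon
  have hd : 0 < Y.f + S.cnt (nonrep ρ) + Y'.e - Y.e - Y'.f := by linarith [not_le.1 hcon]
  obtain ⟨n, hn⟩ := exists_nat_gt (Y.f / (Y.f + S.cnt (nonrep ρ) + Y'.e - Y.e - Y'.f))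
  rw [div_lt_iff₀ hd] at hn
  have h2 := level_ineq (n + 1) hR h hED
  push_cast at h2
  nlinarith

end Crest.Agent.R191
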