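import Crest.Agent.R191.Graph

/-! Row 191: foldings exist. -/

set_option autoImplicit false

open MeasureTheory

noncomputable section

namespace Crest.Agent.R191

variable {Γ : Type} [Group Γ] {P : Pres Γ} {S : Sp Γ}

theorem StR.lift {J J' : Type} {E : Option P.ι → J → J → S.X → Prop}
    {E' : Option P.ι → J' → J' → S.X → Prop} (ρ : S.X → J → J')
    (hE : ∀ s j1 j2 x, E' s j1 j2 x →
      ∃ k1 k2, E s k1 k2 x ∧ ρ x k1 = j1 ∧ ρ ((P.val s)⁻¹ • x) k2 = j2)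
    {σ : Option P.ι × Bool} {p q : J' × S.X} (h : StR P E' σ p q) :
    ∃ k1 k2, StR P E σ (k1, p.2) (k2, q.2) ∧ ρ p.2 k1 = p.1 ∧ ρ q.2 k2 = q.1 := by
  rcases σ with ⟨s, b⟩
  cases b
  · rw [strR_false] at h
    obtain ⟨k1, k2, h1, h2, h3⟩ := hE _ _ _ _ h.2
    exact ⟨k2, k1, (strR_false _ _ _).2 ⟨h.1, h1⟩, by rw [h.1, h3], h2⟩
  · rw [strR_true] at h
    obtain ⟨k1, k2, h1, h2, h3⟩ := hE _ _ _ _ h.2
    exact ⟨k1, k2, (strR_true _ _ _).2 ⟨h.1, h1⟩, h2, by rw [h.1, h3]⟩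

namespace SG

variable (Y : SG P S)

/-- stages of the least congruence -/
def FRel : ℕ → Y.J → Y.J → S.X → Prop
  | 0, j, j', _ => j = j'
  | n + 1, j, j', x => FRel n j j' x ∨ FRel n j' j x ∨ (∃ k, FRel n j k x ∧ FRel n k j' x) ∨
      ∃ σ k k', FRel n k k' (lv P.val σ • x) ∧ Y.St σ (k, lv P.val σ • x) (j, x) ∧
        Y.St σ (k', lv P.val σ • x) (j', x)

theorem meas_fRel (n : ℕ) : ∀ j j', Measurable (Y.FRel n j j') := by
  induction n with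
  | zero => exact fun j j' => measurable_const
  | succ n ih =>
    intro j j'
    have h : ∀ σ k j, Measurable fun x => Y.St σ (k, lv P.val σ • x) (j, x) := fun σ k j => by
      simpa using Y.meas_st σ k j (lv P.val σ) 1
    exact (ih _ _).or ((ih _ _).or ((Measurable.exists fun k => (ih _ _).and (ih _ _)).or
      (Measurable.exists fun σ => Measurable.exists fun k => Measurable.exists fun k' =>
        (S.meas_comp (ih k k') _).and ((h _ _ _).and (h _ _ _)))))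

variable {Y} in
theorem FRel.mono {n m : ℕ} {j j' : Y.J} {x : S.X} (h : Y.FRel n j j' x) (hnm : n ≤ m) :
    Y.FRel m j j' x := by
  induction hnm with
  | refl => exact h
  | step _ ih => exact Or.inl ih

open Classical in
/-- the quotient map -/
def fρ (x : S.X) (j : Y.J) : Finset Y.J := Finset.univ.filter fun k => ∃ n, Y.FRel n j k x

theorem fρ_eq_iff (x : S.X) (j j' : Y.J) : Y.fρ x j = Y.fρ x j' ↔ ∃ n, Y.FRel n j j' x := by
  have tr : ∀ a b c, (∃ n, Y.FRel n a b x) → (∃ n, Y.FRel n b c x) → ∃ n, Y.FRel n a c x :=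
    fun a b c ⟨n, hn⟩ ⟨m, hm⟩ => ⟨max n m + 1, Or.inr (Or.inr (Or.inl
      ⟨b, hn.mono (le_max_left _ _), hm.mono (le_max_right _ _)⟩))⟩
  simp only [fρ, Finset.ext_iff, Finset.mem_filter, Finset.mem_univ, true_and]
  refine ⟨fun h => (h j').2 ⟨0, rfl⟩, fun ⟨n, hn⟩ k =>
    ⟨tr _ _ _ ⟨n + 1, Or.inr (Or.inl hn)⟩, tr _ _ _ ⟨n, hn⟩⟩⟩

theorem meas_fρ (j : Y.J) (A : Finset Y.J) : Measurable fun x => Y.fρ x j = A := by
  simp only [fρ, Finset.ext_iff, Finset.mem_filter, Finset.mem_univ, true_and]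
  exact Measurable.forall fun k =>
    (Measurable.exists fun n => Y.meas_fRel n j k).iff measurable_const

/-- the image of a graph under a measurable family of maps -/
def image {J' : Type} [Fintype J'] [DecidableEq J'] (ρ : S.X → Y.J → J')
    (hρ : ∀ j j', Measurable fun x => ρ x j = j') : SG P S where
  J := J'
  V j' x := ∃ j, Y.V j x ∧ ρ x j = j'
  E s j1 j2 x := ∃ k1 k2, Y.E s k1 k2 x ∧ ρ x k1 = j1 ∧ ρ ((P.val s)⁻¹ • x) k2 = j2
  C i τ' x := ∃ τ, Y.C i τ x ∧ ∀ k, ρ ((P.pre i k)⁻¹ • x) (τ k) = τ' k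
  mV j' := Measurable.exists fun j => (Y.mV j).and (hρ _ _)
  mE s j1 j2 := Measurable.exists fun k1 => Measurable.exists fun k2 =>
    (Y.mE _ _ _).and ((hρ _ _).and (S.meas_comp (hρ _ _) _))
  mC i τ' := Measurable.exists fun τ =>
    (Y.mC _ _).and (Measurable.forall fun k => S.meas_comp (hρ _ _) _)
  EV1 := fun s _ _ x ⟨k1, k2, h1, h2, _⟩ => ⟨k1, Y.EV1 _ _ _ _ h1, h2⟩
  EV2 := fun s _ _ x ⟨k1, k2, h1, _, h3⟩ => ⟨k2, Y.EV2 _ _ _ _ h1, h3⟩
  CE := fun i τ' x ⟨τ, h1, h2⟩ k => by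
    have := StR.map (E' := fun s j1 j2 x =>
      ∃ k1 k2, Y.E s k1 k2 x ∧ ρ x k1 = j1 ∧ ρ ((P.val s)⁻¹ • x) k2 = j2) ρ
      (fun s j j' x h => ⟨j, j', h, rfl, rfl⟩) (Y.CE i τ x h1 k)
    simp only [vx_fst, vx_snd, h2] at this
    exact this

end SG

theorem foldExStmt : FoldExStmt := by
  intro Γ _ P S Y
  refine ⟨Y.image Y.fρ Y.meas_fρ, Y.fρ, Y.meas_fρ, fun _ _ => Iff.rfl, fun _ _ _ _ => Iff.rfl,
    fun _ _ _ => Iff.rfl, ?_, ?_⟩
  · rintro σ ⟨j, x⟩ ⟨j1, y⟩ ⟨j2, y'⟩ h1 h2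
    obtain rfl : y = y' := h1.pos.trans h2.pos.symm
    have hx : x = lv P.val σ • y := by rw [show y = _ from h1.pos, smul_inv_smul]
    obtain ⟨k1, k2, a1, a2, a3⟩ := StR.lift Y.fρ (fun _ _ _ _ h => h) h1
    obtain ⟨k1', k2', b1, b2, b3⟩ := StR.lift Y.fρ (fun _ _ _ _ h => h) h2
    obtain ⟨n, hn⟩ := (Y.fρ_eq_iff _ _ _).1 (a2.trans b2.symm)
    subst hx
    exact Prod.ext (a3.symm.trans (((Y.fρ_eq_iff _ _ _).2
      ⟨n + 1, Or.inr (Or.inr (Or.inr ⟨σ, k1, k1', hn, a1, b1⟩))⟩).trans b3)) rfl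
  · intro Q hQ hcl x j j' h
    obtain ⟨n, hn⟩ := (Y.fρ_eq_iff _ _ _).1 h
    clear h
    induction n generalizing x j j' with
    | zero => obtain rfl : j = j' := hn; exact hQ.refl _
    | succ n ih =>
      rcases hn with h | h | ⟨k, h1, h2⟩ | ⟨σ, k, k', h1, h2, h3⟩
      · exact ih _ _ _ h
      · exact hQ.symm (ih _ _ _ h)
      · exact hQ.trans (ih _ _ _ h1) (ih _ _ _ h2)
      · exact hcl σ (k, _) (k', _) _ _ rfl ((Y.fρ_eq_iff _ _ _).2 ⟨n, h1⟩) (ih _ _ _ h1) h2 h3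

end Crest.Agent.R191
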