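import Crest.Agent.R191.Graph

/-! Row 191: folding does not increase `psi`. -/

set_option autoImplicit false

open MeasureTheory

noncomputable section

namespace Crest.Agent.R191

variable {Γ : Type} [Group Γ] {P : Pres Γ} {S : Sp Γ}

theorem Sp.meas_mult {K K' : Type} [Fintype K] {p : K → S.X → Prop} (hp : ∀ k, Measurable (p k))
    (π : S.X → K → K') (hπ : ∀ k k', Measurable fun x => π x k = k') (n : ℕ) (k' : K') :
    Measurable fun x => n < Set.ncard {k | π x k = k' ∧ p k x} :=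
  (measurable_from_top (f := fun m : ℕ => n < m)).comp
    (S.meas_ncard (P := fun k x => π x k = k' ∧ p k x) fun k => (hπ k k').and (hp k))

/-- layer decomposition of a count along a map -/
theorem Sp.cnt_layers {K K' : Type} [Fintype K] [Fintype K'] {p : K → S.X → Prop}
    (hp : ∀ k, Measurable (p k)) (π : S.X → K → K') (hπ : ∀ k k', Measurable fun x => π x k = k')
    (N : ℕ) (hN : Fintype.card K ≤ N) :
    S.cnt p = ∑ n ∈ Finset.range N,
      S.cnt fun k' x => n < Set.ncard {k | π x k = k' ∧ p k x} := by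
  classical
  rw [S.cnt_eq_integral hp, Finset.sum_congr rfl fun n _ =>
    S.cnt_eq_integral (Sp.meas_mult hp π hπ n), ← integral_finsetSum _ fun n _ =>
    S.integrable_ncard (Sp.meas_mult hp π hπ n)]
  refine integral_congr_ae (Filter.Eventually.of_forall fun x => ?_)
  have h1 : ∀ q : K' → Prop, Set.ncard {k | q k} = ∑ k, if q k then 1 else 0 := by
    intro q
    rw [Finset.sum_boole, ← Set.ncard_coe_finset]
    simp
  simp only
  rw [Sp.ncard_fiber (π x), ← Nat.cast_sum, Nat.cast_inj, Finset.sum_congr rfl fun n _ => h1 _,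
    Finset.sum_comm]
  refine Finset.sum_congr rfl fun k' _ => ?_
  have h2 : Set.ncard {k | π x k = k' ∧ p k x} ≤ N := by
    have := Set.ncard_le_card {k | π x k = k' ∧ p k x}
    rw [Nat.card_eq_fintype_card] at this
    omega
  generalize Set.ncard {k | π x k = k' ∧ p k x} = m at h2
  have h3 : ∑ n ∈ Finset.range N, (if n < m then 1 else 0) = m := by
    rw [← Finset.card_filter]
    have : (Finset.range N).filter (fun n => n < m) = Finset.range m := by
      ext n; simp only [Finset.mem_filter, Finset.mem_range]; omega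
    rw [this, Finset.card_range]
  convert h3.symm

section
variable {Y Y' : SG P S} (ρ : S.X → Y.J → Y'.J)

/-- the image of an edge -/
def πE (x : S.X) (t : Option P.ι × Y.J × Y.J) : Option P.ι × Y'.J × Y'.J :=
  (t.1, ρ x t.2.1, ρ ((P.val t.1)⁻¹ • x) t.2.2)

/-- the image of a cell -/
def πC (x : S.X) (t : P.ι × (ZMod P.l → Y.J)) : P.ι × (ZMod P.l → Y'.J) :=
  (t.1, fun k => ρ ((P.pre t.1 k)⁻¹ • x) (t.2 k))

variable {ρ} (h : IsFold Y Y' ρ)
include h

theorem IsFold.meas_πE (t : Option P.ι × Y.J × Y.J) (t' : Option P.ι × Y'.J × Y'.J) :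
    Measurable fun x => πE ρ x t = t' := by
  simp only [πE, Prod.ext_iff]
  exact measurable_const.and ((h.meas _ _).and (S.meas_comp (h.meas _ _) _))

theorem IsFold.meas_πC (t : P.ι × (ZMod P.l → Y.J)) (t' : P.ι × (ZMod P.l → Y'.J)) :
    Measurable fun x => πC ρ x t = t' := by
  simp only [πC, Prod.ext_iff, funext_iff]
  exact measurable_const.and (Measurable.forall fun k => S.meas_comp (h.meas _ _) _)

theorem IsFold.E_iff (t' : Option P.ι × Y'.J × Y'.J) (x : S.X) :
    0 < Set.ncard {t | πE ρ x t = t' ∧ Y.E t.1 t.2.1 t.2.2 x} ↔ Y'.E t'.1 t'.2.1 t'.2.2 x := by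
  rw [Set.ncard_pos, h.E]
  constructor
  · rintro ⟨t, rfl, h2⟩
    exact ⟨_, _, h2, rfl, rfl⟩
  · rintro ⟨k1, k2, h1, h2, h3⟩
    exact ⟨(t'.1, k1, k2), Prod.ext rfl (Prod.ext h2 h3), h1⟩

theorem IsFold.C_iff (t' : P.ι × (ZMod P.l → Y'.J)) (x : S.X) :
    0 < Set.ncard {t | πC ρ x t = t' ∧ Y.C t.1 t.2 x} ↔ Y'.C t'.1 t'.2 x := by
  rw [Set.ncard_pos, h.C]
  constructor
  · rintro ⟨t, rfl, h2⟩
    exact ⟨_, h2, fun _ => rfl⟩
  · rintro ⟨τ, h1, h2⟩
    exact ⟨(t'.1, τ), Prod.ext rfl (funext h2), h1⟩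

/-- the `n`-th layer of a folding -/
def IsFold.layer (hED : Y.ED) (n : ℕ) : SG P S where
  J := Y'.J
  V := Y'.V
  E s j1 j2 x := n < Set.ncard {t | πE ρ x t = (s, j1, j2) ∧ Y.E t.1 t.2.1 t.2.2 x}
  C i τ' x := n < Set.ncard {t | πC ρ x t = (i, τ') ∧ Y.C t.1 t.2 x}
  mV := Y'.mV
  mE s j1 j2 := Sp.meas_mult (fun t : Option P.ι × Y.J × Y.J => Y.mE _ _ _) _ h.meas_πE n _
  mC i τ' := Sp.meas_mult (fun t : P.ι × (ZMod P.l → Y.J) => Y.mC _ _) _ h.meas_πC n _
  EV1 s j1 j2 x hx := Y'.EV1 _ _ _ _ ((h.E_iff (s, j1, j2) x).1 (by omega))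
  EV2 s j1 j2 x hx := Y'.EV2 _ _ _ _ ((h.E_iff (s, j1, j2) x).1 (by omega))
  CE i τ' x hx k := by
    have hpos := vx_snd_succ i τ' x k
    rcases hR : P.R i k with ⟨s, b⟩
    rw [hR] at hpos
    cases b
    · rw [strR_false]
      have hpos' : (vx P i τ' x k).2 = (P.val s)⁻¹ • (vx P i τ' x (k + 1)).2 := by
        rw [hpos]; simp
      refine ⟨hpos', hx.trans_le (Set.ncard_le_ncard_of_injOn (fun t => (s, t.2 (k + 1), t.2 k))
        ?_ ?_)⟩
      · rintro ⟨i', τ⟩ ⟨h1, h2⟩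
        obtain rfl : i' = i := congrArg Prod.fst h1
        obtain rfl : (fun k => ρ ((P.pre i' k)⁻¹ • x) (τ k)) = τ' := congrArg Prod.snd h1
        have := Y.CE i' τ x h2 k
        rw [hR, strR_false] at this
        refine ⟨?_, this.2⟩
        simp only [πE]
        rw [← hpos']
        rfl
      · rintro ⟨i1, τ1⟩ ⟨a1, a2⟩ ⟨i2, τ2⟩ ⟨b1, b2⟩ e
        obtain rfl : i1 = i := congrArg Prod.fst a1
        obtain rfl : i2 = i1 := congrArg Prod.fst b1
        simp only [Prod.mk.injEq, true_and] at e ⊢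
        exact hED _ _ _ _ k a2 b2 e.2 e.1
    · rw [strR_true]
      refine ⟨hpos, hx.trans_le (Set.ncard_le_ncard_of_injOn (fun t => (s, t.2 k, t.2 (k + 1)))
        ?_ ?_)⟩
      · rintro ⟨i', τ⟩ ⟨h1, h2⟩
        obtain rfl : i' = i := congrArg Prod.fst h1
        obtain rfl : (fun k => ρ ((P.pre i' k)⁻¹ • x) (τ k)) = τ' := congrArg Prod.snd h1
        have := Y.CE i' τ x h2 k
        rw [hR, strR_true] at this
        refine ⟨?_, this.2⟩
        simp only [πE]
        rw [lv_true] at hpos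
        rw [← hpos]
        rfl
      · rintro ⟨i1, τ1⟩ ⟨a1, a2⟩ ⟨i2, τ2⟩ ⟨b1, b2⟩ e
        obtain rfl : i1 = i := congrArg Prod.fst a1
        obtain rfl : i2 = i1 := congrArg Prod.fst b1
        simp only [Prod.mk.injEq, true_and] at e ⊢
        exact hED _ _ _ _ k a2 b2 e.1 e.2

theorem IsFold.layer_folded (hED : Y.ED) (n : ℕ) : (h.layer hED n).Folded := by
  have key : ∀ σ p q, (h.layer hED n).St σ p q → Y'.St σ p q := fun σ p q h1 =>
    StR.mono (fun s j1 j2 x hx => (h.E_iff (s, j1, j2) x).1 (Nat.zero_lt_of_lt hx)) h1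
  exact fun σ p q q' h1 h2 => h.folded σ p q q' (key _ _ _ h1) (key _ _ _ h2)

end

theorem foldPsi_of (hC : CoverStmt) : FoldPsiStmt := by
  intro Γ _ P S hS Y Y' ρ h hED hf hl
  obtain ⟨N, hN⟩ : ∃ N, N = Fintype.card (Option P.ι × Y.J × Y.J) +
    Fintype.card (P.ι × (ZMod P.l → Y.J)) := ⟨_, rfl⟩
  have he : Y.e = ∑ n ∈ Finset.range (N + 1), (h.layer hED n).e :=
    Sp.cnt_layers (fun t : Option P.ι × Y.J × Y.J => Y.mE _ _ _) _ h.meas_πE _ (by omega)
  have hf' : Y.f = ∑ n ∈ Finset.range (N + 1), (h.layer hED n).f :=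
    Sp.cnt_layers (fun t : P.ι × (ZMod P.l → Y.J) => Y.mC _ _) _ h.meas_πC _ (by omega)
  have he0 : (h.layer hED 0).e = Y'.e := S.cnt_congr fun t x => h.E_iff t x
  have hf0 : (h.layer hED 0).f = Y'.f := S.cnt_congr fun t x => h.C_iff t x
  have key : ∀ n ∈ Finset.range N, P.c * (h.layer hED (n + 1)).f ≤ (h.layer hED (n + 1)).e := by
    intro n hn
    have h1 : (h.layer hED (n + 1)).f ≤ Y.f := by
      rw [hf']
      exact Finset.single_le_sum (f := fun n => (h.layer hED n).f) (fun _ _ => SG.f_nonneg)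
        (by simpa using hn)
    have h2 := hC Γ P S hS _ (h.layer_folded hED (n + 1)) (le_trans (by gcongr) hf)
    have h3 := mul_le_mul_of_nonneg_right hl (SG.f_nonneg (Y := h.layer hED (n + 1)))
    have h4 := P.aa_pos
    exact le_of_mul_le_mul_left (a := 4 * P.aa) (by linarith) (by positivity)
  have := Finset.sum_le_sum key
  rw [← Finset.mul_sum] at this
  rw [Finset.sum_range_succ', he0] at he
  rw [Finset.sum_range_succ', hf0] at hf'
  unfold SG.psi
  rw [he, hf']
  linarith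

end Crest.Agent.R191
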