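import Crest.Agent.R191.Basic

/-! Row 191: steps, paths, degrees and cells of sheeted graphs. -/

set_option autoImplicit false

open MeasureTheory

noncomputable section

namespace Crest.Agent.R191

variable {Γ : Type} [Group Γ] {P : Pres Γ} {S : Sp Γ}

section str
variable {J : Type} {E : Option P.ι → J → J → S.X → Prop}

theorem StR.pos {σ : Option P.ι × Bool} {p q : J × S.X} (h : StR P E σ p q) :
    q.2 = (lv P.val σ)⁻¹ • p.2 := h.1

theorem strR_true (s : Option P.ι) (p q : J × S.X) :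
    StR P E (s, true) p q ↔ q.2 = (P.val s)⁻¹ • p.2 ∧ E s p.1 q.1 p.2 := Iff.rfl

theorem strR_false (s : Option P.ι) (p q : J × S.X) :
    StR P E (s, false) p q ↔ p.2 = (P.val s)⁻¹ • q.2 ∧ E s q.1 p.1 q.2 := by
  unfold StR
  simp only [lv_false, inv_inv, cond_false]
  refine and_congr_left fun _ => ⟨fun h => by rw [h, inv_smul_smul], fun h => by rw [h, smul_inv_smul]⟩

theorem strR_sinv (σ : Option P.ι × Bool) (p q : J × S.X) :
    StR P E (sinv σ) q p ↔ StR P E σ p q := by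
  rcases σ with ⟨s, b⟩
  cases b
  · exact (strR_true s q p).trans (strR_false s p q).symm
  · exact (strR_false s q p).trans (strR_true s p q).symm

theorem StR.symm {σ : Option P.ι × Bool} {p q : J × S.X} (h : StR P E σ p q) :
    StR P E (sinv σ) q p := (strR_sinv σ p q).2 h

/-- a step is a forward or a backward traversal of an edge -/
theorem strR_iff (σ : Option P.ι × Bool) (p q : J × S.X) :
    StR P E σ p q ↔ (σ.2 = true ∧ q.2 = (P.val σ.1)⁻¹ • p.2 ∧ E σ.1 p.1 q.1 p.2) ∨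
      (σ.2 = false ∧ p.2 = (P.val σ.1)⁻¹ • q.2 ∧ E σ.1 q.1 p.1 q.2) := by
  rcases σ with ⟨s, b⟩
  cases b
  · rw [strR_false]; simp
  · rw [strR_true]; simp

theorem StR.map {J' : Type} {E' : Option P.ι → J' → J' → S.X → Prop} (ρ : S.X → J → J')
    (hE : ∀ s j j' x, E s j j' x → E' s (ρ x j) (ρ ((P.val s)⁻¹ • x) j') x)
    {σ : Option P.ι × Bool} {p q : J × S.X} (h : StR P E σ p q) :
    StR P E' σ (ρ p.2 p.1, p.2) (ρ q.2 q.1, q.2) := by
  rcases σ with ⟨s, b⟩
  cases b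
  · rw [strR_false] at h ⊢
    refine ⟨h.1, ?_⟩
    have := hE _ _ _ _ h.2
    rwa [← h.1] at this
  · rw [strR_true] at h ⊢
    refine ⟨h.1, ?_⟩
    have := hE _ _ _ _ h.2
    rwa [← h.1] at this

theorem StR.mono {E' : Option P.ι → J → J → S.X → Prop}
    (hE : ∀ s j j' x, E s j j' x → E' s j j' x)
    {σ : Option P.ι × Bool} {p q : J × S.X} (h : StR P E σ p q) : StR P E' σ p q :=
  StR.map (fun _ j => j) hE h

theorem meas_strR (hE : ∀ s j j', Measurable (E s j j')) (σ : Option P.ι × Bool) (j j' : J)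
    (g h : Γ) : Measurable fun x => StR P E σ (j, g • x) (j', h • x) := by
  rcases σ with ⟨s, b⟩
  cases b
  · simp only [strR_false, ← mul_smul]
    exact (S.meas_smul_eq _ _).and (S.meas_comp (hE _ _ _) _)
  · simp only [strR_true, ← mul_smul]
    exact (S.meas_smul_eq _ _).and (S.meas_comp (hE _ _ _) _)

end str

theorem vx_fst {J : Type} (i : P.ι) (τ : ZMod P.l → J) (x : S.X) (k : ZMod P.l) :
    (vx P i τ x k).1 = τ k := rfl

theorem vx_snd {J : Type} (i : P.ι) (τ : ZMod P.l → J) (x : S.X) (k : ZMod P.l) :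
    (vx P i τ x k).2 = (P.pre i k)⁻¹ • x := rfl

theorem vx_snd_succ {J : Type} (i : P.ι) (τ : ZMod P.l → J) (x : S.X) (k : ZMod P.l) :
    (vx P i τ x (k + 1)).2 = (lv P.val (P.R i k))⁻¹ • (vx P i τ x k).2 := by
  simp [vx, P.pre_succ, mul_smul]

namespace SG

variable (Y : SG P S)

variable {Y} in
theorem St.pos {σ : Option P.ι × Bool} {p q : Y.J × S.X} (h : Y.St σ p q) :
    q.2 = (lv P.val σ)⁻¹ • p.2 := h.1

theorem st_true (s : Option P.ι) (p q : Y.J × S.X) :
    Y.St (s, true) p q ↔ q.2 = (P.val s)⁻¹ • p.2 ∧ Y.E s p.1 q.1 p.2 := Iff.rfl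

theorem st_false (s : Option P.ι) (p q : Y.J × S.X) :
    Y.St (s, false) p q ↔ p.2 = (P.val s)⁻¹ • q.2 ∧ Y.E s q.1 p.1 q.2 := strR_false s p q

theorem st_of_E {s : Option P.ι} {j j' : Y.J} {x : S.X} (h : Y.E s j j' x) :
    Y.St (s, true) (j, x) (j', (P.val s)⁻¹ • x) := ⟨rfl, h⟩

theorem st_sinv (σ : Option P.ι × Bool) (p q : Y.J × S.X) :
    Y.St (sinv σ) q p ↔ Y.St σ p q := strR_sinv σ p q

variable {Y} in
theorem St.symm {σ : Option P.ι × Bool} {p q : Y.J × S.X} (h : Y.St σ p q) :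
    Y.St (sinv σ) q p := StR.symm h

variable {Y} in
theorem St.left {σ : Option P.ι × Bool} {p q : Y.J × S.X} (h : Y.St σ p q) : Y.V p.1 p.2 := by
  rcases σ with ⟨s, b⟩
  cases b
  · rw [st_false] at h
    rw [h.1]; exact Y.EV2 _ _ _ _ h.2
  · exact Y.EV1 _ _ _ _ h.2

variable {Y} in
theorem St.right {σ : Option P.ι × Bool} {p q : Y.J × S.X} (h : Y.St σ p q) : Y.V q.1 q.2 :=
  h.symm.left

theorem meas_st (σ : Option P.ι × Bool) (j j' : Y.J) (g h : Γ) :
    Measurable fun x => Y.St σ (j, g • x) (j', h • x) := meas_strR Y.mE σ j j' g h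

theorem meas_st' (σ : Option P.ι × Bool) (j j' : Y.J) (h : Γ) :
    Measurable fun x => Y.St σ (j, x) (j', h • x) := by
  simpa using Y.meas_st σ j j' 1 h

theorem exists_st_iff (σ : Option P.ι × Bool) (p : Y.J × S.X) (Q : Y.J × S.X → Prop) :
    (∃ q, Y.St σ p q ∧ Q q) ↔
      ∃ j', Y.St σ p (j', (lv P.val σ)⁻¹ • p.2) ∧ Q (j', (lv P.val σ)⁻¹ • p.2) := by
  constructor
  · rintro ⟨⟨j', y⟩, h, hq⟩
    obtain rfl : y = _ := h.pos
    exact ⟨j', h, hq⟩
  · rintro ⟨j', h, hq⟩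
    exact ⟨_, h, hq⟩

theorem meas_exists_st (σ : Option P.ι × Bool) (j : Y.J) :
    Measurable fun x => ∃ q, Y.St σ (j, x) q := by
  have : (fun x => ∃ q, Y.St σ (j, x) q)
      = fun x => ∃ j', Y.St σ (j, x) (j', (lv P.val σ)⁻¹ • x) := by
    funext x
    simpa using Y.exists_st_iff σ (j, x) (fun _ => True)
  rw [this]
  exact Measurable.exists fun j' => Y.meas_st' σ j j' _

theorem meas_deg (j : Y.J) : Measurable fun x => Y.deg (j, x) :=
  S.meas_ncard (P := fun σ x => ∃ q, Y.St σ (j, x) q) fun σ => Y.meas_exists_st σ j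

theorem meas_deg_smul (j : Y.J) (g : Γ) : Measurable fun x => Y.deg (j, g • x) :=
  (Y.meas_deg j).comp (S.meas_smul g)

/-- any property of the degree is measurable -/
theorem meas_deg_prop (j : Y.J) (g : Γ) (p : ℕ → Prop) :
    Measurable fun x => p (Y.deg (j, g • x)) :=
  (measurable_from_top (f := p)).comp (Y.meas_deg_smul j g)

theorem meas_deg_prop' (j : Y.J) (p : ℕ → Prop) : Measurable fun x => p (Y.deg (j, x)) :=
  (measurable_from_top (f := p)).comp (Y.meas_deg j)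

theorem meas_deg_vx (i : P.ι) (τ : ZMod P.l → Y.J) (k : ZMod P.l) (p : ℕ → Prop) :
    Measurable fun x => p (Y.deg (vx P i τ x k)) := Y.meas_deg_prop _ _ p

theorem deg_le (p : Y.J × S.X) : Y.deg p ≤ Fintype.card (Option P.ι × Bool) := by
  have := Set.ncard_le_card {σ | ∃ q, Y.St σ p q}
  rwa [Nat.card_eq_fintype_card] at this

/-! ### Paths -/

@[simp] theorem path_nil (p q : Y.J × S.X) : Y.Path [] p q ↔ p = q := Iff.rfl

theorem path_cons (σ : Option P.ι × Bool) (W : List (Option P.ι × Bool)) (p q : Y.J × S.X) :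
    Y.Path (σ :: W) p q ↔ ∃ m, Y.St σ p m ∧ Y.Path W m q := Iff.rfl

theorem path_single (σ : Option P.ι × Bool) (p q : Y.J × S.X) : Y.Path [σ] p q ↔ Y.St σ p q := by
  simp [path_cons]

theorem path_append (W W' : List (Option P.ι × Bool)) (p q : Y.J × S.X) :
    Y.Path (W ++ W') p q ↔ ∃ m, Y.Path W p m ∧ Y.Path W' m q := by
  induction W generalizing p with
  | nil => simp
  | cons σ W ih =>
    simp only [List.cons_append, path_cons, ih]
    constructor
    · rintro ⟨m, h1, m', h2, h3⟩; exact ⟨m', ⟨m, h1, h2⟩, h3⟩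
    · rintro ⟨m', ⟨m, h1, h2⟩, h3⟩; exact ⟨m, h1, m', h2, h3⟩

variable {Y}

theorem Path.trans {W W' : List (Option P.ι × Bool)} {p m q : Y.J × S.X} (h : Y.Path W p m)
    (h' : Y.Path W' m q) : Y.Path (W ++ W') p q := (Y.path_append _ _ _ _).2 ⟨m, h, h'⟩

theorem Path.snoc {W : List (Option P.ι × Bool)} {σ : Option P.ι × Bool} {p m q : Y.J × S.X}
    (h : Y.Path W p m) (h' : Y.St σ m q) : Y.Path (W ++ [σ]) p q :=
  h.trans ((Y.path_single _ _ _).2 h')

theorem Path.symm {W : List (Option P.ι × Bool)} {p q : Y.J × S.X} (h : Y.Path W p q) :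
    Y.Path (FreeGroup.invRev W) q p := by
  induction W generalizing p with
  | nil => exact Eq.symm h
  | cons σ W ih =>
    obtain ⟨m, h1, h2⟩ := h
    rw [invRev_cons']
    exact (ih h2).snoc h1.symm

theorem Path.pos {W : List (Option P.ι × Bool)} {p q : Y.J × S.X} (h : Y.Path W p q) :
    q.2 = (wv P.val W)⁻¹ • p.2 := by
  induction W generalizing p with
  | nil => obtain rfl : p = q := h; simp
  | cons σ W ih =>
    obtain ⟨m, h1, h2⟩ := h
    rw [ih h2, h1.pos, wv_cons, mul_inv_rev, mul_smul]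

theorem Path.right {W : List (Option P.ι × Bool)} {p q : Y.J × S.X} (h : Y.Path W p q)
    (hp : Y.V p.1 p.2) : Y.V q.1 q.2 := by
  induction W generalizing p with
  | nil => obtain rfl : p = q := h; exact hp
  | cons σ W ih =>
    obtain ⟨m, h1, h2⟩ := h
    exact ih h2 h1.right

theorem Path.unique (hF : Y.Folded) {W : List (Option P.ι × Bool)} {p q q' : Y.J × S.X}
    (h : Y.Path W p q) (h' : Y.Path W p q') : q = q' := by
  induction W generalizing p with
  | nil => exact (Eq.symm h).trans h'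
  | cons σ W ih =>
    obtain ⟨m, h1, h2⟩ := h
    obtain ⟨m', h1', h2'⟩ := h'
    obtain rfl := hF _ _ _ _ h1 h1'
    exact ih h2 h2'

theorem Path.unique_left (hF : Y.Folded) {W : List (Option P.ι × Bool)} {p p' q : Y.J × S.X}
    (h : Y.Path W p q) (h' : Y.Path W p' q) : p = p' := h.symm.unique hF h'.symm

theorem Folded.left (hF : Y.Folded) {σ : Option P.ι × Bool} {p p' q : Y.J × S.X}
    (h : Y.St σ p q) (h' : Y.St σ p' q) : p = p' := hF _ _ _ _ h.symm h'.symm

/-- a set closed under steps is closed under paths -/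
theorem Path.closed {W : List (Option P.ι × Bool)} {p q : Y.J × S.X} (h : Y.Path W p q)
    (A : Y.J × S.X → Prop) (hA : ∀ σ a b, A a → Y.St σ a b → A b) (hp : A p) : A q := by
  induction W generalizing p with
  | nil => obtain rfl : p = q := h; exact hp
  | cons σ W ih =>
    obtain ⟨m, h1, h2⟩ := h
    exact ih h2 (hA _ _ _ hp h1)

theorem Path.map {Y' : SG P S} (F : Y.J × S.X → Y'.J × S.X)
    (hF : ∀ σ p q, Y.St σ p q → Y'.St σ (F p) (F q))
    {W : List (Option P.ι × Bool)} {p q : Y.J × S.X} (h : Y.Path W p q) :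
    Y'.Path W (F p) (F q) := by
  induction W generalizing p with
  | nil => obtain rfl : p = q := h; rfl
  | cons σ W ih =>
    obtain ⟨m, h1, h2⟩ := h
    exact ⟨F m, hF _ _ _ h1, ih h2⟩

variable (Y) in
theorem meas_path (W : List (Option P.ι × Bool)) (j j' : Y.J) (g h : Γ) :
    Measurable fun x => Y.Path W (j, g • x) (j', h • x) := by
  induction W generalizing j g with
  | nil =>
    simp only [path_nil, Prod.mk.injEq]
    exact measurable_const.and (S.meas_smul_eq _ _)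
  | cons σ W ih =>
    simp only [path_cons, exists_st_iff, ← mul_smul]
    exact Measurable.exists fun k => (Y.meas_st _ _ _ _ _).and (ih _ _)

variable (Y) in
theorem meas_path' (W : List (Option P.ι × Bool)) (j j' : Y.J) (h : Γ) :
    Measurable fun x => Y.Path W (j, x) (j', h • x) := by
  simpa using Y.meas_path W j j' 1 h

variable (Y) in
theorem exists_path_iff (W : List (Option P.ι × Bool)) (p : Y.J × S.X) (Q : Y.J × S.X → Prop) :
    (∃ q, Y.Path W p q ∧ Q q) ↔
      ∃ j', Y.Path W p (j', (wv P.val W)⁻¹ • p.2) ∧ Q (j', (wv P.val W)⁻¹ • p.2) := by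
  constructor
  · rintro ⟨⟨j', y⟩, h, hq⟩
    obtain rfl : y = _ := h.pos
    exact ⟨j', h, hq⟩
  · rintro ⟨j', h, hq⟩
    exact ⟨_, h, hq⟩

/-- reachability -/
def Reach (Y : SG P S) (p q : Y.J × S.X) : Prop := ∃ W, Y.Path W p q

theorem Reach.refl (p : Y.J × S.X) : Y.Reach p p := ⟨[], rfl⟩

theorem Reach.symm {p q : Y.J × S.X} (h : Y.Reach p q) : Y.Reach q p :=
  let ⟨_, h⟩ := h; ⟨_, h.symm⟩

theorem Reach.trans {p m q : Y.J × S.X} (h : Y.Reach p m) (h' : Y.Reach m q) : Y.Reach p q :=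
  let ⟨_, h⟩ := h; let ⟨_, h'⟩ := h'; ⟨_, h.trans h'⟩

theorem St.reach {σ : Option P.ι × Bool} {p q : Y.J × S.X} (h : Y.St σ p q) : Y.Reach p q :=
  ⟨[σ], (Y.path_single _ _ _).2 h⟩

variable (Y) in
theorem meas_reach (j j' : Y.J) (g h : Γ) :
    Measurable fun x => Y.Reach (j, g • x) (j', h • x) :=
  Measurable.exists fun W => Y.meas_path W j j' g h

/-- a shortest path in a folded graph is reduced -/
theorem Path.isReduced_of_min (hF : Y.Folded) {W : List (Option P.ι × Bool)} {p q : Y.J × S.X}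
    (h : Y.Path W p q) (hmin : ∀ W', Y.Path W' p q → W.length ≤ W'.length) :
    FreeGroup.IsReduced W := by
  by_contra hr
  unfold FreeGroup.IsReduced at hr
  rw [List.isChain_iff_forall_rel_of_append_cons_cons] at hr
  push Not at hr
  obtain ⟨a, b, l1, l2, rfl, h1, h2⟩ := hr
  have hb : b = sinv a := by
    rcases a with ⟨a1, a2⟩
    rcases b with ⟨b1, b2⟩
    simp only at h1 h2
    subst h1
    cases a2 <;> cases b2 <;> simp_all [sinv]
  subst hb
  obtain ⟨m, hm1, m1, hs1, m2, hs2, hm2⟩ := (Y.path_append _ _ _ _).1 h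
  obtain rfl := hF _ _ _ _ hs2 hs1.symm
  have := hmin _ (hm1.trans hm2)
  simp at this

/-! ### Cells -/

theorem cell_st {i : P.ι} {τ : ZMod P.l → Y.J} {x : S.X} (h : Y.C i τ x) (k : ZMod P.l) :
    Y.St (P.R i k) (vx P i τ x k) (vx P i τ x (k + 1)) := Y.CE i τ x h k

theorem cell_st' {i : P.ι} {τ : ZMod P.l → Y.J} {x : S.X} (h : Y.C i τ x) (k : ZMod P.l) :
    Y.St (sinv (P.R i (k - 1))) (vx P i τ x k) (vx P i τ x (k - 1)) := by
  have := (cell_st h (k - 1)).symm
  rwa [sub_add_cancel] at this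

theorem cell_V {i : P.ι} {τ : ZMod P.l → Y.J} {x : S.X} (h : Y.C i τ x) (k : ZMod P.l) :
    Y.V (τ k) ((P.pre i k)⁻¹ • x) := (cell_st h k).left

theorem cell_path {i : P.ι} {τ : ZMod P.l → Y.J} {x : S.X} (h : Y.C i τ x) (u : ZMod P.l) (n : ℕ) :
    Y.Path (arcW P.R n i u) (vx P i τ x u) (vx P i τ x (u + (n : ZMod P.l))) := by
  induction n with
  | zero => simp
  | succ n ih =>
    rw [arcW_succ, Nat.cast_succ, ← add_assoc]
    exact ih.snoc (cell_st h _)

/-- in a folded graph a cell is determined by its type, a position and the vertex there -/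
theorem cell_unique (hF : Y.Folded) {i : P.ι} {τ τ' : ZMod P.l → Y.J} {x x' : S.X}
    (h : Y.C i τ x) (h' : Y.C i τ' x') {k : ZMod P.l} (hk : vx P i τ x k = vx P i τ' x' k) :
    τ = τ' ∧ x = x' := by
  have hx : x = x' := smul_left_cancel _ (congrArg Prod.snd hk)
  subst hx
  refine ⟨funext fun k' => ?_, rfl⟩
  obtain ⟨n, -, rfl⟩ := P.exists_add_cast k k'
  have h1 := cell_path h k n
  rw [hk] at h1
  exact congrArg Prod.fst (h1.unique hF (cell_path h' k n))

theorem Folded.ed (hF : Y.Folded) : Y.ED := fun _ _ _ _ k h h' hk _ =>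
  (cell_unique hF h h' (k := k) (Prod.ext hk rfl)).1

theorem two_le_deg {i : P.ι} {τ : ZMod P.l → Y.J} {x : S.X} (h : Y.C i τ x) (k : ZMod P.l) :
    2 ≤ Y.deg (vx P i τ x k) := by
  have hne : P.R i k ≠ sinv (P.R i (k - 1)) := by
    have := P.R_ne i (k - 1)
    rwa [sub_add_cancel] at this
  rw [← Set.ncard_pair hne]
  refine Set.ncard_le_ncard ?_ (Set.toFinite _)
  rintro σ (rfl | rfl)
  · exact ⟨_, cell_st h k⟩
  · exact ⟨_, cell_st' h k⟩

/-- at a vertex of degree at most two carrying two distinct letters, nothing else can be read -/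
theorem eq_or_eq_of_deg_le_two {p q₁ q₂ q : Y.J × S.X} {σ₁ σ₂ σ : Option P.ι × Bool}
    (hd : Y.deg p ≤ 2) (h₁ : Y.St σ₁ p q₁) (h₂ : Y.St σ₂ p q₂) (hne : σ₁ ≠ σ₂) (h : Y.St σ p q) :
    σ = σ₁ ∨ σ = σ₂ := by
  have hsub : ({σ₁, σ₂} : Set _) ⊆ {σ | ∃ q, Y.St σ p q} := by
    rintro σ (rfl | rfl)
    · exact ⟨_, h₁⟩
    · exact ⟨_, h₂⟩
  have := Set.eq_of_subset_of_ncard_le hsub (by rw [Set.ncard_pair hne]; exact hd) (Set.toFinite _)
  have hm : σ ∈ ({σ₁, σ₂} : Set _) := by rw [this]; exact ⟨_, h⟩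
  simpa using hm

theorem eq_of_deg_le_one {p q₁ q : Y.J × S.X} {σ₁ σ : Option P.ι × Bool}
    (hd : Y.deg p ≤ 1) (h₁ : Y.St σ₁ p q₁) (h : Y.St σ p q) : σ = σ₁ :=
  (Set.ncard_le_one (Set.toFinite _)).1 hd _ ⟨_, h⟩ _ ⟨_, h₁⟩

/-- the letters readable at a vertex of degree at most two of a cell -/
theorem cell_letters {i : P.ι} {τ : ZMod P.l → Y.J} {x : S.X} (h : Y.C i τ x) {k : ZMod P.l}
    (hd : Y.deg (vx P i τ x k) ≤ 2) {σ : Option P.ι × Bool} {q : Y.J × S.X}
    (hs : Y.St σ (vx P i τ x k) q) : σ = P.R i k ∨ σ = sinv (P.R i (k - 1)) := by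
  have hne : P.R i k ≠ sinv (P.R i (k - 1)) := by
    have := P.R_ne i (k - 1)
    rwa [sub_add_cancel] at this
  exact eq_or_eq_of_deg_le_two hd (cell_st h k) (cell_st' h k) hne hs

/-- a vertex of degree at most two is a corner of at most one cell -/
theorem corner_unique (hF : Y.Folded) {i i' : P.ι} {τ τ' : ZMod P.l → Y.J} {x x' : S.X}
    (h : Y.C i τ x) (h' : Y.C i' τ' x') {k k' : ZMod P.l} (hk : vx P i τ x k = vx P i' τ' x' k')
    (hd : Y.deg (vx P i τ x k) ≤ 2) : i = i' ∧ k = k' ∧ τ = τ' ∧ x = x' := by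
  have hne' : P.R i' k' ≠ sinv (P.R i' (k' - 1)) := by
    have := P.R_ne i' (k' - 1)
    rwa [sub_add_cancel] at this
  have h1 := cell_letters h hd (hk ▸ cell_st h' k')
  have h2 := cell_letters h hd (hk ▸ cell_st' h' k')
  have key : i = i' ∧ k = k' := by
    rcases h1 with h1 | h1 <;> rcases h2 with h2 | h2
    · exact absurd (h1.trans h2.symm) hne'
    · have := P.corner i (k - 1) i' (k' - 1) (sinv_injective h2).symm
        (by rw [sub_add_cancel, sub_add_cancel, h1])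
      exact ⟨this.1, by simpa using this.2⟩
    · exact (P.norev i' (k' - 1) i (k - 1) (by rw [sub_add_cancel, ← h2, sinv_sinv])
        (by rw [sub_add_cancel, h1])).elim
    · exact absurd (h1.trans h2.symm) hne'
  obtain ⟨rfl, rfl⟩ := key
  exact ⟨rfl, rfl, cell_unique hF h h' hk⟩

theorem vpos_of_cover {Y' : SG P S}
    (h : ∀ᵐ x ∂S.μ, ∀ j, Y.V j x → ∃ (g : Γ) (j' : Y'.J), Y'.V j' (g • x)) (hv : 0 < Y.v) :
    0 < Y'.v := by
  have := P.countable
  exact S.cnt_pos_of_cover h hv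

theorem v_nonneg : 0 ≤ Y.v := S.cnt_nonneg _
theorem e_nonneg : 0 ≤ Y.e := S.cnt_nonneg _
theorem f_nonneg : 0 ≤ Y.f := S.cnt_nonneg _
theorem leaves_nonneg : 0 ≤ Y.leaves := S.cnt_nonneg _

end SG

end Crest.Agent.R191
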