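import Crest.Agent.R191.Defs

/-! Row 191, part D1: the ascending HNN extension and its presentation data. -/

set_option autoImplicit false

noncomputable section

namespace Crest.Agent.R191

namespace Grp

section inj

variable {ι : Type} (w : ι → ℕ → ι) (L : ℕ)

/-- the positive word `w_i` -/
def pos (i : ι) : List (ι × Bool) := (List.range L).map fun k => (w i k, true)

/-- the image of a signed letter -/
def blk (σ : ι × Bool) : List (ι × Bool) :=
  cond σ.2 (pos w L σ.1) (FreeGroup.invRev (pos w L σ.1))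

/-- the endomorphism `a_i ↦ w_i` -/
def phi : FreeGroup ι →* FreeGroup ι := FreeGroup.lift fun i => FreeGroup.mk (pos w L i)

lemma phi_mk (W : List (ι × Bool)) :
    phi w L (FreeGroup.mk W) = FreeGroup.mk (W.map (blk w L)).flatten := by
  induction W with
  | nil => exact map_one _
  | cons σ W ih =>
    rw [List.map_cons, List.flatten_cons, ← FreeGroup.mul_mk, ← ih, ← List.singleton_append,
      ← FreeGroup.mul_mk, map_mul]
    congr 1
    obtain ⟨i, b⟩ := σ
    cases b <;> simp [phi, blk, FreeGroup.inv_mk]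

lemma snd_blk (σ : ι × Bool) (x : ι × Bool) (hx : x ∈ blk w L σ) : x.2 = σ.2 := by
  obtain ⟨i, b⟩ := σ
  cases b
  · simp only [blk, pos, FreeGroup.invRev, cond_false, List.mem_reverse, List.mem_map] at hx
    obtain ⟨_, ⟨_, _, rfl⟩, rfl⟩ := hx
    rfl
  · simp only [blk, pos, cond_true, List.mem_map] at hx
    obtain ⟨_, _, rfl⟩ := hx
    rfl

lemma head_pos (i : ι) : (pos w (L + 1) i).head? = some (w i 0, true) := by
  simp [pos, List.range_succ_eq_map]

lemma last_pos (i : ι) : (pos w (L + 1) i).getLast? = some (w i L, true) := by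
  simp [pos, List.range_succ]

lemma head_blk (σ : ι × Bool) :
    (blk w (L + 1) σ).head? = some (cond σ.2 (w σ.1 0) (w σ.1 L), σ.2) := by
  obtain ⟨i, b⟩ := σ
  cases b
  · simp [blk, FreeGroup.invRev, List.getLast?_map, last_pos]
  · simp [blk, head_pos]

lemma last_blk (σ : ι × Bool) :
    (blk w (L + 1) σ).getLast? = some (cond σ.2 (w σ.1 L) (w σ.1 0), σ.2) := by
  obtain ⟨i, b⟩ := σ
  cases b
  · simp [blk, FreeGroup.invRev, head_pos]
  · simp [blk, last_pos]

lemma blk_ne_nil (σ : ι × Bool) : blk w (L + 1) σ ≠ [] := fun h => by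
  have := head_blk w L σ
  rw [h] at this
  simp at this

lemma phi_injective (h1 : Function.Injective fun i => w i 0)
    (h2 : Function.Injective fun i => w i L) : Function.Injective (phi w (L + 1)) := by
  classical
  rw [injective_iff_map_eq_one]
  intro x hx
  have hW := FreeGroup.isReduced_toWord (x := x)
  rw [← FreeGroup.mk_toWord (x := x), phi_mk] at hx
  have hred : FreeGroup.IsReduced (x.toWord.map (blk w (L + 1))).flatten := by
    rw [FreeGroup.IsReduced, List.isChain_flatten (by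
      simp only [List.mem_map, not_exists, not_and]
      exact fun σ _ => blk_ne_nil w L σ)]
    constructor
    · intro l hl
      obtain ⟨σ, -, rfl⟩ := List.mem_map.1 hl
      refine List.Pairwise.isChain (List.pairwise_of_forall_mem_list fun a ha b hb _ => ?_)
      exact (snd_blk w _ σ a ha).trans (snd_blk w _ σ b hb).symm
    · rw [List.isChain_map]
      refine List.IsChain.imp ?_ hW
      rintro ⟨i, b⟩ ⟨i', b'⟩ h
      simp only [last_blk, head_blk, Option.mem_def, Option.some.injEq, forall_eq']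
      cases b <;> cases b'
      · exact fun _ => rfl
      · exact fun e => h (h1 e)
      · exact fun e => h (h2 e)
      · exact fun _ => rfl
  have h3 := congrArg FreeGroup.toWord hx
  rw [FreeGroup.toWord_mk, hred.reduce_eq, FreeGroup.toWord_one] at h3
  rw [← FreeGroup.toWord_eq_nil_iff]
  cases hx' : x.toWord with
  | nil => rfl
  | cons σ W =>
    rw [hx', List.map_cons, List.flatten_cons, List.append_eq_nil_iff] at h3
    exact absurd h3.1 (blk_ne_nil w L σ)

end inj

/-- the words: `w i k = i + (0 + 1 + ⋯ + k)` -/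
def ww (r : ℕ) (i : ZMod r) (k : ℕ) : ZMod r := i + ((∑ j ∈ Finset.range (k + 1), j : ℕ) : ZMod r)

lemma ww_succ (r : ℕ) (i : ZMod r) (k : ℕ) : ww r i (k + 1) = ww r i k + ((k + 1 : ℕ) : ZMod r) := by
  rw [ww, ww, Finset.sum_range_succ _ (k + 1), Nat.cast_add, add_assoc]

lemma ww_inj (r k : ℕ) : Function.Injective fun i => ww r i k := fun _ _ h => add_right_cancel h

lemma wv_append {S Γ : Type} [Group Γ] (val : S → Γ) (W W' : List (S × Bool)) :
    wv val (W ++ W') = wv val W * wv val W' := by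
  simp [wv]

lemma wv_invRev {S Γ : Type} [Group Γ] (val : S → Γ) (W : List (S × Bool)) :
    wv val (FreeGroup.invRev W) = (wv val W)⁻¹ := by
  induction W with
  | nil => simp [wv]
  | cons σ W ih =>
    rw [FreeGroup.invRev_cons, wv_append, ih]
    obtain ⟨s, b⟩ := σ
    cases b <;> simp [wv, lv, FreeGroup.invRev]

section pres

variable {Γ : Type} [Group Γ] {ι : Type} {L : ℕ} (H : AHNN Γ ι L)

/-- the letters of the relator -/
def Rn (i : ι) (n : ℕ) : Option ι × Bool :=
  if n = 0 then (some i, true)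
  else if n = 1 then (none, false)
  else if n ≤ L + 1 then (some (H.w i (L + 1 - n)), false)
  else (none, true)

lemma R_eq (i : ι) (k : ZMod (L + 3)) : H.R i k = Rn H i k.val := rfl

/-- the prefixes of the relator -/
def preN (i : ι) (n : ℕ) : Γ := wv H.val ((List.range n).map (Rn H i))

lemma preN_succ (i : ι) (n : ℕ) : preN H i (n + 1) = preN H i n * lv H.val (Rn H i n) := by
  simp [preN, wv, List.range_succ]

lemma pos_succ (i : ι) (n : ℕ) : FreeGroup.mk (pos H.w (n + 1) i) =
    FreeGroup.mk (pos H.w n i) * FreeGroup.of (H.w i n) := by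
  rw [pos, List.range_succ, List.map_append, ← FreeGroup.mul_mk]
  rfl

lemma preN_mid (i : ι) (m : ℕ) (hm : m ≤ L) : preN H i (m + 2) =
    H.of (FreeGroup.of i) * H.t⁻¹ * (H.of (FreeGroup.mk (pos H.w L i)))⁻¹ *
      H.of (FreeGroup.mk (pos H.w (L - m) i)) := by
  induction m with
  | zero => simp [preN, wv, List.range_succ, Rn, lv, AHNN.val]
  | succ m ih =>
    rw [show m + 1 + 2 = m + 2 + 1 by ring, preN_succ, ih (by omega),
      show L - m = L - (m + 1) + 1 by omega, pos_succ, Rn, if_neg (by omega), if_neg (by omega),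
      if_pos (by omega), show L + 1 - (m + 2) = L - (m + 1) by omega]
    simp [lv, AHNN.val, mul_assoc]

lemma preN_full (i : ι) : preN H i (L + 3) = 1 := by
  rw [show L + 3 = L + 2 + 1 by ring, preN_succ, preN_mid H i L le_rfl, Rn, if_neg (by omega),
    if_neg (by omega), if_neg (by omega), pos, ← H.rel i, Nat.sub_self]
  have : FreeGroup.mk (pos H.w 0 i) = 1 := rfl
  rw [this]
  simp [lv, AHNN.val, mul_assoc]

lemma val_succ (k : ZMod (L + 3)) :
    (k + 1).val = if k.val = L + 2 then 0 else k.val + 1 := by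
  have h1 : (1 : ZMod (L + 3)).val = 1 := ZMod.val_one_eq_one_mod _
  have h2 := ZMod.val_lt k
  rw [ZMod.val_add, h1]
  split_ifs with h
  · rw [h, Nat.mod_self]
  · exact Nat.mod_eq_of_lt (by omega)

lemma R_cases (hL : 1 ≤ L) (i : ι) (k : ZMod (L + 3)) :
    (k.val = 0 ∧ H.R i k = (some i, true) ∧ H.R i (k + 1) = (none, false)) ∨
    (k.val = 1 ∧ H.R i k = (none, false) ∧ H.R i (k + 1) = (some (H.w i (L - 1)), false)) ∨
    (∃ m, m + 1 < L ∧ k.val = L - m ∧ H.R i k = (some (H.w i (m + 1)), false) ∧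
      H.R i (k + 1) = (some (H.w i m), false)) ∨
    (k.val = L + 1 ∧ H.R i k = (some (H.w i 0), false) ∧ H.R i (k + 1) = (none, true)) ∨
    (k.val = L + 2 ∧ H.R i k = (none, true) ∧ H.R i (k + 1) = (some i, true)) := by
  have h2 := ZMod.val_lt k
  rw [R_eq, R_eq, val_succ]
  generalize k.val = n at h2
  by_cases c0 : n = 0
  · subst c0
    left
    simp [Rn]
  by_cases c1 : n = 1
  · subst c1
    right; left
    rw [if_neg (by omega), Rn, Rn, if_neg (by omega), if_pos rfl, if_neg (by omega),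
      if_neg (by omega), if_pos (by omega)]
    exact ⟨rfl, rfl, rfl⟩
  by_cases c2 : n ≤ L
  · right; right; left
    refine ⟨L - n, by omega, by omega, ?_, ?_⟩
    · rw [Rn, if_neg c0, if_neg c1, if_pos (by omega), show L + 1 - n = L - n + 1 by omega]
    · rw [if_neg (by omega), Rn, if_neg (by omega), if_neg (by omega), if_pos (by omega),
        show L + 1 - (n + 1) = L - n by omega]
  by_cases c3 : n = L + 1
  · right; right; right; left
    refine ⟨c3, ?_, ?_⟩
    · rw [Rn, if_neg c0, if_neg c1, if_pos (by omega), show L + 1 - n = 0 by omega]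
    · rw [if_neg (by omega), Rn, if_neg (by omega), if_neg (by omega), if_neg (by omega)]
  · right; right; right; right
    refine ⟨by omega, ?_, ?_⟩
    · rw [Rn, if_neg c0, if_neg c1, if_neg (by omega)]
    · rw [if_pos (by omega), Rn, if_pos rfl]

lemma corner (hL : 1 ≤ L) (i : ι) (k : ZMod (L + 3)) (i' : ι) (k' : ZMod (L + 3))
    (h1 : H.R i k = H.R i' k') (h2 : H.R i (k + 1) = H.R i' (k' + 1)) : i = i' ∧ k = k' := by
  rw [← (ZMod.val_injective (L + 3)).eq_iff]
  rcases R_cases H hL i k with ⟨a, b, c⟩ | ⟨a, b, c⟩ | ⟨m, hm, a, b, c⟩ | ⟨a, b, c⟩ | ⟨a, b, c⟩ <;>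
    rcases R_cases H hL i' k' with
      ⟨a', b', c'⟩ | ⟨a', b', c'⟩ | ⟨m', hm', a', b', c'⟩ | ⟨a', b', c'⟩ | ⟨a', b', c'⟩ <;>
    rw [b, b'] at h1 <;> rw [c, c'] at h2 <;>
    simp only [Prod.mk.injEq, Option.some.injEq, reduceCtorEq, Bool.true_eq_false,
      Bool.false_eq_true, and_false, and_true, and_self] at h1 h2
  · exact ⟨h1, by omega⟩
  · exact ⟨H.last_inj h2, by omega⟩
  · obtain ⟨e1, e2⟩ := H.two_inj i m i' m' hm hm' h2 h1
    exact ⟨e1, by omega⟩
  · exact ⟨H.first_inj h1, by omega⟩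
  · exact ⟨h2, by omega⟩

lemma norev (hL : 1 ≤ L) (i : ι) (k : ZMod (L + 3)) (i' : ι) (k' : ZMod (L + 3))
    (h1 : H.R i k = sinv (H.R i' (k' + 1))) (h2 : H.R i (k + 1) = sinv (H.R i' k')) : False := by
  rcases R_cases H hL i k with ⟨a, b, c⟩ | ⟨a, b, c⟩ | ⟨m, hm, a, b, c⟩ | ⟨a, b, c⟩ | ⟨a, b, c⟩ <;>
    rcases R_cases H hL i' k' with
      ⟨a', b', c'⟩ | ⟨a', b', c'⟩ | ⟨m', hm', a', b', c'⟩ | ⟨a', b', c'⟩ | ⟨a', b', c'⟩ <;>
    rw [b, c'] at h1 <;> rw [c, b'] at h2 <;> simp [sinv] at h1 h2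

lemma low (i : ι) (k : ZMod (L + 3)) (i' : ι) (hk : k ≠ 0) (h : (H.R i k).1 = some i') :
    H.ht (preN H i k.val) = Multiplicative.ofAdd (-1) := by
  have h0 : k.val ≠ 0 := fun e => hk ((ZMod.val_eq_zero k).1 e)
  rw [R_eq, Rn, if_neg h0] at h
  split_ifs at h with h1 h2
  obtain ⟨m, hm⟩ : ∃ m, k.val = m + 2 := ⟨k.val - 2, by omega⟩
  rw [hm, preN_mid H i m (by omega)]
  simp [H.ht_of, H.ht_t]

lemma gen (g : Γ) : ∃ W, wv H.val W = g := by
  have hg : g ∈ Subgroup.closure (Set.range H.of ∪ {H.t}) := H.gen ▸ Subgroup.mem_top g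
  have hmul : ∀ x y : Γ, (∃ W, wv H.val W = x) → (∃ W, wv H.val W = y) →
      ∃ W, wv H.val W = x * y := by
    rintro _ _ ⟨W, rfl⟩ ⟨W', rfl⟩
    exact ⟨W ++ W', wv_append _ _ _⟩
  have hinv : ∀ x : Γ, (∃ W, wv H.val W = x) → ∃ W, wv H.val W = x⁻¹ := by
    rintro _ ⟨W, rfl⟩
    exact ⟨_, wv_invRev _ _⟩
  induction hg using Subgroup.closure_induction with
  | mem x hx =>
    rcases hx with ⟨y, rfl⟩ | rfl
    · induction y using FreeGroup.induction_on with
      | C1 => exact ⟨[], by simp [wv]⟩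
      | of i => exact ⟨[(some i, true)], by simp [wv, lv, AHNN.val]⟩
      | inv_of i h => rw [map_inv]; exact hinv _ h
      | mul x y hx hy => rw [map_mul]; exact hmul _ _ hx hy
    · exact ⟨[(none, true)], by simp [wv, lv, AHNN.val]⟩
  | one => exact ⟨[], by simp [wv]⟩
  | mul x y _ _ hx hy => exact hmul _ _ hx hy
  | inv x _ hx => exact hinv _ hx

/-- the presentation data of the HNN extension -/
def pres [Fintype ι] [DecidableEq ι] (hD : DehnStmt) (hL : 100 ≤ L) (a0 : ι) : Pres Γ where
  ι := ι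
  val := H.val
  l := L + 3
  c := 12
  two_le_c := by norm_num
  two_c_lt := by omega
  R := H.R
  pre i k := preN H i k.val
  pre_zero i := by simp [preN, wv]
  pre_succ i k := by
    rw [val_succ, R_eq, ← preN_succ]
    split_ifs with h
    · rw [h, preN_full]
      simp [preN, wv]
    · rfl
  corner := corner H (by omega)
  norev := norev H (by omega)
  ht := H.ht
  ht_a i := H.ht_of _
  top i := by simp [AHNN.R]
  low := low H
  gen := gen H
  free := by
    have : FreeGroup.lift (fun i => H.val (some i)) = H.of :=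
      FreeGroup.ext_hom _ _ fun i => by simp [AHNN.val]
    rw [this]
    exact H.of_inj
  a0 := a0
  dehn := hD Γ ι L H hL a0

end pres

end Grp

open Grp

theorem groupStmt : GroupStmt := by
  intro r hr
  obtain ⟨L, rfl⟩ : ∃ L, r = L + 1 := ⟨r - 1, by omega⟩
  have hinj := phi_injective (ww (L + 1)) L (ww_inj _ _) (ww_inj _ _)
  let e : (⊤ : Subgroup (FreeGroup (ZMod (L + 1)))) ≃* (phi (ww (L + 1)) (L + 1)).range :=
    Subgroup.topEquiv.trans (MonoidHom.ofInjective hinj)
  refine ⟨HNNExtension _ _ _ e, inferInstance, ⟨{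
    of := HNNExtension.of
    of_inj := HNNExtension.of_injective e
    t := HNNExtension.t
    w := ww (L + 1)
    rel := fun i => ?_
    ht := HNNExtension.lift 1 (Multiplicative.ofAdd 1) (by simp)
    ht_of := fun x => by simp
    ht_t := by simp
    gen := ?_
    first_inj := ww_inj _ _
    last_inj := ww_inj _ _
    two_inj := fun i k i' k' hk hk' h1 h2 => ?_
    no_aa := fun i k hk h => ?_ }⟩⟩
  · have := HNNExtension.equiv_eq_conj (φ := e) ⟨FreeGroup.of i, Subgroup.mem_top _⟩
    rw [← this]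
    congr 1
    change phi (ww (L + 1)) (L + 1) (FreeGroup.of i) = _
    simp [phi, pos]
  · rw [eq_top_iff]
    rintro x -
    induction x using HNNExtension.induction_on with
    | of g => exact Subgroup.subset_closure (Or.inl ⟨g, rfl⟩)
    | t => exact Subgroup.subset_closure (Or.inr rfl)
    | mul x y hx hy => exact mul_mem hx hy
    | inv x hx => exact inv_mem hx
  · rw [ww_succ, ww_succ, h1, add_right_inj] at h2
    have h3 := congrArg ZMod.val h2
    rw [ZMod.val_cast_of_lt hk, ZMod.val_cast_of_lt hk'] at h3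
    obtain rfl : k = k' := by omega
    exact ⟨ww_inj _ _ h1, rfl⟩
  · rw [ww_succ, left_eq_add] at h
    have h3 := congrArg ZMod.val h
    rw [ZMod.val_cast_of_lt hk, ZMod.val_zero] at h3
    omega

theorem presStmt_of (h : DehnStmt) : PresStmt := by
  intro r hr
  obtain ⟨Γ, _, ⟨H⟩⟩ := groupStmt r (by omega)
  have : NeZero r := ⟨by omega⟩
  exact ⟨Γ, inferInstance, pres H h hr 0, ZMod.card r, rfl, rfl⟩

end Crest.Agent.R191
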