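import Crest.Agent.R191.Defs

/-! Row 191, module (E): the initial graph. -/

set_option autoImplicit false

open MeasureTheory Filter Topology

noncomputable section

namespace Crest.Agent.R191

namespace Init

variable {Γ : Type} [Group Γ]

/-! ### Chains of steps of a graphing -/

section Chains
variable {X : Type} [MulAction Γ X] (Φ : ℕ → Γ × Set X)

/-- the chain of steps `L` can be followed from `x` -/
def okL : List (ℕ × Bool) → X → Prop
  | [], _ => True
  | a :: L, x => cond a.2 (x ∈ (Φ a.1).2 ∧ okL L ((Φ a.1).1 • x))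
      ((Φ a.1).1⁻¹ • x ∈ (Φ a.1).2 ∧ okL L ((Φ a.1).1⁻¹ • x))

/-- the group element of a chain -/
def valL : List (ℕ × Bool) → Γ
  | [] => 1
  | a :: L => valL L * cond a.2 (Φ a.1).1 (Φ a.1).1⁻¹

theorem exists_chain {x y : X} (h : Relation.EqvGen (Crest.Dynamics.GraphingStep Φ) x y) :
    ∃ L, okL Φ L x ∧ y = valL Φ L • x := by
  have h1 : Relation.ReflTransGen (fun a b => Crest.Dynamics.GraphingStep Φ a b ∨
      Crest.Dynamics.GraphingStep Φ b a) x y := by
    induction h with
    | rel a b h => exact Relation.ReflTransGen.single (Or.inl h)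
    | refl a => exact Relation.ReflTransGen.refl
    | symm a b hab ih =>
      clear hab
      induction ih with
      | refl => exact Relation.ReflTransGen.refl
      | tail _ h ih' => exact Relation.ReflTransGen.head (Or.symm h) ih'
    | trans a b c _ _ ih1 ih2 => exact ih1.trans ih2
  clear h
  induction h1 using Relation.ReflTransGen.head_induction_on with
  | refl => exact ⟨[], trivial, by simp [valL]⟩
  | head h _ ih =>
    obtain ⟨L, h1, h2⟩ := ih
    rcases h with ⟨i, hi, rfl⟩ | ⟨i, hi, rfl⟩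
    · exact ⟨(i, true) :: L, ⟨hi, h1⟩, by simp [valL, h2, mul_smul]⟩
    · exact ⟨(i, false) :: L, ⟨by simpa using hi, by simpa using h1⟩, by simp [valL, h2, mul_smul]⟩

theorem measurable_okL [MeasurableSpace X] [MeasurableConstSMul Γ X]
    (hΦ : ∀ i, MeasurableSet (Φ i).2) (L : List (ℕ × Bool)) : MeasurableSet {x | okL Φ L x} := by
  induction L with
  | nil => simp [okL]
  | cons a L ih =>
    obtain ⟨i, _ | _⟩ := a
    · exact ((hΦ i).inter ih).preimage (measurable_const_smul (Φ i).1⁻¹)
    · exact (hΦ i).inter (ih.preimage (measurable_const_smul (Φ i).1))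

/-- points not joined to `g • x` by the first `N` steps -/
def bad (N : ℕ) (g : Γ) : Set X :=
  {x | ¬ ∃ L : List (ℕ × Bool), (∀ a ∈ L, a.1 < N) ∧ valL Φ L = g ∧ okL Φ L x}

theorem measurable_bad [MeasurableSpace X] [MeasurableConstSMul Γ X]
    (hΦ : ∀ i, MeasurableSet (Φ i).2) (N : ℕ) (g : Γ) : MeasurableSet (bad Φ N g) := by
  refine MeasurableSet.compl ?_
  change MeasurableSet {x | ∃ L : List (ℕ × Bool), (∀ a ∈ L, a.1 < N) ∧ valL Φ L = g ∧ okL Φ L x}
  rw [Set.ofPred_exists]
  refine MeasurableSet.iUnion fun L => ?_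
  by_cases h : (∀ a ∈ L, a.1 < N) ∧ valL Φ L = g
  · convert measurable_okL Φ hΦ L using 2
    ext x
    exact ⟨fun h' => h'.2.2, fun h' => ⟨h.1, h.2, h'⟩⟩
  · convert MeasurableSet.empty
    ext x
    simp only [Set.mem_ofPred_eq, Set.mem_empty_iff_false, iff_false]
    exact fun h' => h ⟨h'.1, h'.2.1⟩

theorem bad_antitone (g : Γ) : Antitone fun N => bad Φ N g := by
  rintro N N' h x hx ⟨L, h1, h2⟩
  exact hx ⟨L, fun a ha => (h1 a ha).trans_le h, h2⟩

end Chains

theorem tendsto_bad (S : Sp Γ) (Φ : ℕ → Γ × Set S.X) (h : Crest.Dynamics.Generates S.μ Φ) (g : Γ) :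
    Tendsto (fun N => S.μ.real (bad Φ N g)) atTop (𝓝 0) := by
  obtain ⟨hm, Z, hZ, hgen⟩ := h
  have h1 := tendsto_measure_iInter_atTop (μ := S.μ)
    (fun N => (measurable_bad Φ hm N g).nullMeasurableSet) (bad_antitone Φ g)
    ⟨0, measure_ne_top _ _⟩
  have h2 : S.μ (⋂ N, bad Φ N g) = 0 := by
    refine measure_mono_null (fun x hx => ?_) hZ
    by_contra hxZ
    obtain ⟨L, h1, h2⟩ := exists_chain Φ (hgen x hxZ g)
    have h3 : valL Φ L = g := by
      have := S.free (g⁻¹ * valL Φ L) x (by rw [mul_smul, ← h2, inv_smul_smul])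
      exact (inv_mul_eq_one.1 this).symm
    refine Set.mem_iInter.1 hx ((L.map Prod.fst).sum + 1) ⟨L, fun a ha => ?_, h3, h1⟩
    exact Nat.lt_succ_of_le (List.le_sum_of_mem (List.mem_map_of_mem ha))
  rw [h2] at h1
  exact (ENNReal.tendsto_toReal ENNReal.zero_ne_top).comp h1

/-! ### Reachability -/

section Reach
variable {P : Pres Γ} {S : Sp Γ} (Y : SG P S)

/-- there is a path -/
def Reach (p q : Y.J × S.X) : Prop := ∃ W, Y.Path W p q

theorem Reach.refl (p : Y.J × S.X) : Reach Y p p := ⟨[], rfl⟩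

variable {Y}

theorem Reach.trans {p q r : Y.J × S.X} (h₁ : Reach Y p q) (h₂ : Reach Y q r) : Reach Y p r := by
  obtain ⟨W, h₁⟩ := h₁
  induction W generalizing p with
  | nil =>
    have : p = q := h₁
    rwa [this]
  | cons σ W ih =>
    obtain ⟨m, h3, h4⟩ := h₁
    obtain ⟨W', h5⟩ := ih h4
    exact ⟨σ :: W', m, h3, h5⟩

theorem Reach.single {σ : Option P.ι × Bool} {p q : Y.J × S.X} (h : Y.St σ p q) : Reach Y p q :=
  ⟨[σ], q, h, rfl⟩

theorem St_symm {σ : Option P.ι × Bool} {p q : Y.J × S.X} (h : Y.St σ p q) :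
    Y.St (sinv σ) q p := by
  obtain ⟨s, _ | _⟩ := σ
  · obtain ⟨h1, h2⟩ := h
    refine ⟨?_, h2⟩
    simp only [lv, sinv, Bool.not_false, cond_true, cond_false, inv_inv] at h1 ⊢
    rw [h1, inv_smul_smul]
  · obtain ⟨h1, h2⟩ := h
    refine ⟨?_, h2⟩
    simp only [lv, sinv, Bool.not_true, cond_true, cond_false, inv_inv] at h1 ⊢
    rw [h1, smul_inv_smul]

theorem Reach.symm {p q : Y.J × S.X} (h : Reach Y p q) : Reach Y q p := by
  obtain ⟨W, h⟩ := h
  induction W generalizing p with
  | nil =>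
    have : p = q := h
    rw [this]
    exact Reach.refl Y q
  | cons σ W ih =>
    obtain ⟨m, h3, h4⟩ := h
    exact (ih h4).trans (Reach.single (St_symm h3))

end Reach

/-! ### The graph -/

section Graph
variable (P : Pres Γ) (S : Sp Γ) (N : ℕ) (W : ℕ → List (Option P.ι × Bool)) (A : ℕ → Set S.X)
  (M : Option P.ι → Set S.X)

/-- sheets -/
abbrev JJ : Type := Option (Σ n : Fin N, Fin ((W n).length - 1))

/-- the sheet of position `k` of the `n`-th path -/
def node (n : Fin N) (k : ℕ) : JJ P N W :=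
  if h : 0 < k ∧ k < (W n).length then some ⟨n, ⟨k - 1, by omega⟩⟩ else none

/-- edge slots -/
abbrev TT : Type := (Σ n : Fin N, Fin (W n).length) ⊕ Option P.ι

/-- label of an edge slot -/
def lab : TT P N W → Option P.ι
  | .inl t => ((W t.1)[t.2.1]).1
  | .inr s => s

/-- source of an edge slot -/
def src : TT P N W → JJ P N W
  | .inl t => cond ((W t.1)[t.2.1]).2 (node P N W t.1 t.2) (node P N W t.1 (t.2 + 1))
  | .inr _ => none

/-- target of an edge slot -/
def tgt : TT P N W → JJ P N W
  | .inl t => cond ((W t.1)[t.2.1]).2 (node P N W t.1 (t.2 + 1)) (node P N W t.1 t.2)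
  | .inr _ => none

/-- domain of an edge slot -/
def dom : TT P N W → Set S.X
  | .inl t => (fun x => wv P.val ((W t.1).take (cond ((W t.1)[t.2.1]).2 t.2 (t.2 + 1))) • x) ⁻¹'
      A t.1
  | .inr s => M s

/-- vertices -/
def VV : JJ P N W → S.X → Prop
  | none, _ => True
  | some t, x => wv P.val ((W t.1).take (t.2 + 1)) • x ∈ A t.1

theorem VV_node (n : Fin N) (k : ℕ) (x : S.X) (h : wv P.val ((W n).take k) • x ∈ A n) :
    VV P S N W A (node P N W n k) x := by
  unfold node
  split_ifs with hk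
  · change wv P.val ((W n).take (k - 1 + 1)) • x ∈ A n
    rwa [Nat.sub_add_cancel hk.1]
  · trivial

theorem wv_take_succ (L : List (Option P.ι × Bool)) {k : ℕ} (hk : k < L.length) :
    wv P.val (L.take (k + 1)) = wv P.val (L.take k) * lv P.val L[k] := by
  rw [List.take_succ_eq_append_getElem hk]
  simp only [wv, List.map_append, List.prod_append, List.map_cons, List.map_nil, List.prod_cons,
    List.prod_nil, mul_one]

/-- the initial graph -/
def graph (hA : ∀ n, MeasurableSet (A n)) (hM : ∀ s, MeasurableSet (M s)) : SG P S where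
  J := JJ P N W
  V := VV P S N W A
  E := fun s j j' x => ∃ t, (lab P N W t, src P N W t, tgt P N W t) = (s, j, j') ∧
    x ∈ dom P S N W A M t
  C := fun _ _ _ => False
  mV := by
    rintro (_ | t)
    · exact measurable_const
    · exact measurableSet_setOfPred.1 ((hA t.1).preimage (measurable_const_smul _))
  mE := by
    intro s j j'
    refine Measurable.exists fun t => Measurable.and measurable_const ?_
    rcases t with t | t
    · exact measurableSet_setOfPred.1 ((hA t.1).preimage (measurable_const_smul _))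
    · exact measurableSet_setOfPred.1 (hM t)
  mC := fun _ _ => measurable_const
  EV1 := by
    rintro s j j' x ⟨t | t, h1, h2⟩
    · simp only [Prod.mk.injEq] at h1
      obtain ⟨-, rfl, -⟩ := h1
      simp only [src, dom, Set.mem_preimage] at h2 ⊢
      cases hb : ((W t.1)[t.2.1]).2 <;> rw [hb] at h2 <;> exact VV_node P S N W A _ _ _ h2
    · simp only [Prod.mk.injEq] at h1
      obtain ⟨-, rfl, -⟩ := h1
      trivial
  EV2 := by
    rintro s j j' x ⟨t | t, h1, h2⟩
    · simp only [Prod.mk.injEq] at h1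
      obtain ⟨rfl, -, rfl⟩ := h1
      simp only [tgt, dom, lab, Set.mem_preimage] at h2 ⊢
      cases hb : ((W t.1)[t.2.1]).2 <;> rw [hb] at h2 <;> refine VV_node P S N W A _ _ _ ?_
      · simp only [cond_false, wv_take_succ P _ t.2.2, lv, hb, mul_smul] at h2
        exact h2
      · simp only [wv_take_succ P _ t.2.2, lv, hb, cond_true, mul_smul, smul_inv_smul]
        exact h2
    · simp only [Prod.mk.injEq] at h1
      obtain ⟨-, -, rfl⟩ := h1
      trivial
  CE := fun _ _ _ h => h.elim

variable (hA : ∀ n, MeasurableSet (A n)) (hM : ∀ s, MeasurableSet (M s))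

theorem reach_node (n : Fin N) {x : S.X} (hx : x ∈ A n) (k : ℕ) (hk : k ≤ (W n).length) :
    Reach (graph P S N W A M hA hM) (none, x)
      (node P N W n k, (wv P.val ((W n).take k))⁻¹ • x) := by
  induction k with
  | zero =>
    have : node P N W n 0 = none := by simp [node]
    rw [this]
    simp only [List.take_zero, wv, List.map_nil, List.prod_nil, inv_one, one_smul]
    exact Reach.refl _ _
  | succ k ih =>
    refine (ih (by omega)).trans (Reach.single (σ := (W n)[k]) ⟨?_, ?_⟩)
    · simp only [wv_take_succ P _ hk, mul_inv_rev, mul_smul]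
    · cases hb : ((W n)[k]).2
      · refine ⟨.inl ⟨n, ⟨k, hk⟩⟩, by simp [lab, src, tgt, hb], ?_⟩
        simpa [dom, hb] using hx
      · refine ⟨.inl ⟨n, ⟨k, hk⟩⟩, by simp [lab, src, tgt, hb], ?_⟩
        simpa [dom, hb] using hx

theorem graph_v : (graph P S N W A M hA hM).v =
    1 + ∑ n : Fin N, (((W n).length - 1 : ℕ) : ℝ) * S.μ.real (A n) := by
  change ∑ j : JJ P N W, S.μ.real {x | VV P S N W A j x} = _
  rw [Fintype.sum_option, Fintype.sum_sigma]
  congr 1
  · simp [VV]
  · refine Finset.sum_congr rfl fun n _ => ?_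
    have : ∀ k : Fin ((W n).length - 1), S.μ.real {x | VV P S N W A (some ⟨n, k⟩) x} =
        S.μ.real (A n) := fun k => by
      unfold Measure.real
      congr 1
      exact measure_preimage_smul _ _ _
    simp [this]

theorem graph_e : (graph P S N W A M hA hM).e ≤
    ∑ n : Fin N, ((W n).length : ℝ) * S.μ.real (A n) + ∑ s, S.μ.real (M s) := by
  classical
  have h1 : (graph P S N W A M hA hM).e ≤ ∑ t : TT P N W, S.μ.real (dom P S N W A M t) := by
    rw [← Finset.sum_fiberwise (s := Finset.univ)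
      (g := fun t => (lab P N W t, src P N W t, tgt P N W t))]
    refine Finset.sum_le_sum fun u _ => ?_
    refine le_trans (measureReal_mono ?_ (measure_ne_top _ _)) (measureReal_biUnion_finset_le _ _)
    rintro x ⟨t, h1, h2⟩
    exact Set.mem_biUnion (Finset.mem_coe.2 (Finset.mem_filter.2 ⟨Finset.mem_univ _, h1⟩)) h2
  refine h1.trans (le_of_eq ?_)
  rw [Fintype.sum_sum_type, Fintype.sum_sigma]
  congr 1
  refine Finset.sum_congr rfl fun n _ => ?_
  have : ∀ k : Fin (W n).length, S.μ.real (dom P S N W A M (.inl ⟨n, k⟩)) =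
      S.μ.real (A n) := fun k => by
    unfold Measure.real
    congr 1
    exact measure_preimage_smul _ _ _
  simp [this]

end Graph

theorem graph_conn (P : Pres Γ) (S : Sp Γ) (N : ℕ) (W : ℕ → List (Option P.ι × Bool))
    (Φ : ℕ → Γ × Set S.X) (hW : ∀ n, wv P.val (W n) = (Φ n).1⁻¹)
    (hA : ∀ n, MeasurableSet (Φ n).2) (hM : ∀ s, MeasurableSet (bad Φ N (P.val s)⁻¹)) :
    (graph P S N W (fun n => (Φ n).2) (fun s => bad Φ N (P.val s)⁻¹) hA hM).Conn := by
  set Y := graph P S N W (fun n => (Φ n).2) (fun s => bad Φ N (P.val s)⁻¹) hA hM with hY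
  have h1 : ∀ n < N, ∀ x ∈ (Φ n).2, Reach Y (none, x) (none, (Φ n).1 • x) := by
    intro n hn x hx
    have := reach_node P S N W _ _ hA hM ⟨n, hn⟩ hx _ le_rfl
    rwa [List.take_length, hW, inv_inv, show node P N W ⟨n, hn⟩ (W n).length = none by
      simp [node]] at this
  have h2 : ∀ L : List (ℕ × Bool), (∀ a ∈ L, a.1 < N) → ∀ x, okL Φ L x →
      Reach Y (none, x) (none, valL Φ L • x) := by
    intro L
    induction L with
    | nil => intro _ x _; simpa [valL] using Reach.refl Y (none, x)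
    | cons a L ih =>
      intro hL x hx
      have ha := hL a List.mem_cons_self
      have ih' := ih fun b hb => hL b (List.mem_cons_of_mem _ hb)
      obtain ⟨i, _ | _⟩ := a
      · have a1 := (h1 i ha _ hx.1).symm
        rw [smul_inv_smul] at a1
        simpa [valL, mul_smul] using a1.trans (ih' _ hx.2)
      · simpa [valL, mul_smul] using (h1 i ha _ hx.1).trans (ih' _ hx.2)
  have h3 : ∀ s x, Reach Y (none, x) (none, (P.val s)⁻¹ • x) := by
    intro s x
    by_cases hx : x ∈ bad Φ N (P.val s)⁻¹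
    · exact Reach.single (σ := (s, true)) ⟨rfl, .inr s, rfl, hx⟩
    · obtain ⟨L, a1, a2, a3⟩ := not_not.1 hx
      rw [← a2]
      exact h2 L a1 x a3
  have h4 : ∀ (L : List (Option P.ι × Bool)) x, Reach Y (none, x) (none, wv P.val L • x) := by
    intro L x
    induction L with
    | nil => simpa [wv] using Reach.refl Y (none, x)
    | cons a L ih =>
      refine ih.trans ?_
      obtain ⟨s, _ | _⟩ := a
      · simpa [wv, lv, mul_smul] using h3 s (wv P.val L • x)
      · have := (h3 s (P.val s • wv P.val L • x)).symm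
        simpa [wv, lv, mul_smul] using this
  have h5 : ∀ (g : Γ) x, Reach Y (none, x) (none, g • x) := by
    intro g x
    obtain ⟨L, rfl⟩ := P.gen g
    exact h4 L x
  have h6 : ∀ p : Y.J × S.X, Y.V p.1 p.2 → Reach Y (none, p.2) p := by
    rintro ⟨_ | ⟨n, k⟩, x⟩ hp
    · exact Reach.refl _ _
    · have hk := k.2
      have := reach_node P S N W _ _ hA hM n hp (k + 1) (by omega)
      rw [inv_smul_smul, show node P N W n (k + 1) = some ⟨n, k⟩ by
        simp only [node]
        rw [dif_pos ⟨by omega, by omega⟩]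
        rfl] at this
      exact (h5 _ x).trans this
  rintro p q hp hq ⟨g, hg⟩
  have := h5 g p.2
  rw [← hg] at this
  exact ((h6 p hp).symm.trans this).trans (h6 q hq)

end Init

open Init in
theorem initStmt : InitStmt := by
  intro Γ _ P S k0 hk0 hc
  obtain ⟨c, ⟨Φ, hΦ, rfl⟩, hc⟩ := sInf_lt_iff.1 hc
  have hW : ∀ n, ∃ W : List (Option P.ι × Bool), 1 ≤ W.length ∧ wv P.val W = (Φ n).1⁻¹ := by
    intro n
    obtain ⟨W, hW⟩ := P.gen (Φ n).1⁻¹
    exact ⟨(none, true) :: (none, false) :: W, by simp, by rw [← hW]; simp [wv, lv]⟩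
  choose W hW1 hW2 using hW
  have hfin : Crest.Dynamics.graphingCost S.μ Φ ≠ ⊤ := hc.ne_top
  have hc' : (Crest.Dynamics.graphingCost S.μ Φ).toReal < 1 + k0 := by
    have := (ENNReal.toReal_lt_toReal hfin (by simp)).2 hc
    rwa [ENNReal.toReal_add (by simp) (by simp), ENNReal.toReal_one,
      ENNReal.toReal_ofReal hk0.le] at this
  have hlim : Tendsto (fun N => ∑ s : Option P.ι, S.μ.real (bad Φ N (P.val s)⁻¹)) atTop (𝓝 0) := by
    have := tendsto_finsetSum (Finset.univ : Finset (Option P.ι))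
      fun s _ => tendsto_bad S Φ hΦ (P.val s)⁻¹
    simpa using this
  obtain ⟨N, hN⟩ := (hlim.eventually (gt_mem_nhds (sub_pos.2 hc'))).exists
  have hM : ∀ s, MeasurableSet (bad Φ N (P.val s)⁻¹) := fun s => measurable_bad Φ hΦ.1 N _
  have hv := graph_v P S N W (fun n => (Φ n).2) (fun s => bad Φ N (P.val s)⁻¹) hΦ.1 hM
  have he := graph_e P S N W (fun n => (Φ n).2) (fun s => bad Φ N (P.val s)⁻¹) hΦ.1 hM
  refine ⟨_, graph_conn P S N W Φ hW2 hΦ.1 hM, ?_, fun _ _ _ h => h, ?_⟩
  · rw [hv]
    positivity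
  · have h1 : ∑ n : Fin N, S.μ.real (Φ n).2 ≤ (Crest.Dynamics.graphingCost S.μ Φ).toReal := by
      unfold Measure.real
      rw [← ENNReal.toReal_sum fun n _ => measure_ne_top _ _]
      refine ENNReal.toReal_mono hfin ?_
      rw [Fin.sum_univ_eq_sum_range (fun n => S.μ (Φ n).2) N]
      exact ENNReal.sum_le_tsum _
    have h2 : ∑ n : Fin N, ((W n).length : ℝ) * S.μ.real (Φ n).2 =
        ∑ n : Fin N, (((W n).length - 1 : ℕ) : ℝ) * S.μ.real (Φ n).2 +
          ∑ n : Fin N, S.μ.real (Φ n).2 := by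
      rw [← Finset.sum_add_distrib]
      refine Finset.sum_congr rfl fun n _ => ?_
      rw [Nat.cast_sub (hW1 n)]
      push_cast
      ring
    rw [hv]
    linarith

end Crest.Agent.R191
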