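import Crest.Agent.R191.Graph

/-! Row 191: folding and near-minimal graphs. -/

set_option autoImplicit false

open MeasureTheory

noncomputable section

namespace Crest.Agent.R191

variable {Γ : Type} [Group Γ] {P : Pres Γ} {S : Sp Γ}

theorem IsFold.st {Y Y' : SG P S} {ρ : S.X → Y.J → Y'.J} (h : IsFold Y Y' ρ)
    {σ : Option P.ι × Bool} {p q : Y.J × S.X} (hs : Y.St σ p q) :
    Y'.St σ (ρ p.2 p.1, p.2) (ρ q.2 q.1, q.2) :=
  StR.map ρ (fun s j j' x hE => (h.E s _ _ x).2 ⟨j, j', hE, rfl, rfl⟩) hs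

theorem IsFold.conn {Y Y' : SG P S} {ρ : S.X → Y.J → Y'.J} (h : IsFold Y Y' ρ) (hc : Y.Conn) :
    Y'.Conn := by
  rintro ⟨j1, x⟩ ⟨j2, y⟩ h1 h2 hg
  dsimp only at h1 h2 hg
  obtain ⟨k1, hk1, rfl⟩ := (h.V _ _).1 h1
  obtain ⟨k2, hk2, rfl⟩ := (h.V _ _).1 h2
  obtain ⟨W, hW⟩ := hc (k1, x) (k2, y) hk1 hk2 hg
  exact ⟨W, hW.map (fun p => (ρ p.2 p.1, p.2)) fun σ p q hs => h.st hs⟩

theorem IsFold.vpos {Y Y' : SG P S} {ρ : S.X → Y.J → Y'.J} (h : IsFold Y Y' ρ) (hv : 0 < Y.v) :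
    0 < Y'.v :=
  SG.vpos_of_cover (Filter.Eventually.of_forall fun x j hj =>
    ⟨1, ρ x j, by rw [one_smul]; exact (h.V _ _).2 ⟨j, hj, rfl⟩⟩) hv

theorem IsFold.f_le {Y Y' : SG P S} {ρ : S.X → Y.J → Y'.J} (h : IsFold Y Y' ρ) : Y'.f ≤ Y.f := by
  refine S.cnt_le_of_ncard (fun t => Y'.mC t.1 t.2) (fun t => Y.mC t.1 t.2) fun x => ?_
  refine le_trans (Set.ncard_le_ncard ?_ (Set.toFinite _)) (Set.ncard_image_le
    (f := fun t : P.ι × (ZMod P.l → Y.J) =>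
      ((t.1, fun k => ρ ((P.pre t.1 k)⁻¹ • x) (t.2 k)) : P.ι × (ZMod P.l → Y'.J))) (Set.toFinite _))
  rintro ⟨i, τ'⟩ hC
  obtain ⟨τ, hτ, hk⟩ := (h.C _ _ _).1 hC
  exact ⟨(i, τ), hτ, Prod.ext rfl (funext hk)⟩

/-- all the module statements used in the lower bound -/
structure Mods : Prop where
  foldEx : FoldExStmt
  foldChi : FoldChiStmt
  foldPsi : FoldPsiStmt
  n3 : N3Stmt
  deg : DegStmt
  prune : PruneStmt
  collapse : CollapseStmt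
  add : AddStmt

/-- the numerical assumptions -/
structure Num (P : Pres Γ) (k0 : ℝ) : Prop where
  pos : 0 < k0
  small : k0 ≤ 1 / 100
  rl : Fintype.card P.ι * (P.l * k0) ≤ 1
  ac : 4 * P.aa * P.c ≤ P.l
  q : 18 * (2 * P.aa + 1) + 1 ≤ (P.l / P.c : ℕ)
  three : 3 ≤ Fintype.card P.ι

theorem Num.rl' {k0 : ℝ} (hN : Num P k0) {f : ℝ} (hf : f ≤ k0) :
    Fintype.card P.ι * (P.l * f) ≤ 1 :=
  le_trans (by gcongr) hN.rl

theorem fold_good (hM : Mods) (hE : S.Expand) {k0 : ℝ} (hN : Num P k0) (Y : SG P S)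
    (hc : Y.Conn) (hed : Y.ED) (hv : 0 < Y.v) (hf : Y.f ≤ k0) (hchi : Y.chi ≤ k0) :
    ∃ (Y' : SG P S) (ρ : S.X → Y.J → Y'.J), IsFold Y Y' ρ ∧ Y'.Good k0 ∧ Y'.psi ≤ Y.psi := by
  obtain ⟨Y', ρ, h⟩ := hM.foldEx Γ P S Y
  exact ⟨Y', ρ, h, ⟨h.folded, h.conn hc, h.vpos hv, h.f_le.trans hf,
    (hM.foldChi Γ P S Y Y' ρ h hed).trans hchi⟩,
    hM.foldPsi Γ P S hE Y Y' ρ h hed (hN.rl' hf) hN.ac⟩

/-- the infimum of `psi` -/
def minPsi (P : Pres Γ) (S : Sp Γ) (k0 : ℝ) : ℝ := sInf {t | ∃ Y : SG P S, Y.Good k0 ∧ Y.psi = t}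

theorem bdd_psi (k0 : ℝ) : BddBelow {t | ∃ Y : SG P S, Y.Good k0 ∧ Y.psi = t} := by
  refine ⟨-(P.c * k0), ?_⟩
  rintro t ⟨Y, hY, rfl⟩
  have h1 := Y.e_nonneg
  have h2 : (P.c : ℝ) * Y.f ≤ P.c * k0 := by have := hY.fle; gcongr
  unfold SG.psi
  linarith

theorem minPsi_le {k0 : ℝ} {Y : SG P S} (hY : Y.Good k0) : minPsi P S k0 ≤ Y.psi :=
  csInf_le (bdd_psi k0) ⟨Y, hY, rfl⟩

/-- near-minimal graphs -/
def Near (k0 η : ℝ) (Y : SG P S) : Prop := Y.Good k0 ∧ Y.psi ≤ minPsi P S k0 + η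

theorem exists_near {k0 η : ℝ} (hη : 0 < η) {Y : SG P S} (hY : Y.Good k0) :
    ∃ Y' : SG P S, Near k0 η Y' := by
  obtain ⟨t, ⟨Y', hY', rfl⟩, ht⟩ := exists_lt_of_csInf_lt
    (s := {t | ∃ Y : SG P S, Y.Good k0 ∧ Y.psi = t}) ⟨_, Y, hY, rfl⟩
    (lt_add_of_pos_right (minPsi P S k0) hη)
  exact ⟨Y', hY', ht.le⟩

theorem Near.leaves_le (hM : Mods) (hR : S.Recur) {k0 η : ℝ} {Y : SG P S} (h : Near k0 η Y) :
    Y.leaves ≤ η := by
  obtain ⟨Y', h1, h2⟩ := hM.prune Γ P S hR k0 Y h.1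
  have := minPsi_le h1
  linarith [h.2]

theorem Near.collapsible_le (hM : Mods) {k0 η : ℝ} {Y : SG P S} (h : Near k0 η Y) (u : ZMod P.l) :
    Y.collapsible u ≤ η := by
  obtain ⟨Y', h1, h2⟩ := hM.collapse Γ P S k0 Y h.1 u
  have := minPsi_le h1
  linarith [h.2]

theorem windows (Y : SG P S) :
    (P.l / P.c : ℕ) * Y.f ≤
      ∑ w : Fin (P.l / P.c), Y.collapsible ((w * P.c : ℕ) : ZMod P.l) + Y.n3 := by
  have h1 : ((P.l / P.c : ℕ) : ℝ) * Y.f =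
      S.cnt (fun t : (P.ι × (ZMod P.l → Y.J)) × Fin (P.l / P.c) => Y.C t.1.1 t.1.2) := by
    rw [S.cnt_prod_const (D := Fin (P.l / P.c))
      (fun t : P.ι × (ZMod P.l → Y.J) => Y.C t.1 t.2)]
    simp [SG.f]
  have hm : ∀ t : (P.ι × (ZMod P.l → Y.J)) × Fin (P.l / P.c), Measurable fun x => ∀ n : ℕ, n < P.c →
      Y.deg (vx P t.1.1 t.1.2 x (((t.2 * P.c : ℕ) : ZMod P.l) + (n : ZMod P.l))) ≤ 2 := by
    intro t
    refine Measurable.forall fun n => Measurable.imp measurable_const ?_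
    exact Y.meas_deg_vx t.1.1 t.1.2 (((t.2 * P.c : ℕ) : ZMod P.l) + (n : ZMod P.l)) (· ≤ 2)
  rw [h1, S.cnt_split _ _ hm]
  refine add_le_add (le_of_eq ?_) ?_
  · rw [S.cnt_prod]; rfl
  · refine S.cnt_le_of_cover_inj
      (fun (t : ((P.ι × (ZMod P.l → Y.J)) × Fin (P.l / P.c)) × Fin P.c) x => Y.C t.1.1.1 t.1.1.2 x ∧
        3 ≤ Y.deg (vx P t.1.1.1 t.1.1.2 x ((t.1.2 * P.c + t.2 : ℕ) : ZMod P.l)))
      (fun t => (Y.mC _ _).and
        (Y.meas_deg_vx t.1.1.1 t.1.1.2 ((t.1.2 * P.c + t.2 : ℕ) : ZMod P.l) (3 ≤ ·))) Prod.fst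
      (fun t => (t.1.1.1, t.1.1.2, ((t.1.2 * P.c + t.2 : ℕ) : ZMod P.l))) (fun _ => 1) ?_ ?_ ?_
    · rintro t x ⟨hC, hn⟩
      push Not at hn
      obtain ⟨n, hn, hd⟩ := hn
      refine ⟨(t, ⟨n, hn⟩), rfl, hC, ?_⟩
      simp only [Nat.cast_add]
      exact hd
    · intro d x h
      rw [one_smul]
      exact h
    · rintro ⟨⟨⟨i, τ⟩, w⟩, n⟩ ⟨⟨⟨i', τ'⟩, w'⟩, n'⟩ x x' - - h -
      simp only [Prod.mk.injEq] at h
      obtain ⟨rfl, rfl, h⟩ := h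
      have hb : ∀ (w : Fin (P.l / P.c)) (n : Fin P.c), w * P.c + n < P.l := by
        intro w n
        have h1 : ((w : ℕ) + 1) * P.c ≤ P.l / P.c * P.c := Nat.mul_le_mul_right _ w.2
        have h2 := Nat.div_mul_le_self P.l P.c
        have h3 := n.2
        rw [add_mul] at h1
        omega
      have h2 := P.add_cast_inj 0 (hb w n) (hb w' n') (by rw [h])
      have hc : 0 < P.c := by have := P.two_le_c; omega
      have h3 : (w : ℕ) = w' := by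
        have e1 : ((w : ℕ) * P.c + n) / P.c = w := by
          rw [add_comm, Nat.add_mul_div_right _ _ hc, Nat.div_eq_of_lt n.2, zero_add]
        have e2 : ((w' : ℕ) * P.c + n') / P.c = w' := by
          rw [add_comm, Nat.add_mul_div_right _ _ hc, Nat.div_eq_of_lt n'.2, zero_add]
        rw [← e1, h2, e2]
      obtain rfl : w = w' := Fin.ext h3
      obtain rfl : n = n' := Fin.ext (by omega)
      rfl

/-- near-minimal graphs have few cells -/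
theorem exists_eta (hM : Mods) (hR : S.Recur) (hE : S.Expand) {k0 : ℝ} (hN : Num P k0) :
    ∃ η : ℝ, 0 < η ∧ η ≤ 1 / 100 ∧ ∀ Y : SG P S, Near k0 η Y → Y.f ≤ k0 / 2 := by
  have ha := P.aa_pos
  have hk := hN.pos
  generalize hq : ((P.l / P.c : ℕ) : ℝ) = q
  have hq1 := hN.q
  rw [hq] at hq1
  generalize hb : 2 * P.aa + 1 = b at hq1
  have hb0 : 1 ≤ b := by linarith
  have hden : 0 < q + 6 * b := by linarith
  refine ⟨k0 / 4 / (q + 6 * b), by positivity, ?_, fun Y hY => ?_⟩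
  · rw [div_le_iff₀ hden]
    linarith [hN.small]
  · generalize hη : k0 / 4 / (q + 6 * b) = η at hY
    have hη' : (q + 6 * b) * η = k0 / 4 := by rw [← hη]; field_simp
    have h1 := windows Y
    have h2 : ∑ w : Fin (P.l / P.c), Y.collapsible ((w * P.c : ℕ) : ZMod P.l) ≤ q * η := by
      refine le_trans (Finset.sum_le_sum fun w _ => hY.collapsible_le hM _) ?_
      simp [hq]
    have h3 := hM.n3 Γ P S hE Y hY.1.folded (hN.rl' hY.1.fle)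
    have h4 := hY.leaves_le hM hR
    have h5 := hY.1.chile
    unfold SG.chi at h5
    rw [hq] at h1
    rw [hb] at h3
    by_contra hf
    push Not at hf
    have h6 : 3 * b * (2 * (Y.e - Y.v) + 2 * Y.leaves) ≤ 3 * b * (6 * Y.f + 2 * η) := by
      gcongr 3 * b * ?_
      linarith
    have h7 : (18 * b + 1) * Y.f ≤ q * Y.f := by gcongr; linarith
    nlinarith

end Crest.Agent.R191
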