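import Crest.Agent.R191.Lower1

/-! Row 191: marked graphs and the improving move. -/

set_option autoImplicit false

open MeasureTheory

noncomputable section

namespace Crest.Agent.R191

variable {Γ : Type} [Group Γ] {P : Pres Γ} {S : Sp Γ}

theorem Sp.exists_cnt_le {K : Type} [Fintype K] (Q : ℕ → K → S.X → Prop)
    (hm : ∀ n k, Measurable (Q n k)) (hanti : ∀ n k x, Q (n + 1) k x → Q n k x)
    (hae : ∀ᵐ x ∂S.μ, ∀ k, ∃ n, ¬ Q n k x) {θ : ℝ} (hθ : 0 < θ) : ∃ n, S.cnt (Q n) ≤ θ := by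
  have h1 : ∀ k, Filter.Tendsto (fun n => S.μ.real {x | Q n k x}) Filter.atTop (nhds 0) := by
    intro k
    have h2 := tendsto_measure_iInter_atTop (μ := S.μ) (s := fun n => {x | Q n k x})
      (fun n => (hm n k).setOf.nullMeasurableSet)
      (antitone_nat_of_succ_le fun n x hx => hanti n k x hx) ⟨0, measure_ne_top _ _⟩
    have h3 : S.μ (⋂ n, {x | Q n k x}) = 0 := by
      rw [measure_eq_zero_iff_ae_notMem]
      filter_upwards [hae] with x hx hmem
      obtain ⟨n, hn⟩ := hx k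
      exact hn (Set.mem_iInter.1 hmem n)
    rw [h3] at h2
    exact (ENNReal.tendsto_toReal ENNReal.zero_ne_top).comp h2
  have h2 : Filter.Tendsto (fun n => S.cnt (Q n)) Filter.atTop (nhds 0) := by
    have := tendsto_finsetSum Finset.univ fun k _ => h1 k
    simpa [Sp.cnt] using this
  exact ((h2.eventually (ge_mem_nhds hθ))).exists

theorem descent {α : Type 1} (D : α → ℝ) (hD : ∀ a, 0 ≤ D a) (Pm Q : α → Prop) (a0 : α)
    (h0 : Pm a0) {δ : ℝ} (hδ : 0 < δ)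
    (step : ∀ a, Pm a → ¬ Q a → ∃ a', Pm a' ∧ D a' ≤ D a - δ) : ∃ a, Pm a ∧ Q a := by
  by_contra hcon
  push Not at hcon
  have key : ∀ n : ℕ, ∃ a, Pm a ∧ D a ≤ D a0 - n * δ := by
    intro n
    induction n with
    | zero => exact ⟨a0, h0, by simp⟩
    | succ n ih =>
      obtain ⟨a, ha, hd⟩ := ih
      obtain ⟨a', ha', hd'⟩ := step a ha (hcon a ha)
      exact ⟨a', ha', by push_cast; linarith⟩
  obtain ⟨n, hn⟩ := exists_nat_gt (D a0 / δ)
  obtain ⟨a, -, hd⟩ := key n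
  rw [div_lt_iff₀ hδ] at hn
  linarith [hD a]

/-- graphs with a marked vertex over each point of `A` -/
structure MG (P : Pres Γ) (S : Sp Γ) (A : Set S.X) where
  Y : SG P S
  Mk : Y.J → S.X → Prop
  mMk : ∀ j, Measurable (Mk j)
  uniq : ∀ j j' x, Mk j x → Mk j' x → j = j'
  ex : ∀ x ∈ A, ∃ j, Mk j x
  mkV : ∀ j x, Mk j x → Y.V j x

theorem exists_MG (Y : SG P S) : ∃ G : MG P S {x | ∃ j, Y.V j x}, G.Y = Y := by
  refine ⟨⟨Y, fun j x => Y.V j x ∧ ∀ j', Y.V j' x → Fintype.equivFin Y.J j ≤ Fintype.equivFin Y.J j',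
    fun j => (Y.mV j).and (Measurable.forall fun j' => (Y.mV j').imp measurable_const), ?_, ?_,
    fun j x h => h.1⟩, rfl⟩
  · intro j j' x h h'
    exact (Fintype.equivFin Y.J).injective (le_antisymm (h.2 _ h'.1) (h'.2 _ h.1))
  · intro x hx
    obtain ⟨j, hj, hmin⟩ := Set.exists_min_image {j | Y.V j x} (Fintype.equivFin Y.J)
      (Set.toFinite _) hx
    exact ⟨j, hj, hmin⟩

namespace MG

variable {A : Set S.X} (G : MG P S A)

/-- the marks over `x` and `g • x` are joined by a path labelled `W` -/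
def Joined (W : List (Option P.ι × Bool)) (g : Γ) (x : S.X) : Prop :=
  ∃ j j', G.Mk j x ∧ G.Mk j' (g • x) ∧ G.Y.Path W (j, x) (j', g • x)

theorem meas_joined (W : List (Option P.ι × Bool)) (g : Γ) : Measurable (G.Joined W g) :=
  Measurable.exists fun j => Measurable.exists fun j' =>
    (G.mMk j).and ((S.meas_comp (G.mMk j') g).and (G.Y.meas_path' W j j' g))

/-- the marks over `x` and `g • x` are at distance at most `n` -/
def Close (g : Γ) (n : ℕ) (x : S.X) : Prop := ∃ W, W.length ≤ n ∧ G.Joined W g x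

theorem meas_close (g : Γ) (n : ℕ) : Measurable (G.Close g n) :=
  Measurable.exists fun W => Measurable.and measurable_const (G.meas_joined W g)

variable {G} in
theorem Close.mono {g : Γ} {n n' : ℕ} {x : S.X} (h : G.Close g n x) (hn : n ≤ n') :
    G.Close g n' x := let ⟨W, h1, h2⟩ := h; ⟨W, h1.trans hn, h2⟩

theorem exists_close (hc : G.Y.Conn) {g : Γ} {x : S.X} (hx : x ∈ A) (hx' : g • x ∈ A) :
    ∃ n, G.Close g n x := by
  obtain ⟨j, hj⟩ := G.ex x hx
  obtain ⟨j', hj'⟩ := G.ex _ hx'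
  obtain ⟨W, hW⟩ := hc (j, x) (j', g • x) (G.mkV _ _ hj) (G.mkV _ _ hj') ⟨g, rfl⟩
  exact ⟨W.length, W, le_rfl, j, j', hj, hj', hW⟩

/-- geodesics -/
def Geo (W : List (Option P.ι × Bool)) (g : Γ) (x : S.X) : Prop :=
  G.Joined W g x ∧ ∀ W', G.Joined W' g x → W.length ≤ W'.length

theorem exists_geo {g : Γ} {n : ℕ} {x : S.X} (h : G.Close g n x) :
    ∃ W, W.length ≤ n ∧ G.Geo W g x := by
  obtain ⟨W0, h0, hJ⟩ := h
  obtain ⟨W, hW, hmin⟩ := (measure List.length).wf.has_min {W | G.Joined W g x} ⟨W0, hJ⟩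
  have hmin' : ∀ W', G.Joined W' g x → W.length ≤ W'.length := fun W' h' => not_lt.1 (hmin W' h')
  exact ⟨W, (hmin' _ hJ).trans h0, hW, hmin'⟩

variable {G} in
theorem Geo.spec {W : List (Option P.ι × Bool)} {g : Γ} {x : S.X} (h : G.Geo W g x) :
    ∃ j j', G.Mk j x ∧ G.Mk j' (g • x) ∧ G.Y.Path W (j, x) (j', g • x) ∧
      ∀ W', G.Y.Path W' (j, x) (j', g • x) → W.length ≤ W'.length := by
  obtain ⟨⟨j, j', h1, h2, h3⟩, hmin⟩ := h
  exact ⟨j, j', h1, h2, h3, fun W' h' => hmin W' ⟨j, j', h1, h2, h'⟩⟩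

end MG

/-- an arc on a geodesic is not closed -/
theorem not_closed {Y : SG P S} (hF : Y.Folded) {α β : List (Option P.ι × Bool)} {i : P.ι}
    {u : ZMod P.l} {s t m m' : Y.J × S.X} (h1 : Y.Path α s m)
    (h2 : Y.Path (arcW P.R (P.l - P.c) i u) m m') (h3 : Y.Path β m' t)
    (hmin : ∀ W', Y.Path W' s t → (α ++ arcW P.R (P.l - P.c) i u ++ β).length ≤ W'.length)
    (τ : ZMod P.l → Y.J) (hC : Y.C i τ (P.pre i u • m.2)) : τ u ≠ m.1 := by
  intro hτ
  have hm : vx P i τ (P.pre i u • m.2) u = m := Prod.ext hτ (by simp [vx])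
  have hlt := P.two_c_lt
  have h4 := SG.cell_path hC u (P.l - P.c)
  rw [hm] at h4
  have hm' := h4.unique hF h2
  have h5 := SG.cell_path hC (u + ((P.l - P.c : ℕ) : ZMod P.l)) P.c
  have h6 : u + ((P.l - P.c : ℕ) : ZMod P.l) + (P.c : ZMod P.l) = u := by
    rw [add_assoc, ← Nat.cast_add, Nat.sub_add_cancel (by omega)]; simp
  rw [h6, hm, hm'] at h5
  have := hmin _ ((h1.trans h5.symm).trans h3)
  simp at this
  omega

/-- words of length at most `R` -/
def WR (P : Pres Γ) (R : ℕ) : Type := {α : List (Option P.ι × Bool) // α.length ≤ R}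

instance (R : ℕ) : Fintype (WR P R) :=
  (List.finite_length_le (Option P.ι × Bool) R).fintype

/-- The improving move. -/
theorem move (hM : Mods) (hE : S.Expand) {k0 η : ℝ} (hN : Num P k0) {A : Set S.X}
    {Q : Type} [Fintype Q] (g : Q → Γ) (R : ℕ) (B : Set S.X) (hB : MeasurableSet B)
    (hBs : Fintype.card (Option Q × WR P R) * S.μ.real B ≤ k0 / 2)
    (G : MG P S A) (hG : Near k0 η G.Y) (hf : G.Y.f ≤ k0 / 2) (i : P.ι) (u : ZMod P.l) :
    ∃ G' : MG P S A, Near k0 η G'.Y ∧ (∀ W h x, G.Joined W h x → G'.Joined W h x) ∧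
      ∀ q x W, x ∈ B → W.length ≤ R → G.Geo W (g q) x →
        (arcW P.R (P.l - P.c) i u <:+: W ∨ arcW P.R (P.l - P.c) i u <:+: FreeGroup.invRev W) →
        ∃ W', W'.length < W.length ∧ G'.Joined W' (g q) x := by
  have hF := hG.1.folded
  let h : Option Q → Γ := fun o => o.elim 1 g
  let T : G.Y.J × (Option Q × WR P R) → S.X → Prop := fun t y =>
    ∃ j0, ((h t.2.1)⁻¹ * wv P.val t.2.2.1) • y ∈ B ∧ G.Mk j0 (wv P.val t.2.2.1 • y) ∧
      G.Y.Path t.2.2.1 (j0, wv P.val t.2.2.1 • y) (t.1, y)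
  have hT : ∀ t, Measurable (T t) := by
    intro t
    refine Measurable.exists fun j0 => Measurable.and ?_ (Measurable.and ?_ ?_)
    · exact S.meas_comp (p := fun x => x ∈ B) (measurableSet_setOfPred.1 hB) _
    · exact S.meas_comp (G.mMk j0) _
    · simpa using G.Y.meas_path t.2.2.1 j0 t.1 (wv P.val t.2.2.1) 1
  let PL : G.Y.J → S.X → Prop := fun j y =>
    ((∃ q, G.Y.Path (arcW P.R (P.l - P.c) i u) (j, y) q) ∧
      ∀ τ, G.Y.C i τ (P.pre i u • y) → τ u ≠ j) ∧ ∃ d, T (j, d) y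
  have hPL : ∀ j, Measurable (PL j) := by
    intro j
    refine Measurable.and (Measurable.and ?_ ?_) (Measurable.exists fun d => hT (j, d))
    · have : (fun y => ∃ q, G.Y.Path (arcW P.R (P.l - P.c) i u) (j, y) q) = fun y => ∃ j',
          G.Y.Path (arcW P.R (P.l - P.c) i u) (j, y)
            (j', (wv P.val (arcW P.R (P.l - P.c) i u))⁻¹ • y) := by
        funext y
        simpa using G.Y.exists_path_iff (arcW P.R (P.l - P.c) i u) (j, y) (fun _ => True)
      rw [this]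
      exact Measurable.exists fun j' => G.Y.meas_path' _ _ _ _
    · exact Measurable.forall fun τ => (S.meas_comp (G.Y.mC i τ) _).imp measurable_const
  have hcnt : S.cnt PL ≤ k0 / 2 := by
    refine le_trans (S.cnt_le_of_cover_inj
      (Q := fun (_ : Option Q × WR P R) x => x ∈ B) T hT Prod.fst Prod.snd
      (fun t => (h t.2.1)⁻¹ * wv P.val t.2.2.1) ?_ ?_ ?_) ?_
    · rintro j y ⟨-, d, hd⟩
      exact ⟨(j, d), rfl, hd⟩
    · rintro t y ⟨j0, h1, -⟩
      exact h1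
    · rintro ⟨j, d⟩ ⟨j', d'⟩ y y' ⟨j0, -, h1, h2⟩ ⟨j0', -, h1', h2'⟩ hd hy
      dsimp only at hd hy h1 h2 h1' h2'
      subst hd
      obtain rfl : y = y' := smul_left_cancel _ hy
      obtain rfl := G.uniq _ _ _ h1 h1'
      have := h2.unique hF h2'
      rw [(Prod.mk.inj this).1]
    · refine le_trans (le_of_eq ?_) hBs
      simp [Sp.cnt]
  obtain ⟨Y1, em, hc1, hed1, hv1, hf1, hchi1, hpsi1, hV1, hst1, hshort⟩ :=
    hM.add Γ P S G.Y hF hG.1.conn hG.1.vpos i u PL hPL (fun j y h => h.1.1) (fun j y h => h.1.2)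
  obtain ⟨Y2, ρ, hfold, hgood, hpsi2⟩ := fold_good hM hE hN Y1 hc1 hed1 hv1 (by linarith)
    (hchi1.trans hG.1.chile)
  let G' : MG P S A :=
    { Y := Y2
      Mk := fun j2 x => ∃ j, G.Mk j x ∧ ρ x (em j) = j2
      mMk := fun j2 => Measurable.exists fun j => (G.mMk j).and (hfold.meas _ _)
      uniq := by
        rintro _ _ x ⟨j, h1, rfl⟩ ⟨j', h2, rfl⟩
        rw [G.uniq _ _ _ h1 h2]
      ex := fun x hx => let ⟨j, hj⟩ := G.ex x hx; ⟨_, j, hj, rfl⟩
      mkV := by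
        rintro _ x ⟨j, h1, rfl⟩
        exact (hfold.V _ _).2 ⟨_, hV1 _ _ (G.mkV _ _ h1), rfl⟩ }
  have hmap1 : ∀ {W p q}, G.Y.Path W p q → Y1.Path W (em p.1, p.2) (em q.1, q.2) :=
    fun h => h.map (fun p => (em p.1, p.2)) hst1
  have hmap2 : ∀ {W p q}, Y1.Path W p q → Y2.Path W (ρ p.2 p.1, p.2) (ρ q.2 q.1, q.2) :=
    fun h => h.map (fun p => (ρ p.2 p.1, p.2)) fun σ p q hs => hfold.st hs
  have key : ∀ (s t : G.Y.J × S.X) (W : List (Option P.ι × Bool)), W.length ≤ R →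
      G.Y.Path W s t → (∀ W', G.Y.Path W' s t → W.length ≤ W'.length) →
      arcW P.R (P.l - P.c) i u <:+: W → G.Mk s.1 s.2 → (∃ o, (h o)⁻¹ • s.2 ∈ B) →
      ∃ W', W'.length < W.length ∧ Y1.Path W' (em s.1, s.2) (em t.1, t.2) := by
    rintro s t _ hlen hW hmin ⟨α, β, rfl⟩ hmk ⟨o, ho⟩
    obtain ⟨m', hW1, h3⟩ := (G.Y.path_append _ _ _ _).1 hW
    obtain ⟨m, h1, h2⟩ := (G.Y.path_append _ _ _ _).1 hW1
    have hs : wv P.val α • m.2 = s.2 := by rw [h1.pos, smul_inv_smul]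
    have hpl : PL m.1 m.2 := by
      refine ⟨⟨⟨m', h2⟩, not_closed hF h1 h2 h3 hmin⟩, (o, ⟨α, ?_⟩), s.1, ?_, ?_, ?_⟩
      · simp only [List.length_append] at hlen; omega
      · dsimp only; rw [mul_smul, hs]; exact ho
      · dsimp only; rw [hs]; exact hmk
      · dsimp only; rw [hs]; exact h1
    obtain ⟨W'', hl, hp⟩ := hshort m.1 m.2 m' hpl h2
    refine ⟨α ++ W'' ++ β, ?_, ((hmap1 h1).trans hp).trans (hmap1 h3)⟩
    have := P.two_c_lt
    simp only [List.length_append, length_arcW, hl]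
    omega
  refine ⟨G', ⟨hgood, by linarith [hG.2]⟩, ?_, ?_⟩
  · rintro W h x ⟨j, j', h1, h2, h3⟩
    exact ⟨_, _, ⟨j, h1, rfl⟩, ⟨j', h2, rfl⟩, hmap2 (hmap1 h3)⟩
  · intro q x W hx hlen hgeo harc
    obtain ⟨j, j', h1, h2, h3, hmin⟩ := hgeo.spec
    rcases harc with harc | harc
    · obtain ⟨W', hl, hp⟩ := key _ _ W hlen h3 hmin harc h1 ⟨none, by simpa [h] using hx⟩
      exact ⟨W', hl, _, _, ⟨j, h1, rfl⟩, ⟨j', h2, rfl⟩, hmap2 hp⟩
    · obtain ⟨W', hl, hp⟩ := key _ _ (FreeGroup.invRev W) (by simpa using hlen) h3.symm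
        (fun W' h' => by simpa using hmin _ h'.symm) harc h2 ⟨some q, by simpa [h] using hx⟩
      exact ⟨FreeGroup.invRev W', by simpa using hl, _, _, ⟨j, h1, rfl⟩, ⟨j', h2, rfl⟩,
        (hmap2 hp).symm⟩

end Crest.Agent.R191
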