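import Crest.Agent.R191.Lower2

/-! Row 191: the end game. -/

set_option autoImplicit false

open MeasureTheory

noncomputable section

namespace Crest.Agent.R191

variable {Γ : Type} [Group Γ] {P : Pres Γ} {S : Sp Γ}

/-- most requested words can be realised in a near-minimal marked graph -/
theorem resolve (hM : Mods) (hE : S.Expand) (hC : S.Cover) {k0 η : ℝ} (hN : Num P k0)
    (hη : ∀ Y : SG P S, Near k0 η Y → Y.f ≤ k0 / 2) {A : Set S.X} (hA : MeasurableSet A)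
    {Q : Type} [Fintype Q] (m n : Q → ℕ) (ii : Q → P.ι) (G0 : MG P S A) (hG0 : Near k0 η G0.Y)
    {θ : ℝ} (hθ : 0 < θ) :
    ∃ G : MG P S A, Near k0 η G.Y ∧ S.cnt (fun q x =>
      (x ∈ A ∧ (wv P.val (gam P.a0 (ii q) (m q) (n q)))⁻¹ • x ∈ A) ∧
      ¬ G.Joined (gam P.a0 (ii q) (m q) (n q)) (wv P.val (gam P.a0 (ii q) (m q) (n q)))⁻¹ x)
      ≤ 2 * θ := by
  generalize hγ : (fun q => gam P.a0 (ii q) (m q) (n q)) = γ
  have hγ' : ∀ q, gam P.a0 (ii q) (m q) (n q) = γ q := fun q => congrFun hγ q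
  simp only [hγ']
  let g : Q → Γ := fun q => (wv P.val (γ q))⁻¹
  let Z : Q → S.X → Prop := fun q x => x ∈ A ∧ g q • x ∈ A
  have hA' : Measurable fun x => x ∈ A := measurableSet_setOfPred.1 hA
  have hZ : ∀ q, Measurable (Z q) := fun q => hA'.and (S.meas_comp hA' _)
  obtain ⟨R, hR⟩ := Sp.exists_cnt_le (S := S) (fun n q x => Z q x ∧ ¬ G0.Close (g q) n x)
    (fun n q => (hZ q).and (G0.meas_close _ _).not)
    (fun n q x h => ⟨h.1, fun h' => h.2 (h'.mono (Nat.le_succ n))⟩)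
    (Filter.Eventually.of_forall fun x q => by
      by_cases hz : Z q x
      · obtain ⟨n, hn⟩ := G0.exists_close hG0.1.conn hz.1 hz.2
        exact ⟨n, fun h => h.2 hn⟩
      · exact ⟨0, fun h => hz h.1⟩) hθ
  have hk := hN.pos
  obtain ⟨Np, B, hBm, hBs, hBc⟩ := hC (k0 / 2 / (Fintype.card (Option Q × WR P R) + 1))
    (by positivity)
  have hBs' : ∀ κ, Fintype.card (Option Q × WR P R) * S.μ.real (B κ) ≤ k0 / 2 := by
    intro κ
    have h1 := hBs κ
    rw [le_div_iff₀ (by positivity)] at h1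
    have : 0 ≤ S.μ.real (B κ) := measureReal_nonneg
    nlinarith
  let D : MG P S A → ℝ := fun G =>
    S.cnt fun (t : Q × Fin R) x => Z t.1 x ∧ ¬ G.Close (g t.1) t.2 x
  let Pm : MG P S A → Prop := fun G =>
    Near k0 η G.Y ∧ S.cnt (fun q x => Z q x ∧ ¬ G.Close (g q) R x) ≤ θ
  let U : MG P S A → ℝ := fun G =>
    S.cnt (fun q x => (Z q x ∧ ¬ G.Joined (γ q) (g q) x) ∧ G.Close (g q) R x)
  obtain ⟨G, hG, hU⟩ := descent D (fun G => S.cnt_nonneg _) Pm (fun G => U G ≤ θ) G0 ⟨hG0, hR⟩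
    (δ := θ / (Fintype.card (Fin Np × P.ι × ZMod P.l) + 1)) (by positivity) (by
      intro G hG hU
      let Gd : Fin Np × P.ι × ZMod P.l → Q → S.X → Prop := fun t q x => Z q x ∧ x ∈ B t.1 ∧
        ∃ W, W.length ≤ R ∧ G.Geo W (g q) x ∧ (arcW P.R (P.l - P.c) t.2.1 t.2.2 <:+: W ∨
          arcW P.R (P.l - P.c) t.2.1 t.2.2 <:+: FreeGroup.invRev W)
      have h1 : U G ≤ ∑ t, S.cnt (Gd t) := by
        rw [← S.cnt_prod (fun s : Q × (Fin Np × P.ι × ZMod P.l) => Gd s.2 s.1)]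
        refine S.cnt_le_of_cover Prod.fst ?_
        rintro q x ⟨⟨hz, hres⟩, hcl⟩
        obtain ⟨κ, hκ⟩ := hBc x
        obtain ⟨W, hlen, hgeo⟩ := G.exists_geo hcl
        obtain ⟨j, j', h1, h2, h3, hmin⟩ := hgeo.spec
        have hred := h3.isReduced_of_min hG.1.1.folded hmin
        have hw : wv P.val W = wv P.val (γ q) := by
          have := h3.pos
          dsimp only at this
          exact (inv_injective ((S.smul_eq_iff _ _ _).1 this)).symm
        have hne : W ≠ γ q := by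
          rintro rfl
          exact hres hgeo.1
        rw [← hγ'] at hw hne
        obtain ⟨i', u, harc⟩ := P.dehn W _ _ _ hred hw hne
        exact ⟨(q, κ, i', u), rfl, hz, hκ, W, hlen, hgeo, harc⟩
      have h2 : ∃ t, θ / (Fintype.card (Fin Np × P.ι × ZMod P.l) + 1) ≤ S.cnt (Gd t) := by
        by_contra hcon
        push Not at hcon
        apply hU
        refine h1.trans (le_trans (Finset.sum_le_sum fun t _ => (hcon t).le) ?_)
        rw [Finset.sum_const, Finset.card_univ, nsmul_eq_mul, mul_div_assoc',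
          div_le_iff₀ (by positivity)]
        nlinarith
      obtain ⟨⟨κ, i, u⟩, ht⟩ := h2
      obtain ⟨G', hn', hmono, hshort⟩ := move hM hE hN g R (B κ) (hBm κ) (hBs' κ) G hG.1
        (hη _ hG.1) i u
      have hcl : ∀ h n x, G.Close h n x → G'.Close h n x :=
        fun h n x ⟨W, h1, h2⟩ => ⟨W, h1, hmono _ _ _ h2⟩
      refine ⟨G', ⟨hn', le_trans (S.cnt_mono fun q x h => ⟨h.1, fun h' => h.2 (hcl _ _ _ h')⟩) hG.2⟩,
        ?_⟩
      have h3 := S.cnt_split (fun (t : Q × Fin R) x => Z t.1 x ∧ ¬ G.Close (g t.1) t.2 x)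
        (fun t x => G'.Close (g t.1) t.2 x) (fun t => G'.meas_close _ _)
      have h4 : D G' ≤ S.cnt fun (t : Q × Fin R) x => (Z t.1 x ∧ ¬ G.Close (g t.1) t.2 x) ∧
          ¬ G'.Close (g t.1) t.2 x :=
        S.cnt_mono fun t x h => ⟨⟨h.1, fun h' => h.2 (hcl _ _ _ h')⟩, h.2⟩
      have h5 : S.cnt (Gd (κ, i, u)) ≤ S.cnt fun (t : Q × Fin R) x =>
          (Z t.1 x ∧ ¬ G.Close (g t.1) t.2 x) ∧ G'.Close (g t.1) t.2 x := by
        refine S.cnt_le_of_cover Prod.fst ?_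
        rintro q x ⟨hz, hx, W, hlen, hgeo, harc⟩
        obtain ⟨W', hl, hj⟩ := hshort q x W hx hlen hgeo harc
        refine ⟨(q, ⟨W'.length, by omega⟩), rfl, ⟨hz, ?_⟩, W', le_rfl, hj⟩
        rintro ⟨W'', hl'', hj''⟩
        have := hgeo.2 _ hj''
        dsimp only at hl''
        omega
      change D G' ≤ S.cnt (fun (t : Q × Fin R) x => Z t.1 x ∧ ¬ G.Close (g t.1) t.2 x) - _
      linarith)
  refine ⟨G, hG.1, ?_⟩
  have h3 := S.cnt_split (fun q x => Z q x ∧ ¬ G.Joined (γ q) (g q) x)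
    (fun q x => G.Close (g q) R x) (fun q => G.meas_close _ _)
  have h4 : S.cnt (fun q x => (Z q x ∧ ¬ G.Joined (γ q) (g q) x) ∧ ¬ G.Close (g q) R x) ≤ θ :=
    le_trans (S.cnt_mono fun q x h => ⟨h.1.1, h.2⟩) hG.2
  change S.cnt (fun q x => Z q x ∧ ¬ G.Joined (γ q) (g q) x) ≤ _
  have h5 : U G ≤ θ := hU
  unfold U at h5
  linarith

/-- a point all of whose requests are realised carries a vertex of large degree -/
theorem big_deg {A : Set S.X} (G : MG P S A) (hF : G.Y.Folded) (h3 : 3 ≤ Fintype.card P.ι)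
    (x : S.X) (m : ℕ) (n : P.ι → ℕ)
    (h : ∀ i, G.Joined (gam P.a0 i m (n i)) (wv P.val (gam P.a0 i m (n i)))⁻¹
      (P.val (some P.a0) ^ m • x)) :
    ∃ j, G.Y.V j x ∧ 3 ≤ G.Y.deg (j, x) := by
  have h1 : ∀ i, ∃ j p q, G.Mk j (P.val (some P.a0) ^ m • x) ∧
      G.Y.Path (List.replicate m (some P.a0, true)) (j, P.val (some P.a0) ^ m • x) p ∧
      G.Y.St (some i, true) p q := by
    intro i
    obtain ⟨j, j', h1, -, h2⟩ := h i
    obtain ⟨p, hp, q, hq, -⟩ := (G.Y.path_append _ _ _ _).1 h2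
    exact ⟨j, p, q, h1, hp, hq⟩
  obtain ⟨j0, p0, q0, hm0, hp0, hq0⟩ := h1 P.a0
  have h2 : ∀ i, ∃ q, G.Y.St (some i, true) p0 q := by
    intro i
    obtain ⟨j, p, q, hm, hp, hq⟩ := h1 i
    obtain rfl := G.uniq _ _ _ hm hm0
    obtain rfl := hp.unique hF hp0
    exact ⟨q, hq⟩
  have hx : p0.2 = x := by
    rw [hp0.pos, wv_replicate]; simp
  obtain ⟨j, y⟩ := p0
  obtain rfl : y = x := hx
  refine ⟨j, hq0.left, h3.trans ?_⟩
  have : Set.ncard (Set.univ : Set P.ι) ≤ G.Y.deg (j, y) :=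
    Set.ncard_le_ncard_of_injOn (fun i => ((some i, true) : Option P.ι × Bool))
      (fun i _ => h2 i) (fun i _ i' _ h => by simpa using h) (Set.toFinite _)
  rwa [Set.ncard_univ, Nat.card_eq_fintype_card] at this

/-- there is no good graph -/
theorem no_good (hM : Mods) (hE : S.Expand) (hC : S.Cover) (hR : S.Recur) {k0 : ℝ} (hN : Num P k0)
    (Y : SG P S) : ¬ Y.Good k0 := by
  intro hY
  obtain ⟨η, hη0, hη1, hη⟩ := exists_eta hM hR hE hN
  obtain ⟨Y0, hY0⟩ := exists_near hη0 hY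
  obtain ⟨G0, hG0⟩ := exists_MG Y0
  have hA0 : S.μ {x | ∃ j, Y0.V j x} ≠ 0 := S.measure_base_ne_zero hY0.1.vpos
  have hAm : MeasurableSet {x | ∃ j, Y0.V j x} := (Measurable.exists Y0.mV).setOf
  rw [← hG0] at hY0
  clear hG0
  generalize {x | ∃ j, Y0.V j x} = A at G0 hA0 hAm hY0
  have hA' : Measurable fun x => x ∈ A := measurableSet_setOfPred.1 hAm
  let a := P.val (some P.a0)
  let w : Option P.ι → ℕ → Γ := fun o k => o.elim (a ^ k) fun i => (a ^ k)⁻¹ * (P.val (some i))⁻¹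
  obtain ⟨M0, hM0⟩ := Sp.exists_cnt_le (S := S)
    (fun M (o : Option P.ι) x => ∀ k, k < M → w o k • x ∉ A)
    (fun M o => Measurable.forall fun k => Measurable.imp measurable_const (S.meas_comp hA' _).not)
    (fun M o x h k hk => h k (by omega)) (by
      rw [ae_all_iff]
      rintro (_ | i)
      · filter_upwards [hR a (P.not_isOfFinOrder _) A hAm hA0] with x ⟨k, _, hk⟩
        exact ⟨k + 1, fun h => h k (by omega) hk⟩
      · have h1 := hR a⁻¹ (by rw [isOfFinOrder_inv_iff]; exact P.not_isOfFinOrder _) A hAm hA0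
        filter_upwards [S.ae_smul (P.val (some i))⁻¹ h1] with x ⟨k, _, hk⟩
        refine ⟨k + 1, fun h => h k (by omega) ?_⟩
        simpa [w, mul_smul] using hk) (θ := 1 / 10) (by norm_num)
  obtain ⟨G, hG, hres⟩ := resolve hM hE hC hN hη hAm (Q := Fin M0 × P.ι × Fin M0)
    (fun q => q.1) (fun q => q.2.2) (fun q => q.2.1) G0 hY0 (θ := 1 / 10) (by norm_num)
  have hdeg := hM.deg Γ P S G.Y hG.1.folded
  have hl := hG.leaves_le hM hR
  have h5 := hG.1.chile
  have h6 := hG.1.fle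
  have h7 := hN.small
  unfold SG.chi at h5
  rw [← S.cnt_shift _ (fun q : Fin M0 × P.ι × Fin M0 => a ^ (q.1 : ℕ))] at hres
  have h8 : S.cnt (fun (_ : Unit) _ => True) ≤ S.cnt (Sum.elim
      (fun j x => G.Y.V j x ∧ 3 ≤ G.Y.deg (j, x)) (Sum.elim
      (fun (o : Option P.ι) x => ∀ k, k < M0 → w o k • x ∉ A)
      (fun (q : Fin M0 × P.ι × Fin M0) x => (a ^ (q.1 : ℕ) • x ∈ A ∧
        (wv P.val (gam P.a0 q.2.1 q.1 q.2.2))⁻¹ • a ^ (q.1 : ℕ) • x ∈ A) ∧
        ¬ G.Joined (gam P.a0 q.2.1 q.1 q.2.2) (wv P.val (gam P.a0 q.2.1 q.1 q.2.2))⁻¹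
          (a ^ (q.1 : ℕ) • x)))) := by
    refine S.cnt_le_of_cover (fun _ => ()) fun _ x _ => ?_
    by_contra hcon
    push Not at hcon
    have c1 := fun j => hcon (Sum.inl j) rfl
    have c2 := fun o => hcon (Sum.inr (Sum.inl o)) rfl
    have c3 := fun q => hcon (Sum.inr (Sum.inr q)) rfl
    simp only [Sum.elim_inl, Sum.elim_inr] at c1 c2 c3
    push Not at c2
    choose k hk hkA using c2
    obtain ⟨j, hj⟩ := big_deg G hG.1.folded hN.three x (k none) (fun i => k (some i)) (by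
      intro i
      by_contra hj
      refine c3 (⟨k none, hk none⟩, i, ⟨k (some i), hk (some i)⟩) ⟨⟨hkA none, ?_⟩, hj⟩
      have := hkA (some i)
      simpa [w, a, wv_gam, mul_smul] using this)
    exact c1 j hj
  rw [S.cnt_unique, S.cnt_sum, S.cnt_sum] at h8
  simp only [Set.ofPred_true, probReal_univ, Sum.elim_inl, Sum.elim_inr] at h8
  linarith

/-- the lower bound for the cost -/
theorem lower (hM : Mods) (hI : InitStmt) (hE : S.Expand) (hC : S.Cover) (hR : S.Recur) {k0 : ℝ}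
    (hN : Num P k0) : 1 + ENNReal.ofReal k0 ≤ Crest.Dynamics.actionCost Γ S.X S.μ := by
  by_contra hcon
  obtain ⟨Y, hc, hv, hC0, he⟩ := hI Γ P S k0 hN.pos (not_le.1 hcon)
  have hf : Y.f = 0 := S.cnt_eq_zero fun t x => hC0 _ _ _
  obtain ⟨Y', -, -, hg, -⟩ := fold_good hM hE hN Y hc (fun i τ τ' x k h => (hC0 _ _ _ h).elim) hv
    (by rw [hf]; exact hN.pos.le) (by unfold SG.chi; linarith)
  exact no_good hM hE hC hR hN Y' hg

end Crest.Agent.R191
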