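import Crest.Agent.R191.Graph

/-! Row 191, module (H1): pruning leaves. -/

set_option autoImplicit false

open MeasureTheory

noncomputable section

namespace Crest.Agent.R191

variable {Γ : Type} [Group Γ] {P : Pres Γ} {S : Sp Γ}

namespace Prune

/-- delete all vertices of degree at most one -/
def prune (Y : SG P S) : SG P S where
  J := Y.J
  V := fun j x => Y.V j x ∧ ¬ Y.deg (j, x) ≤ 1
  E := fun s j j' x => Y.E s j j' x ∧
    (¬ Y.deg (j, x) ≤ 1 ∧ ¬ Y.deg (j', (P.val s)⁻¹ • x) ≤ 1)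
  C := Y.C
  mV := fun j => (Y.mV j).and (Y.meas_deg_prop' j fun n => ¬ n ≤ 1)
  mE := fun s j j' => (Y.mE s j j').and
    ((Y.meas_deg_prop' j fun n => ¬ n ≤ 1).and (Y.meas_deg_prop j' _ fun n => ¬ n ≤ 1))
  mC := Y.mC
  EV1 := fun _ _ _ _ h => ⟨Y.EV1 _ _ _ _ h.1, h.2.1⟩
  EV2 := fun _ _ _ _ h => ⟨Y.EV2 _ _ _ _ h.1, h.2.2⟩
  CE := by
    intro i τ x h k
    have h1 := SG.cell_st h k
    have h2 := SG.two_le_deg h k
    have h3 := SG.two_le_deg h (k + 1)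
    generalize vx P i τ x k = p at h1 h2 ⊢
    generalize vx P i τ x (k + 1) = q at h1 h3 ⊢
    generalize P.R i k = σ at h1 ⊢
    rcases σ with ⟨s, _ | _⟩
    · rw [SG.st_false] at h1
      rw [strR_false]
      refine ⟨h1.1, h1.2, ?_, ?_⟩
      · change ¬ Y.deg q ≤ 1
        omega
      · rw [← h1.1]
        change ¬ Y.deg p ≤ 1
        omega
    · rw [SG.st_true] at h1
      rw [strR_true]
      refine ⟨h1.1, h1.2, ?_, ?_⟩
      · change ¬ Y.deg p ≤ 1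
        omega
      · rw [← h1.1]
        change ¬ Y.deg q ≤ 1
        omega

theorem st_prune (Y : SG P S) (σ : Option P.ι × Bool) (p q : Y.J × S.X) :
    (prune Y).St σ p q ↔ Y.St σ p q ∧ ¬ Y.deg p ≤ 1 ∧ ¬ Y.deg q ≤ 1 := by
  rcases σ with ⟨s, _ | _⟩
  · rw [SG.st_false, SG.st_false]
    constructor
    · rintro ⟨h1, h2, h3, h4⟩
      rw [← h1] at h4
      exact ⟨⟨h1, h2⟩, h4, h3⟩
    · rintro ⟨⟨h1, h2⟩, h3, h4⟩
      refine ⟨h1, h2, h4, ?_⟩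
      rw [← h1]
      exact h3
  · rw [SG.st_true, SG.st_true]
    constructor
    · rintro ⟨h1, h2, h3, h4⟩
      rw [← h1] at h4
      exact ⟨⟨h1, h2⟩, h3, h4⟩
    · rintro ⟨⟨h1, h2⟩, h3, h4⟩
      refine ⟨h1, h2, h3, ?_⟩
      rw [← h1]
      exact h4

theorem prune_folded {Y : SG P S} (hF : Y.Folded) : (prune Y).Folded := fun σ p q q' h h' =>
  hF σ p q q' ((st_prune Y σ p q).1 h).1 ((st_prune Y σ p q').1 h').1

theorem prune_conn {Y : SG P S} (hF : Y.Folded) (hC : Y.Conn) : (prune Y).Conn := by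
  intro p q hp hq hg
  obtain ⟨W, hW⟩ := hC p q hp.1 hq.1 hg
  have := hW.closed (fun r : Y.J × S.X => (¬ Y.deg r ≤ 1 ∧ (prune Y).Reach p r) ∨
    (Y.deg r ≤ 1 ∧ ∃ σ m, Y.St σ r m ∧ ¬ Y.deg m ≤ 1 ∧ (prune Y).Reach p m)) ?_
    (Or.inl ⟨hp.2, SG.Reach.refl _⟩)
  · rcases this with h | h
    · exact h.2
    · exact absurd h.1 hq.2
  · rintro σ a b (⟨h1, h2⟩ | ⟨h1, σ', m, h2, h3, h4⟩) hs
    · by_cases hb : Y.deg b ≤ 1
      · exact Or.inr ⟨hb, _, a, hs.symm, h1, h2⟩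
      · exact Or.inl ⟨hb, h2.trans (SG.St.reach ((st_prune Y σ a b).2 ⟨hs, h1, hb⟩))⟩
    · obtain rfl := SG.eq_of_deg_le_one h1 h2 hs
      obtain rfl := hF _ _ _ _ h2 hs
      exact Or.inl ⟨h3, h4⟩

theorem ae_leaf (hR : S.Recur) {Y : SG P S} (hF : Y.Folded) (hC : Y.Conn) (hv : 0 < Y.v) :
    ∀ᵐ x ∂S.μ, ∀ j, Y.V j x → Y.deg (j, x) ≤ 1 →
      ∃ σ q, Y.St σ (j, x) q ∧ ¬ Y.deg q ≤ 1 := by
  have := P.countable
  have ha := P.not_isOfFinOrder P.a0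
  set a := P.val (some P.a0)
  have h1 := hR a ha {x | ∃ j, Y.V j x} (Measurable.exists Y.mV).setOf
    (S.measure_base_ne_zero hv)
  have h2 : ∀ᵐ x ∂S.μ, ∀ g : Γ, ∃ m : ℕ, 1 ≤ m ∧ a ^ m • g • x ∈ {x | ∃ j, Y.V j x} :=
    ae_all_iff.2 fun g => S.ae_smul g h1
  have hne : ∀ (m : ℕ) (x : S.X), 1 ≤ m → a ^ m • x ≠ x := fun m x hm h =>
    ha (isOfFinOrder_iff_pow_eq_one.2 ⟨m, hm, S.free _ _ h⟩)
  filter_upwards [h1, h2] with x ⟨m, hm, j₁, hj₁⟩ hx2 j hj hd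
  obtain ⟨m', hm', j₂, hj₂⟩ := hx2 (a ^ m)
  by_contra hcon
  push Not at hcon
  have key : ∀ r : Y.J × S.X, Y.V r.1 r.2 → (∃ g : Γ, r.2 = g • x) → r.2 ≠ x →
      ∃ σ, Y.St σ (j, x) r := by
    intro r hr hg hx
    obtain ⟨W, hW⟩ := hC (j, x) r hj hr hg
    have := hW.closed (fun r => r = (j, x) ∨ ∃ σ, Y.St σ (j, x) r) ?_ (Or.inl rfl)
    · rcases this with h | h
      · exact absurd (congrArg Prod.snd h) hx
      · exact h
    · rintro σ a b (rfl | ⟨σ', h⟩) hs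
      · exact Or.inr ⟨σ, hs⟩
      · obtain rfl := SG.eq_of_deg_le_one (hcon _ _ h) h.symm hs
        exact Or.inl (hF _ _ _ _ hs h.symm)
  obtain ⟨σ₁, h₁⟩ := key (j₁, a ^ m • x) hj₁ ⟨_, rfl⟩ (hne m x hm)
  obtain ⟨σ₂, h₂⟩ := key (j₂, a ^ m' • a ^ m • x) hj₂ ⟨_, (mul_smul _ _ _).symm⟩ (by
    change a ^ m' • a ^ m • x ≠ x
    rw [← mul_smul, ← pow_add]
    exact hne _ x (by omega))
  obtain rfl := SG.eq_of_deg_le_one hd h₁ h₂
  exact hne m' _ hm' (congrArg Prod.snd (hF _ _ _ _ h₂ h₁))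

theorem v_prune (Y : SG P S) : Y.v = Y.leaves + (prune Y).v :=
  S.cnt_split Y.V (fun j x => Y.deg (j, x) ≤ 1) fun j => Y.meas_deg_prop' j fun n => n ≤ 1

theorem e_prune (hR : S.Recur) {Y : SG P S} (hF : Y.Folded) (hC : Y.Conn) (hv : 0 < Y.v) :
    (prune Y).e + Y.leaves ≤ Y.e := by
  have h1 := S.cnt_split (fun t : Option P.ι × Y.J × Y.J => Y.E t.1 t.2.1 t.2.2)
    (fun t x => ¬ Y.deg (t.2.1, x) ≤ 1 ∧ ¬ Y.deg (t.2.2, (P.val t.1)⁻¹ • x) ≤ 1)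
    fun t => (Y.meas_deg_prop' _ fun n => ¬ n ≤ 1).and (Y.meas_deg_prop _ _ fun n => ¬ n ≤ 1)
  have h2 : Y.leaves ≤ S.cnt fun j x => Y.deg (j, x) ≤ 1 ∧
      ∃ σ q, Y.St σ (j, x) q ∧ ¬ Y.deg q ≤ 1 := by
    refine S.cnt_mono_ae ?_
    filter_upwards [ae_leaf hR hF hC hv] with x hx j hj
    exact ⟨hj.2, hx j hj.1 hj.2⟩
  have h3 : S.cnt (fun j x => Y.deg (j, x) ≤ 1 ∧ ∃ σ q, Y.St σ (j, x) q ∧ ¬ Y.deg q ≤ 1) ≤
      S.cnt fun (t : Option P.ι × Y.J × Y.J) x => Y.E t.1 t.2.1 t.2.2 x ∧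
        ¬ (¬ Y.deg (t.2.1, x) ≤ 1 ∧ ¬ Y.deg (t.2.2, (P.val t.1)⁻¹ • x) ≤ 1) := by
    refine S.cnt_le_of_cover_inj (D := (Option P.ι × Bool) × Y.J × Y.J)
      (fun d x => Y.deg (d.2.1, x) ≤ 1 ∧ Y.St d.1 (d.2.1, x) (d.2.2, (lv P.val d.1)⁻¹ • x) ∧
        ¬ Y.deg (d.2.2, (lv P.val d.1)⁻¹ • x) ≤ 1) ?_ (fun d => d.2.1)
      (fun d => cond d.1.2 (d.1.1, d.2.1, d.2.2) (d.1.1, d.2.2, d.2.1))
      (fun d => cond d.1.2 1 (P.val d.1.1)) ?_ ?_ ?_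
    · intro d
      exact (Y.meas_deg_prop' _ fun n => n ≤ 1).and ((Y.meas_st' _ _ _ _).and
        (Y.meas_deg_prop _ _ fun n => ¬ n ≤ 1))
    · rintro j x ⟨hd, σ, hq⟩
      obtain ⟨j', h⟩ := (Y.exists_st_iff σ (j, x) fun q => ¬ Y.deg q ≤ 1).1 hq
      exact ⟨(σ, j, j'), rfl, hd, h⟩
    · rintro ⟨⟨s, _ | _⟩, j, j'⟩ x ⟨h1, h2, h3⟩
      · rw [SG.st_false] at h2
        simp only [lv_false, inv_inv, cond_false, inv_smul_smul] at h2 ⊢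
        exact ⟨h2.2, fun h => h.2 h1⟩
      · rw [SG.st_true] at h2
        simp only [cond_true, one_smul]
        exact ⟨h2.2, fun h => h.1 h1⟩
    · rintro ⟨⟨s, _ | _⟩, j, j'⟩ ⟨⟨s', _ | _⟩, k, k'⟩ x x' ⟨h1, -, h3⟩ ⟨h1', -, h3'⟩ e1 e2 <;>
        simp only [cond_true, cond_false, Prod.mk.injEq, one_smul, lv_false, inv_inv] at *
      · obtain ⟨rfl, rfl, rfl⟩ := e1
        simp
      · obtain ⟨rfl, rfl, rfl⟩ := e1
        rw [e2] at h3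
        exact absurd h1' h3
      · obtain ⟨rfl, rfl, rfl⟩ := e1
        rw [← e2] at h3'
        exact absurd h1 h3'
      · obtain ⟨rfl, rfl, rfl⟩ := e1
        simp
  change _ ≤ S.cnt _
  rw [h1]
  exact add_le_add le_rfl (h2.trans h3)

end Prune

open Prune in
theorem pruneStmt : PruneStmt := by
  intro Γ _ P S hR k0 Y hY
  have hv := v_prune Y
  have he := e_prune hR hY.folded hY.conn hY.vpos
  have hf : (prune Y).f = Y.f := rfl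
  refine ⟨prune Y, ⟨prune_folded hY.folded, prune_conn hY.folded hY.conn, ?_, hY.fle, ?_⟩, ?_⟩
  · refine SG.vpos_of_cover ?_ hY.vpos
    filter_upwards [ae_leaf hR hY.folded hY.conn hY.vpos] with x hx j hj
    by_cases hd : Y.deg (j, x) ≤ 1
    · obtain ⟨σ, q, h1, h2⟩ := hx j hj hd
      refine ⟨(lv P.val σ)⁻¹, q.1, ?_⟩
      have := h1.pos
      simp only at this
      rw [← this]
      exact ⟨h1.right, h2⟩
    · exact ⟨1, j, by rw [one_smul]; exact ⟨hj, hd⟩⟩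
  · have := hY.chile
    unfold SG.chi at this ⊢
    linarith
  · unfold SG.psi
    rw [hf]
    linarith

end Crest.Agent.R191
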