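import Mathlib

/-!
Finite-range operators on a measured space and the trace inequality
`λ P ≤ λ Q` for operators that are injective on all functions.
-/

set_option autoImplicit false

open MeasureTheory Filter Topology Function

noncomputable section

namespace Crest.Agent.R191.Rank

variable {Z : Type}

/-- finitely supported -/
def FS (ξ : Z → ℝ) : Prop := (support ξ).Finite

/-- inner product (meaningful when one argument is finitely supported) -/
def ip (ξ η : Z → ℝ) : ℝ := ∑ᶠ z, ξ z * η z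

open Classical in
/-- Dirac function -/
def dl (p : Z) : Z → ℝ := fun z => if z = p then 1 else 0

theorem FS.mulL {ξ : Z → ℝ} (h : FS ξ) (η : Z → ℝ) : HasFiniteSupport fun z => ξ z * η z :=
  Set.Finite.subset h fun z hz => by
    simp only [mem_support] at hz ⊢; exact left_ne_zero_of_mul hz

theorem FS.mulR {η : Z → ℝ} (h : FS η) (ξ : Z → ℝ) : HasFiniteSupport fun z => ξ z * η z :=
  Set.Finite.subset h fun z hz => by
    simp only [mem_support] at hz ⊢; exact right_ne_zero_of_mul hz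

theorem fs_zero : FS (0 : Z → ℝ) := by simp [FS]

theorem FS.add {ξ η : Z → ℝ} (h : FS ξ) (h' : FS η) : FS (ξ + η) :=
  (Set.Finite.union h h').subset (support_add ξ η)

theorem FS.smul {ξ : Z → ℝ} (h : FS ξ) (c : ℝ) : FS (c • ξ) := h.mulR (fun _ => c)

theorem fs_dl (p : Z) : FS (dl p) :=
  (Set.finite_singleton p).subset fun z hz => by
    by_contra h
    exact hz (if_neg h)

theorem ip_comm (ξ η : Z → ℝ) : ip ξ η = ip η ξ := by simp [ip, mul_comm]

theorem ip_add_left {ξ ξ' : Z → ℝ} (h : FS ξ) (h' : FS ξ') (η : Z → ℝ) :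
    ip (ξ + ξ') η = ip ξ η + ip ξ' η := by
  unfold ip
  rw [← finsum_add_distrib (h.mulL η) (h'.mulL η)]
  simp [add_mul]

theorem ip_add_right {ξ : Z → ℝ} (h : FS ξ) (η η' : Z → ℝ) :
    ip ξ (η + η') = ip ξ η + ip ξ η' := by
  unfold ip
  rw [← finsum_add_distrib (h.mulL η) (h.mulL η')]
  simp [mul_add]

theorem ip_smul_left (c : ℝ) (ξ η : Z → ℝ) : ip (c • ξ) η = c * ip ξ η := by
  unfold ip
  rw [mul_finsum]
  simp [mul_assoc]

theorem ip_smul_right (c : ℝ) (ξ η : Z → ℝ) : ip ξ (c • η) = c * ip ξ η := by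
  rw [ip_comm, ip_smul_left, ip_comm]

theorem ip_zero_left (η : Z → ℝ) : ip 0 η = 0 := by simp [ip]

theorem ip_zero_right (η : Z → ℝ) : ip η 0 = 0 := by simp [ip]

theorem ip_dl_left (p : Z) (η : Z → ℝ) : ip (dl p) η = η p := by
  unfold ip
  rw [finsum_eq_single _ p fun z hz => by simp [dl, hz]]
  simp [dl]

theorem ip_dl_right (p : Z) (η : Z → ℝ) : ip η (dl p) = η p := by rw [ip_comm, ip_dl_left]

theorem ip_self_nonneg (ξ : Z → ℝ) : 0 ≤ ip ξ ξ := finsum_nonneg fun _ => mul_self_nonneg _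

theorem sq_le_ip {ξ : Z → ℝ} (h : FS ξ) (z : Z) : ξ z * ξ z ≤ ip ξ ξ :=
  single_le_finsum z (h.mulL ξ) fun _ => mul_self_nonneg _

theorem ip_add_self {ξ η : Z → ℝ} (h : FS ξ) (h' : FS η) :
    ip (ξ + η) (ξ + η) = ip ξ ξ + 2 * ip ξ η + ip η η := by
  rw [ip_add_left h h', ip_add_right h, ip_add_right h', ip_comm η ξ]; ring

theorem ip_add_self_le {ξ η : Z → ℝ} (h : FS ξ) (h' : FS η) :
    ip (ξ + η) (ξ + η) ≤ 2 * ip ξ ξ + 2 * ip η η := by
  have h1 := ip_self_nonneg (ξ + (-1 : ℝ) • η)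
  rw [ip_add_self h (h'.smul _), ip_smul_left, ip_smul_right, ip_smul_right] at h1
  rw [ip_add_self h h']
  linarith

variable [MeasurableSpace Z]

/-- elementary operator: weighted composition -/
def El (w : Z → ℝ) (e : Z ≃ᵐ Z) : Module.End ℝ (Z → ℝ) where
  toFun ξ := fun z => w z * ξ (e z)
  map_add' ξ η := by funext z; simp [mul_add]
  map_smul' c ξ := by funext z; simp [mul_left_comm]

theorem El_apply (w : Z → ℝ) (e : Z ≃ᵐ Z) (ξ : Z → ℝ) (z : Z) : El w e ξ z = w z * ξ (e z) := rfl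

theorem El_mul (v w : Z → ℝ) (f e : Z ≃ᵐ Z) :
    El v f * El w e = El (fun z => v z * w (f z)) (f.trans e) := by
  ext ξ z
  simp [El_apply, mul_assoc]

/-- finite-range operators -/
inductive FR (lam : Measure Z) : Module.End ℝ (Z → ℝ) → Prop
  | zero : FR lam 0
  | el (w : Z → ℝ) (e : Z ≃ᵐ Z) (C : ℝ) (hw : Measurable w) (hC : ∀ z, |w z| ≤ C)
      (he : MeasurePreserving e lam lam) : FR lam (El w e)
  | add {M N : Module.End ℝ (Z → ℝ)} : FR lam M → FR lam N → FR lam (M + N)

variable {lam : Measure Z}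

theorem FR.one : FR lam 1 := by
  have : (1 : Module.End ℝ (Z → ℝ)) = El (fun _ => 1) (MeasurableEquiv.refl Z) := by
    ext ξ z; simp [El_apply]
  rw [this]
  exact FR.el _ _ 1 measurable_const (fun _ => by simp) (MeasurePreserving.id lam)

theorem FR.smul {M : Module.End ℝ (Z → ℝ)} (h : FR lam M) (c : ℝ) : FR lam (c • M) := by
  induction h with
  | zero => simpa using FR.zero
  | el w e C hw hC he =>
    have : c • El w e = El (fun z => c * w z) e := by ext ξ z; simp [El_apply, mul_assoc]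
    rw [this]
    exact FR.el _ _ (|c| * C) (hw.const_mul c)
      (fun z => by rw [abs_mul]; exact mul_le_mul_of_nonneg_left (hC z) (abs_nonneg _)) he
  | add _ _ h1 h2 => rw [smul_add]; exact h1.add h2

theorem FR.sub {M N : Module.End ℝ (Z → ℝ)} (h : FR lam M) (h' : FR lam N) : FR lam (M - N) := by
  have : M - N = M + (-1 : ℝ) • N := by ext ξ z; simp [sub_eq_add_neg]
  rw [this]; exact h.add (h'.smul _)

theorem FR.mul {M N : Module.End ℝ (Z → ℝ)} (h : FR lam M) (h' : FR lam N) : FR lam (M * N) := by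
  induction h with
  | zero => simpa using FR.zero
  | add _ _ h1 h2 => rw [add_mul]; exact h1.add h2
  | el v f C hv hC hf =>
    induction h' with
    | zero => simpa using FR.zero
    | add _ _ h1 h2 => rw [mul_add]; exact h1.add h2
    | el w e D hw hD he =>
      rw [El_mul]
      refine FR.el _ _ (C * D) (hv.mul (hw.comp f.measurable)) (fun z => ?_) (he.comp hf)
      rw [abs_mul]
      exact mul_le_mul (hC z) (hD _) (abs_nonneg _) ((abs_nonneg _).trans (hC z))

theorem FR.pow {M : Module.End ℝ (Z → ℝ)} (h : FR lam M) (n : ℕ) : FR lam (M ^ n) := by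
  induction n with
  | zero => simpa using FR.one
  | succ n ih => rw [pow_succ]; exact ih.mul h

theorem FR.sum {ι : Type*} (s : Finset ι) {M : ι → Module.End ℝ (Z → ℝ)}
    (h : ∀ i ∈ s, FR lam (M i)) : FR lam (∑ i ∈ s, M i) :=
  Finset.sum_induction M (FR lam) (fun _ _ => FR.add) FR.zero h

theorem fs_El (w : Z → ℝ) (e : Z ≃ᵐ Z) {ξ : Z → ℝ} (h : FS ξ) : FS (El w e ξ) :=
  (Set.Finite.preimage e.injective.injOn h).subset fun _ hz => right_ne_zero_of_mul hz

theorem FR.fs {M : Module.End ℝ (Z → ℝ)} (h : FR lam M) {ξ : Z → ℝ} (hξ : FS ξ) : FS (M ξ) := by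
  induction h with
  | zero => exact fs_zero
  | el w e C hw hC he => exact fs_El w e hξ
  | add _ _ h1 h2 => exact h1.add h2

theorem FR.tendsto {M : Module.End ℝ (Z → ℝ)} (h : FR lam M) {ι : Type*} {l : Filter ι}
    {ξ : ι → Z → ℝ} {η : Z → ℝ} (hl : ∀ z, Tendsto (fun k => ξ k z) l (𝓝 (η z))) (z : Z) :
    Tendsto (fun k => M (ξ k) z) l (𝓝 (M η z)) := by
  induction h with
  | zero => exact tendsto_const_nhds
  | el w e C hw hC he => exact (hl _).const_mul _
  | add _ _ h1 h2 => exact h1.add h2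

theorem FR.bound {M : Module.End ℝ (Z → ℝ)} (h : FR lam M) :
    ∃ c : ℝ, 0 < c ∧ ∀ ξ, FS ξ → ip (M ξ) (M ξ) ≤ c * ip ξ ξ := by
  induction h with
  | zero => exact ⟨1, one_pos, fun ξ _ => by simpa [ip_zero_left] using ip_self_nonneg ξ⟩
  | el w e C hw hC he =>
    refine ⟨C * C + 1, by nlinarith, fun ξ hξ => ?_⟩
    have h1 : ip ξ ξ = ∑ᶠ z, ξ (e z) * ξ (e z) :=
      (finsum_comp_equiv e.toEquiv (f := fun z => ξ z * ξ z)).symm
    have h2 : FS fun z => ξ (e z) := Set.Finite.preimage e.injective.injOn hξ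
    rw [h1, mul_finsum]
    refine finsum_le_finsum' ((fs_El w e hξ).mulL _) (FS.mulR (h2.mulL _) fun _ => C * C + 1)
      fun z => ?_
    have h3 : w z * w z ≤ C * C + 1 := by
      have := abs_le.1 (hC z)
      nlinarith
    have := mul_le_mul_of_nonneg_right h3 (mul_self_nonneg (ξ (e z)))
    simp only [El_apply]
    nlinarith
  | add hM hN h1 h2 =>
    obtain ⟨c, hc, h1⟩ := h1
    obtain ⟨d, hd, h2⟩ := h2
    refine ⟨2 * c + 2 * d, by positivity, fun ξ hξ => ?_⟩
    refine (ip_add_self_le (hM.fs hξ) (hN.fs hξ)).trans ?_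
    nlinarith [h1 ξ hξ, h2 ξ hξ]

/-- adjointness -/
def Adj (T S : Module.End ℝ (Z → ℝ)) : Prop := ∀ ξ η, FS ξ → ip (T ξ) η = ip ξ (S η)

theorem adj_El (w : Z → ℝ) (e : Z ≃ᵐ Z) :
    Adj (El w e) (El (fun z => w (e.symm z)) e.symm) := by
  intro ξ η _
  unfold ip
  rw [← finsum_comp_equiv e.toEquiv (f := fun z => ξ z * El (fun z => w (e.symm z)) e.symm η z)]
  refine finsum_congr fun z => ?_
  simp [El_apply]; ring

omit [MeasurableSpace Z] in
theorem adj_zero : Adj (0 : Module.End ℝ (Z → ℝ)) 0 := fun ξ η _ => by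
  simp [ip_zero_left, ip_zero_right]

omit [MeasurableSpace Z] in
theorem adj_one : Adj (1 : Module.End ℝ (Z → ℝ)) 1 := fun _ _ _ => rfl

theorem Adj.add {T S T' S' : Module.End ℝ (Z → ℝ)} (h : Adj T S) (h' : Adj T' S')
    (hT : FR lam T) (hT' : FR lam T') : Adj (T + T') (S + S') := fun ξ η hξ => by
  rw [LinearMap.add_apply, LinearMap.add_apply, ip_add_left (hT.fs hξ) (hT'.fs hξ),
    ip_add_right hξ, h ξ η hξ, h' ξ η hξ]

omit [MeasurableSpace Z] in
theorem Adj.smul {T S : Module.End ℝ (Z → ℝ)} (h : Adj T S) (c : ℝ) : Adj (c • T) (c • S) :=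
  fun ξ η hξ => by
    rw [LinearMap.smul_apply, LinearMap.smul_apply, ip_smul_left, ip_smul_right, h ξ η hξ]

theorem Adj.mul {T S T' S' : Module.End ℝ (Z → ℝ)} (h : Adj T S) (h' : Adj T' S')
    (hT' : FR lam T') : Adj (T * T') (S' * S) := fun ξ η hξ => by
  rw [Module.End.mul_apply, Module.End.mul_apply, h _ η (hT'.fs hξ), h' ξ _ hξ]

theorem Adj.pow {U : Module.End ℝ (Z → ℝ)} (h : Adj U U) (hU : FR lam U) (n : ℕ) :
    Adj (U ^ n) (U ^ n) := by
  induction n with
  | zero => simpa using adj_one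
  | succ n ih =>
    have := ih.mul h hU
    rwa [← pow_succ, ← pow_succ'] at this

theorem Adj.sum {ι : Type*} (s : Finset ι) {T S : ι → Module.End ℝ (Z → ℝ)}
    (h : ∀ i, Adj (T i) (S i)) (hT : ∀ i, FR lam (T i)) :
    Adj (∑ i ∈ s, T i) (∑ i ∈ s, S i) := by
  classical
  induction s using Finset.induction_on with
  | empty => simpa using adj_zero
  | insert a s ha ih =>
    rw [Finset.sum_insert ha, Finset.sum_insert ha]
    exact (h a).add ih (hT a) (FR.sum s fun i _ => hT i)

theorem FR.exists_adj {T : Module.End ℝ (Z → ℝ)} (h : FR lam T) :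
    ∃ S, FR lam S ∧ Adj T S ∧ Adj S T := by
  induction h with
  | zero => exact ⟨0, FR.zero, adj_zero, adj_zero⟩
  | el w e C hw hC he =>
    refine ⟨_, FR.el _ e.symm C (hw.comp e.symm.measurable) (fun z => hC _) he.symm,
      adj_El w e, ?_⟩
    have := adj_El (fun z => w (e.symm z)) e.symm
    simp only [MeasurableEquiv.symm_symm, MeasurableEquiv.symm_apply_apply] at this
    exact this
  | add hM hN h1 h2 =>
    obtain ⟨S, hS, a1, b1⟩ := h1
    obtain ⟨S', hS', a2, b2⟩ := h2
    exact ⟨S + S', hS.add hS', a1.add a2 hM hN, b1.add b2 hS hS'⟩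

/-- diagonal entry -/
def dg (M : Module.End ℝ (Z → ℝ)) (z : Z) : ℝ := M (dl z) z

/-- trace -/
def tr (lam : Measure Z) (M : Module.End ℝ (Z → ℝ)) : ℝ := ∫ z, dg M z ∂lam

open Classical in
theorem dg_El (w : Z → ℝ) (e : Z ≃ᵐ Z) (z : Z) :
    dg (El w e) z = if e z = z then w z else 0 := by
  simp [dg, El_apply, dl]

variable [MeasurableEq Z]

theorem FR.measurable_dg {M : Module.End ℝ (Z → ℝ)} (h : FR lam M) : Measurable (dg M) := by
  induction h with
  | zero => exact measurable_const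
  | el w e C hw hC he =>
    classical
    have : dg (El w e) = fun z => if e z = z then w z else 0 := funext (dg_El w e)
    rw [this]
    exact Measurable.ite (measurableSet_eq_fun e.measurable measurable_id) hw measurable_const
  | add _ _ h1 h2 => exact h1.add h2

variable [IsFiniteMeasure lam]

theorem FR.integrable_dg {M : Module.End ℝ (Z → ℝ)} (h : FR lam M) : Integrable (dg M) lam := by
  have hm := h.measurable_dg
  induction h with
  | zero => exact integrable_const 0
  | el w e C hw hC he =>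
    refine Integrable.of_bound hm.aestronglyMeasurable C (Eventually.of_forall fun z => ?_)
    rw [dg_El]
    split_ifs
    · exact hC z
    · simpa using (abs_nonneg _).trans (hC z)
  | add hM hN h1 h2 => exact (h1 hM.measurable_dg).add (h2 hN.measurable_dg)

theorem tr_add {M N : Module.End ℝ (Z → ℝ)} (hM : FR lam M) (hN : FR lam N) :
    tr lam (M + N) = tr lam M + tr lam N :=
  integral_add hM.integrable_dg hN.integrable_dg

theorem tr_mul_comm {M N : Module.End ℝ (Z → ℝ)} (hM : FR lam M) (hN : FR lam N) :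
    tr lam (M * N) = tr lam (N * M) := by
  induction hM with
  | zero => simp
  | add h1 h2 i1 i2 =>
    rw [add_mul, mul_add, tr_add (h1.mul hN) (h2.mul hN), tr_add (hN.mul h1) (hN.mul h2), i1, i2]
  | el v f C hv hC hf =>
    have hE := FR.el v f C hv hC hf
    induction hN with
    | zero => simp
    | add h1 h2 i1 i2 =>
      rw [add_mul, mul_add, tr_add (hE.mul h1) (hE.mul h2), tr_add (h1.mul hE) (h2.mul hE), i1, i2]
    | el w e D hw hD he =>
      unfold tr
      rw [← hf.integral_comp' (fun z => dg (El w e * El v f) z)]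
      refine integral_congr_ae (Eventually.of_forall fun z => ?_)
      simp only [El_mul, dg_El]
      by_cases h : e (f z) = z
      · have h1 : (f.trans e) z = z := h
        have h2 : (e.trans f) (f z) = f z := congrArg f h
        rw [if_pos h1, if_pos h2, h, mul_comm]
      · have h1 : ¬ (f.trans e) z = z := h
        have h2 : ¬ (e.trans f) (f z) = f z := fun h' => h (f.injective h')
        rw [if_neg h1, if_neg h2]

theorem core {P Q : Set Z} (hP : MeasurableSet P) (hQ : MeasurableSet Q)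
    {T₁ T₂ : Module.End ℝ (Z → ℝ)} (h₁ : FR lam T₁) (h₂ : FR lam T₂)
    (hP₁ : ∀ p, p ∉ P → T₁ (dl p) = 0) (hP₂ : ∀ p, p ∉ P → T₂ (dl p) = 0)
    (hQ₁ : ∀ η q, q ∉ Q → T₁ η q = 0) (hQ₂ : ∀ η q, q ∉ Q → T₂ η q = 0)
    (horth : ∀ ξ η, FS ξ → ip (T₁ ξ) (T₂ η) = 0)
    (hinj : ∀ η : Z → ℝ, (∀ z, z ∉ P → η z = 0) → T₁ η = 0 → T₂ η = 0 → η = 0) :
    lam.real P ≤ lam.real Q := by
  set T := T₁ + T₂ with hTdef
  have hT : FR lam T := h₁.add h₂
  obtain ⟨S, hS, hTS, hST⟩ := hT.exists_adj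
  obtain ⟨c, hc, hcS⟩ := hS.bound
  set U : Module.End ℝ (Z → ℝ) := 1 + (-c⁻¹) • (S * T) with hUdef
  set V : Module.End ℝ (Z → ℝ) := 1 + (-c⁻¹) • (T * S) with hVdef
  have hU : FR lam U := FR.one.add ((hS.mul hT).smul _)
  have hV : FR lam V := FR.one.add ((hT.mul hS).smul _)
  have hVV : Adj V V := adj_one.add ((hTS.mul hST hS).smul _) FR.one ((hT.mul hS).smul _)
  have hTP : ∀ p, p ∉ P → T (dl p) = 0 := fun p hp => by
    rw [hTdef, LinearMap.add_apply, hP₁ p hp, hP₂ p hp, add_zero]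
  have hTQ : ∀ η q, q ∉ Q → T η q = 0 := fun η q hq => by
    rw [hTdef, LinearMap.add_apply, Pi.add_apply, hQ₁ η q hq, hQ₂ η q hq, add_zero]
  have hSP : ∀ η p, p ∉ P → S η p = 0 := fun η p hp => by
    rw [← ip_dl_left p (S η), ← hTS _ _ (fs_dl p), hTP p hp, ip_zero_left]
  have hSQ : ∀ q, q ∉ Q → S (dl q) = 0 := fun q hq => by
    funext p
    rw [← ip_dl_left p (S (dl q)), ← hTS _ _ (fs_dl p), ip_dl_right, hTQ _ q hq, Pi.zero_apply]
  -- one step decreases the norm
  have hstep : ∀ ξ, FS ξ → ip (U ξ) (U ξ) ≤ ip ξ ξ - c⁻¹ * ip (T ξ) (T ξ) := by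
    intro ξ hξ
    have e1 : U ξ = ξ + (-c⁻¹) • S (T ξ) := rfl
    have e2 := hcS _ (hT.fs hξ)
    rw [e1, ip_add_self hξ ((hS.fs (hT.fs hξ)).smul _), ip_smul_left, ip_smul_right, ip_smul_right,
      ← hTS _ _ hξ]
    have e3 : c⁻¹ * (c⁻¹ * ip (S (T ξ)) (S (T ξ))) ≤ c⁻¹ * ip (T ξ) (T ξ) := by
      refine mul_le_mul_of_nonneg_left ?_ (inv_nonneg.2 hc.le)
      rw [inv_mul_le_iff₀ hc]; exact e2
    linarith
  have hb : ∀ p (k : ℕ), ip ((U ^ (k + 1)) (dl p)) ((U ^ (k + 1)) (dl p)) ≤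
      ip ((U ^ k) (dl p)) ((U ^ k) (dl p)) -
        c⁻¹ * ip (T ((U ^ k) (dl p))) (T ((U ^ k) (dl p))) := fun p k => by
    rw [pow_succ', Module.End.mul_apply]
    exact hstep _ ((hU.pow k).fs (fs_dl p))
  have hanti : ∀ p, Antitone fun k : ℕ => ip ((U ^ k) (dl p)) ((U ^ k) (dl p)) := fun p =>
    antitone_nat_of_succ_le fun k => (hb p k).trans
      (sub_le_self _ (mul_nonneg (inv_nonneg.2 hc.le) (ip_self_nonneg _)))
  have hle1 : ∀ p (k : ℕ) z, |(U ^ k) (dl p) z| ≤ 1 := fun p k z => by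
    have h1 := sq_le_ip ((hU.pow k).fs (fs_dl p)) z
    have h2 := hanti p (Nat.zero_le k)
    simp only [pow_zero, Module.End.one_apply, ip_dl_left] at h2
    have h3 : dl p p = 1 := by simp [dl]
    rw [h3] at h2
    exact abs_le_one_iff_mul_self_le_one.2 (h1.trans h2)
  have hT0 : ∀ p, Tendsto (fun k : ℕ => ip (T ((U ^ k) (dl p))) (T ((U ^ k) (dl p)))) atTop
      (𝓝 0) := fun p => by
    have h1 := tendsto_atTop_ciInf (hanti p) ⟨0, by rintro _ ⟨k, rfl⟩; exact ip_self_nonneg _⟩
    have h2 := (h1.sub (h1.comp (tendsto_add_atTop_nat 1))).const_mul c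
    rw [sub_self, mul_zero] at h2
    refine tendsto_of_tendsto_of_tendsto_of_le_of_le tendsto_const_nhds h2
      (fun k => ip_self_nonneg _) fun k => ?_
    have h3 := hb p k
    rw [← inv_mul_le_iff₀ hc]
    simp only [Function.comp_apply]
    linarith
  have hUP : ∀ p, p ∈ P → ∀ (k : ℕ) z, z ∉ P → (U ^ k) (dl p) z = 0 := by
    intro p hp k z hz
    induction k with
    | zero =>
      have : z ≠ p := fun h => hz (h ▸ hp)
      simp [dl, this]
    | succ k ih =>
      rw [pow_succ', Module.End.mul_apply]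
      have e1 : ∀ ξ, U ξ z = ξ z + (-c⁻¹) * S (T ξ) z := fun _ => rfl
      rw [e1, ih, hSP _ z hz]; simp
  have hsq : ∀ {l : Filter ℕ} {a b : ℕ → ℝ}, Tendsto b l (𝓝 0) → (∀ k, a k * a k ≤ b k) →
      Tendsto a l (𝓝 0) := by
    intro l a b hb hab
    have h1 := hb.sqrt
    rw [Real.sqrt_zero] at h1
    refine squeeze_zero_norm (fun k => ?_) h1
    exact Real.abs_le_sqrt (by rw [sq]; exact hab k)
  have hlim : ∀ p, p ∈ P → Tendsto (fun k : ℕ => dg (U ^ k) p) atTop (𝓝 0) := by
    intro p hp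
    rw [tendsto_iff_ultrafilter]
    intro l hl
    have hex : ∀ z, ∃ y, Tendsto (fun k : ℕ => (U ^ k) (dl p) z) l (𝓝 y) := fun z => by
      obtain ⟨y, -, hy⟩ := (isCompact_Icc (a := (-1 : ℝ)) (b := 1)).ultrafilter_le_nhds
        (l.map fun k : ℕ => (U ^ k) (dl p) z) (by
          rw [Ultrafilter.coe_map, le_principal_iff, mem_map]
          exact univ_mem' fun k => abs_le.1 (hle1 p k z))
      exact ⟨y, hy⟩
    choose η hη using hex
    have hsplit : ∀ k : ℕ, ip (T ((U ^ k) (dl p))) (T ((U ^ k) (dl p))) =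
        ip (T₁ ((U ^ k) (dl p))) (T₁ ((U ^ k) (dl p))) +
          ip (T₂ ((U ^ k) (dl p))) (T₂ ((U ^ k) (dl p))) := fun k => by
      have hk := (hU.pow k).fs (fs_dl p)
      rw [hTdef, LinearMap.add_apply, ip_add_self (h₁.fs hk) (h₂.fs hk), horth _ _ hk]
      ring
    have hη0 : η = 0 := by
      refine hinj η (fun z hz => ?_) (funext fun z => ?_) (funext fun z => ?_)
      · refine tendsto_nhds_unique (hη z) ?_
        simp only [hUP p hp _ z hz]
        exact tendsto_const_nhds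
      · refine tendsto_nhds_unique (h₁.tendsto hη z) (hsq ((hT0 p).mono_left hl) fun k => ?_)
        rw [hsplit]
        exact (sq_le_ip (h₁.fs ((hU.pow k).fs (fs_dl p))) z).trans
          (le_add_of_nonneg_right (ip_self_nonneg _))
      · refine tendsto_nhds_unique (h₂.tendsto hη z) (hsq ((hT0 p).mono_left hl) fun k => ?_)
        rw [hsplit]
        exact (sq_le_ip (h₂.fs ((hU.pow k).fs (fs_dl p))) z).trans
          (le_add_of_nonneg_left (ip_self_nonneg _))
    have := hη p
    rwa [hη0] at this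
  have hfix : ∀ (W : Module.End ℝ (Z → ℝ)) (ξ : Z → ℝ), W ξ = ξ → ∀ k : ℕ, (W ^ k) ξ = ξ := by
    intro W ξ h k
    induction k with
    | zero => rfl
    | succ k ih => rw [pow_succ, Module.End.mul_apply, h, ih]
  have hdl : ∀ p : Z, dl p p = 1 := fun p => by simp [dl]
  have hdgsub : ∀ (W : Module.End ℝ (Z → ℝ)) z, dg (1 - W) z = 1 - dg W z := fun W z => by
    simp [dg, hdl]
  -- the trace of `1 - U ^ k` tends to `lam P`
  have hconv : Tendsto (fun k : ℕ => tr lam (1 - U ^ k)) atTop (𝓝 (lam.real P)) := by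
    rw [← integral_indicator_one hP]
    refine tendsto_integral_of_dominated_convergence (fun _ => 2)
      (fun k => (FR.one.sub (hU.pow k)).measurable_dg.aestronglyMeasurable) (integrable_const _)
      (fun k => Eventually.of_forall fun z => ?_) (Eventually.of_forall fun z => ?_)
    · rw [hdgsub, Real.norm_eq_abs]
      have := abs_le.1 (hle1 z k z)
      unfold dg
      rw [abs_le]; constructor <;> linarith [this.1, this.2]
    · simp only [hdgsub]
      by_cases hz : z ∈ P
      · simpa [hz] using (tendsto_const_nhds (x := (1 : ℝ))).sub (hlim z hz)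
      · have h1 : U (dl z) = dl z := by
          have e1 : U (dl z) = dl z + (-c⁻¹) • S (T (dl z)) := rfl
          rw [e1, hTP z hz]; simp
        simp [hz, dg, hfix U _ h1, hdl]
  -- traces agree
  have hsemi : ∀ j : ℕ, T * U ^ j = V ^ j * T := fun j => by
    have : SemiconjBy T U V := by
      simp [SemiconjBy, hUdef, hVdef, mul_add, add_mul, mul_assoc]
    exact this.pow_right j
  have htr : ∀ k : ℕ, tr lam (1 - U ^ k) = tr lam (1 - V ^ k) := fun k => by
    have e1 : 1 - U ^ k = ((∑ j ∈ Finset.range k, U ^ j) * (c⁻¹ • S)) * T := by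
      rw [← geom_sum_mul_neg, mul_assoc]
      congr 1
      ext ξ z
      simp [hUdef]
    have e2 : 1 - V ^ k = T * ((∑ j ∈ Finset.range k, U ^ j) * (c⁻¹ • S)) := by
      rw [← mul_assoc, Finset.mul_sum, Finset.sum_congr rfl fun j _ => hsemi j, ← Finset.sum_mul,
        ← geom_sum_mul_neg, mul_assoc]
      congr 1
      ext ξ z
      simp [hVdef]
    rw [e1, e2]
    exact tr_mul_comm ((FR.sum _ fun j _ => hU.pow j).mul (hS.smul _)) hT
  have hup : ∀ k : ℕ, tr lam (1 - V ^ (2 * k)) ≤ lam.real Q := fun k => by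
    rw [← integral_indicator_one hQ]
    refine integral_mono (FR.one.sub (hV.pow _)).integrable_dg
      ((integrable_const 1).indicator hQ) fun z => ?_
    rw [hdgsub]
    by_cases hz : z ∈ Q
    · have h1 : dg (V ^ (2 * k)) z = ip ((V ^ k) (dl z)) ((V ^ k) (dl z)) := by
        rw [hVV.pow hV k _ _ (fs_dl z), ip_dl_left, two_mul, pow_add]; rfl
      have := ip_self_nonneg ((V ^ k) (dl z))
      simp only [hz, Set.indicator_of_mem, Pi.one_apply]
      linarith
    · have h1 : V (dl z) = dl z := by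
        have e1 : V (dl z) = dl z + (-c⁻¹) • T (S (dl z)) := rfl
        rw [e1, hSQ z hz]; simp
      simp [hz, dg, hfix V _ h1, hdl]
  refine le_of_tendsto' (hconv.comp (tendsto_id.const_mul_atTop' (by norm_num : 0 < 2))) fun k => ?_
  simp only [Function.comp_apply, id]
  rw [htr]
  exact hup k

end Crest.Agent.R191.Rank
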