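import Crest.Agent.R191.Defs
import Crest.Agent.R191.RankCore

/-! The rank inequality `RankStmt`. -/

set_option autoImplicit false

open MeasureTheory Filter Topology Function

noncomputable section

namespace Crest.Agent.R191.Rank

section Op

variable {Γ : Type} [Group Γ] (S : Sp Γ) {I : Type} [Fintype I] [DecidableEq I]
  [MeasurableSpace I] [DiscreteMeasurableSpace I]

/-- swap two sheets and translate -/
def eqv (i j : I) (g : Γ) : I × S.X ≃ᵐ I × S.X where
  toFun z := (Equiv.swap i j z.1, g • z.2)
  invFun z := (Equiv.swap i j z.1, g⁻¹ • z.2)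
  left_inv z := by simp
  right_inv z := by simp
  measurable_toFun :=
    ((Measurable.of_discrete (f := Equiv.swap i j)).comp measurable_fst).prodMk
      ((measurable_const_smul g).comp measurable_snd)
  measurable_invFun :=
    ((Measurable.of_discrete (f := Equiv.swap i j)).comp measurable_fst).prodMk
      ((measurable_const_smul g⁻¹).comp measurable_snd)

omit [Fintype I] in
theorem eqv_apply (i j : I) (g : Γ) (z : I × S.X) :
    eqv S i j g z = (Equiv.swap i j z.1, g • z.2) := rfl

omit [Fintype I] in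
theorem eqv_symm_apply (i j : I) (g : Γ) (z : I × S.X) :
    (eqv S i j g).symm z = (Equiv.swap i j z.1, g⁻¹ • z.2) := rfl

variable (I) in
/-- the measure on the sheeted space -/
def lam : Measure (I × S.X) := (Measure.count : Measure I).prod S.μ

instance : IsFiniteMeasure (lam S I) := by unfold lam; infer_instance

theorem mp_eqv (i j : I) (g : Γ) : MeasurePreserving (eqv S i j g) (lam S I) (lam S I) := by
  have h1 : MeasurePreserving (Equiv.swap i j) (Measure.count : Measure I) Measure.count := by
    refine ⟨Measurable.of_discrete, ?_⟩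
    ext s hs
    rw [Measure.map_apply Measurable.of_discrete hs, ← Equiv.image_symm_eq_preimage,
      Measure.count_injective_image (Equiv.injective _)]
  exact h1.prod (measurePreserving_smul g S.μ)

omit [DecidableEq I] in
theorem measurableSet_fam {R : I → S.X → Prop} (hR : ∀ i, Measurable (R i)) :
    MeasurableSet {z : I × S.X | R z.1 z.2} := by
  have : {z : I × S.X | R z.1 z.2} = ⋃ i, {i} ×ˢ {x | R i x} := by
    ext z; simp
  rw [this]
  exact MeasurableSet.iUnion fun i =>
    (measurableSet_singleton i).prod (measurableSet_setOfPred.2 (hR i))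

omit [DecidableEq I] in
theorem lam_real {R : I → S.X → Prop} (hR : ∀ i, Measurable (R i)) :
    (lam S I).real {z : I × S.X | R z.1 z.2} = S.cnt R := by
  unfold lam Sp.cnt
  rw [measureReal_def, Measure.prod_apply (measurableSet_fam S hR), lintegral_count, tsum_fintype,
    ENNReal.toReal_sum fun i _ => measure_ne_top _ _]
  rfl

variable {κ : Type} [Fintype κ]

/-- the operator with a finite list of weighted translations between sheets -/
def op (src tgt : κ → I) (g : κ → Γ) (w : κ → S.X → ℝ) : Module.End ℝ (I × S.X → ℝ) :=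
  ∑ k, El (fun z => if z.1 = tgt k then w k z.2 else 0) (eqv S (tgt k) (src k) (g k))

omit [Fintype I] in
theorem op_apply (src tgt : κ → I) (g : κ → Γ) (w : κ → S.X → ℝ) (η : I × S.X → ℝ) (j : I)
    (y : S.X) :
    op S src tgt g w η (j, y) = ∑ k, if j = tgt k then w k y * η (src k, g k • y) else 0 := by
  unfold op
  rw [LinearMap.sum_apply, Finset.sum_apply]
  refine Finset.sum_congr rfl fun k _ => ?_
  rw [El_apply, eqv_apply]
  by_cases h : j = tgt k
  · simp [h]
  · simp [h]

theorem fr_piece (a b : I) (g : Γ) {w : S.X → ℝ} (hw : Measurable w) {C : ℝ}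
    (hC : ∀ x, |w x| ≤ C) (hC0 : 0 ≤ C) :
    FR (lam S I) (El (fun z : I × S.X => if z.1 = a then w z.2 else 0) (eqv S a b g)) := by
  refine FR.el _ _ C ?_ (fun z => ?_) (mp_eqv S _ _ _)
  · exact Measurable.ite (measurable_fst (measurableSet_singleton a)) (hw.comp measurable_snd)
      measurable_const
  · split_ifs
    · exact hC _
    · simpa using hC0

theorem fr_op (src tgt : κ → I) (g : κ → Γ) {w : κ → S.X → ℝ} (hw : ∀ k, Measurable (w k))
    {C : κ → ℝ} (hC : ∀ k x, |w k x| ≤ C k) (hC0 : ∀ k, 0 ≤ C k) :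
    FR (lam S I) (op S src tgt g w) :=
  FR.sum _ fun k _ => fr_piece S _ _ _ (hw k) (hC k) (hC0 k)

theorem adj_op (src tgt : κ → I) (g : κ → Γ) {w : κ → S.X → ℝ} (hw : ∀ k, Measurable (w k))
    {C : κ → ℝ} (hC : ∀ k x, |w k x| ≤ C k) (hC0 : ∀ k, 0 ≤ C k) :
    Adj (op S src tgt g w) (op S tgt src (fun k => (g k)⁻¹) fun k x => w k ((g k)⁻¹ • x)) := by
  refine Adj.sum (lam := lam S I) _ (fun k => ?_) fun k => fr_piece S _ _ _ (hw k) (hC k) (hC0 k)
  have := adj_El (fun z : I × S.X => if z.1 = tgt k then w k z.2 else 0)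
    (eqv S (tgt k) (src k) (g k))
  convert this using 1
  ext ξ z
  simp only [El_apply, eqv_symm_apply, eqv_apply, Equiv.swap_apply_eq_iff, Equiv.swap_apply_left,
    Equiv.swap_comm (src k) (tgt k)]

end Op

theorem abs_ite_le (p : Prop) [Decidable p] (a : ℝ) : |(if p then a else 0)| ≤ |a| := by
  split_ifs
  · exact le_rfl
  · simp

end Crest.Agent.R191.Rank

namespace Crest.Agent.R191

open Rank

theorem rankStmt : RankStmt := by
  intro Γ _ S A B C K K' _ _ _ _ _ α β PA PB PC mA mB mC hAB hcomp hinjA hinjC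
  classical
  let _ : MeasurableSpace (A ⊕ B ⊕ C) := ⊤
  have _ : DiscreteMeasurableSpace (A ⊕ B ⊕ C) := ⟨fun _ => trivial⟩
  let RP : A ⊕ B ⊕ C → S.X → Prop := Sum.elim PA (Sum.elim (fun _ _ => False) PC)
  let RQ : A ⊕ B ⊕ C → S.X → Prop := Sum.elim (fun _ _ => False) (Sum.elim PB fun _ _ => False)
  have mP : ∀ i, Measurable (RP i) := by
    rintro (a | b | c)
    · exact mA a
    · exact measurable_const
    · exact mC c
  have mQ : ∀ i, Measurable (RQ i) := by
    rintro (a | b | c)
    · exact measurable_const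
    · exact mB b
    · exact measurable_const
  have eP : S.cnt RP = S.cnt PA + S.cnt PC := by
    simp [Sp.cnt, RP, Fintype.sum_sum_type]
  have eQ : S.cnt RQ = S.cnt PB := by
    simp [Sp.cnt, RQ, Fintype.sum_sum_type]
  -- the operators
  let wA : A × K × B → S.X → ℝ := fun t y =>
    if PA t.1 ((α.g t.1 t.2.1)⁻¹ • y) ∧ α.b t.1 t.2.1 ((α.g t.1 t.2.1)⁻¹ • y) = t.2.2
    then α.ε t.1 t.2.1 else 0
  let wC : B × K' × C → S.X → ℝ := fun t y =>
    if PB t.1 y ∧ β.b t.1 t.2.1 y = t.2.2 ∧ PC t.2.2 (β.g t.1 t.2.1 • y)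
    then β.ε t.1 t.2.1 else 0
  have mwA : ∀ t, Measurable (wA t) := fun t =>
    Measurable.ite (measurableSet_setOfPred.2
      (((mA _).and (α.mb _ _ _)).comp (measurable_const_smul _))) measurable_const
      measurable_const
  have mwC : ∀ t, Measurable (wC t) := fun t =>
    Measurable.ite (measurableSet_setOfPred.2
      ((mB _).and ((β.mb _ _ _).and ((mC _).comp (measurable_const_smul _))))) measurable_const
      measurable_const
  let T₁ := op S (I := A ⊕ B ⊕ C) (fun t : A × K × B => Sum.inl t.1)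
    (fun t => Sum.inr (Sum.inl t.2.2)) (fun t => (α.g t.1 t.2.1)⁻¹) wA
  let T₂ := op S (I := A ⊕ B ⊕ C) (fun t : B × K' × C => Sum.inr (Sum.inr t.2.2))
    (fun t => Sum.inr (Sum.inl t.1)) (fun t => β.g t.1 t.2.1) wC
  have h₁ : FR (lam S (A ⊕ B ⊕ C)) T₁ :=
    fr_op S _ _ _ mwA (fun t _ => abs_ite_le _ _) fun _ => abs_nonneg _
  have h₂ : FR (lam S (A ⊕ B ⊕ C)) T₂ :=
    fr_op S _ _ _ mwC (fun t _ => abs_ite_le _ _) fun _ => abs_nonneg _
  have hadj := adj_op S (I := A ⊕ B ⊕ C) (fun t : A × K × B => Sum.inl t.1)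
    (fun t => Sum.inr (Sum.inl t.2.2)) (fun t => (α.g t.1 t.2.1)⁻¹) mwA
    (fun t _ => abs_ite_le _ _) fun _ => abs_nonneg _
  -- formulas
  have f1B : ∀ η b y, T₁ η (Sum.inr (Sum.inl b), y) =
      α.push (fun p => if PA p.1 p.2 then η (Sum.inl p.1, p.2) else 0) (b, y) := by
    intro η b y
    rw [op_apply, Fintype.sum_prod_type, Inc.push]
    refine Finset.sum_congr rfl fun a _ => ?_
    rw [Fintype.sum_prod_type]
    refine Finset.sum_congr rfl fun k _ => ?_
    simp only [Sum.inr.injEq, Sum.inl.injEq, Finset.sum_ite_eq, Finset.mem_univ, if_true, wA]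
    by_cases h1 : PA a ((α.g a k)⁻¹ • y) <;> by_cases h2 : α.b a k ((α.g a k)⁻¹ • y) = b <;>
      simp [h1, h2]
  have f1A : ∀ η a y, T₁ η (Sum.inl a, y) = 0 := fun η a y => by rw [op_apply]; simp
  have f1C : ∀ η c y, T₁ η (Sum.inr (Sum.inr c), y) = 0 := fun η c y => by rw [op_apply]; simp
  have f2B : ∀ η b y, T₂ η (Sum.inr (Sum.inl b), y) = if PB b y then
      β.pull (fun q => if PC q.1 q.2 then η (Sum.inr (Sum.inr q.1), q.2) else 0) (b, y) else 0 := by
    intro η b y
    rw [op_apply, Fintype.sum_prod_type, Finset.sum_eq_single b]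
    · by_cases hb : PB b y
      · rw [if_pos hb, Fintype.sum_prod_type, Inc.pull]
        refine Finset.sum_congr rfl fun k _ => ?_
        rw [Finset.sum_eq_single (β.b b k y)]
        · by_cases h : PC (β.b b k y) (β.g b k • y) <;> simp [wC, hb, h]
        · intro c _ hc
          simp [wC, Ne.symm hc]
        · simp
      · simp [wC, hb]
    · intro b' _ hb'
      simp [Ne.symm hb']
    · simp
  have f2A : ∀ η a y, T₂ η (Sum.inl a, y) = 0 := fun η a y => by rw [op_apply]; simp
  have f2C : ∀ η c y, T₂ η (Sum.inr (Sum.inr c), y) = 0 := fun η c y => by rw [op_apply]; simp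
  have key := core (lam := lam S (A ⊕ B ⊕ C)) (measurableSet_fam S mP) (measurableSet_fam S mQ)
    h₁ h₂ ?_ ?_ ?_ ?_ ?_ ?_
  · rwa [lam_real S mP, lam_real S mQ, eP, eQ] at key
  · rintro ⟨i, x⟩ hp
    funext ⟨j, y⟩
    rcases j with a | b | c
    · exact f1A _ _ _
    · rw [f1B]
      have : (fun p : A × S.X => if PA p.1 p.2 then dl (i, x) (Sum.inl p.1, p.2) else 0) = 0 := by
        funext p
        by_cases h : PA p.1 p.2
        · have : (Sum.inl p.1, p.2) ≠ (i, x) := fun e => hp (e ▸ h)
          simp [dl, this]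
        · simp [h]
      rw [this]
      simp [Inc.push]
    · exact f1C _ _ _
  · rintro ⟨i, x⟩ hp
    funext ⟨j, y⟩
    rcases j with a | b | c
    · exact f2A _ _ _
    · rw [f2B]
      have : (fun q : C × S.X =>
          if PC q.1 q.2 then dl (i, x) (Sum.inr (Sum.inr q.1), q.2) else 0) = 0 := by
        funext p
        by_cases h : PC p.1 p.2
        · have : (Sum.inr (Sum.inr p.1), p.2) ≠ (i, x) := fun e => hp (e ▸ h)
          simp [dl, this]
        · simp [h]
      rw [this]
      simp [Inc.pull]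
    · exact f2C _ _ _
  · rintro η ⟨a | b | c, y⟩ hq
    · exact f1A _ _ _
    · rw [f1B, Inc.push]
      refine Finset.sum_eq_zero fun a _ => Finset.sum_eq_zero fun k _ => ?_
      split_ifs with h1 h2
      · refine absurd ?_ hq
        have := hAB a k _ h2
        rw [h1, smul_inv_smul] at this
        exact this
      · simp
      · rfl
    · exact f1C _ _ _
  · rintro η ⟨a | b | c, y⟩ hq
    · exact f2A _ _ _
    · rw [f2B, if_neg (show ¬ PB b y from hq)]
    · exact f2C _ _ _
  · intro ξ η hξ
    rw [hadj ξ _ hξ]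
    convert ip_zero_right ξ
    funext ⟨j, x⟩
    rw [op_apply]
    rcases j with a | b | c
    · by_cases ha : PA a x
      · have := hcomp (fun q => if PC q.1 q.2 then η (Sum.inr (Sum.inr q.1), q.2) else 0)
          (fun q hq => if_neg hq) (a, x) ha
        refine Eq.trans ?_ this
        rw [Fintype.sum_prod_type, Finset.sum_eq_single a, Fintype.sum_prod_type, Inc.pull]
        · refine Finset.sum_congr rfl fun k _ => ?_
          rw [Finset.sum_eq_single (α.b a k x)]
          · rw [if_pos rfl, inv_inv, f2B, if_pos (hAB a k x ha)]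
            simp [wA, ha]
          · intro b _ hb
            simp [wA, Ne.symm hb]
          · simp
        · intro a' _ ha'
          simp [Ne.symm ha']
        · simp
      · refine Finset.sum_eq_zero fun t _ => ?_
        split_ifs with h
        · obtain rfl : a = t.1 := Sum.inl.inj h
          simp [wA, ha]
        · rfl
    · simp
    · simp
  · intro η hη e1 e2
    have hA : ∀ a x, ¬ PA a x → η (Sum.inl a, x) = 0 := fun a x h => hη _ h
    have hC : ∀ c x, ¬ PC c x → η (Sum.inr (Sum.inr c), x) = 0 := fun c x h => hη _ h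
    have r1 := hinjA (fun p => if PA p.1 p.2 then η (Sum.inl p.1, p.2) else 0)
      (fun p hp => if_neg hp) fun q => by rw [← f1B η q.1 q.2, e1]; rfl
    have r2 := hinjC (fun q => if PC q.1 q.2 then η (Sum.inr (Sum.inr q.1), q.2) else 0)
      (fun p hp => if_neg hp) fun q hq => by
        have := f2B η q.1 q.2
        rw [if_pos hq, e2] at this
        exact this.symm
    funext ⟨j, x⟩
    rcases j with a | b | c
    · by_cases h : PA a x
      · simpa [h] using congrFun r1 (a, x)
      · exact hA a x h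
    · exact hη _ fun h => h
    · by_cases h : PC c x
      · simpa [h] using congrFun r2 (c, x)
      · exact hC c x h

end Crest.Agent.R191
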