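import Crest.Agent.R191.Defs

/-! Row 191, module A1: the free part of the Bernoulli shift. -/

set_option autoImplicit false

open MeasureTheory ProbabilityTheory Set
open scoped ENNReal symmDiff

noncomputable section

namespace Crest.Agent.R191

namespace SpaceA

variable {Γ : Type}

instance : IsProbabilityMeasure (bμ Γ) :=
  inferInstanceAs (IsProbabilityMeasure
    (Measure.infinitePi (fun _ : Γ × ℕ => (PMF.uniformOfFintype Bool).toMeasure)))

theorem measurable_coord (p : Γ × ℕ) : Measurable fun x : BX Γ => x p := measurable_pi_apply p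

theorem box_apply (s : Finset (Γ × ℕ)) (w : Γ × ℕ → Bool) :
    bμ Γ {x | ∀ p ∈ s, x p = w p} = 2⁻¹ ^ s.card := by
  have h := Measure.infinitePi_pi (μ := fun _ : Γ × ℕ => (PMF.uniformOfFintype Bool).toMeasure)
    (s := s) (t := fun p => {w p}) (fun p _ => measurableSet_singleton _)
  have h2 : ∀ b : Bool, (PMF.uniformOfFintype Bool).toMeasure {b} = 2⁻¹ := by
    intro b
    rw [PMF.toMeasure_apply_singleton _ _ (measurableSet_singleton _)]
    simp
  simp only [h2, Finset.prod_const] at h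
  exact h

theorem measurableSet_box (s : Finset (Γ × ℕ)) (w : Γ × ℕ → Bool) :
    MeasurableSet {x : BX Γ | ∀ p ∈ s, x p = w p} := by
  have : {x : BX Γ | ∀ p ∈ s, x p = w p} = ⋂ p ∈ s, {x : BX Γ | x p = w p} := by
    ext x; simp
  rw [this]
  exact Finset.measurableSet_biInter _ fun p _ => measurable_coord p (measurableSet_singleton _)

/-- extension of a finite word by `false` -/
def ext {N : ℕ} (w : Fin N → Bool) (p : Γ × ℕ) : Bool := if h : p.2 < N then w ⟨p.2, h⟩ else false

theorem exists_pow_le (ε : ℝ≥0∞) (hε : ε ≠ 0) : ∃ N : ℕ, (2⁻¹ : ℝ≥0∞) ^ N ≤ ε := by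
  obtain ⟨N, hN⟩ := ENNReal.exists_inv_two_pow_lt hε
  exact ⟨N, hN.le⟩

theorem eq_null {g h : Γ} (hgh : g ≠ h) : bμ Γ {x | ∀ n, x (g, n) = x (h, n)} = 0 := by
  classical
  by_contra h0
  obtain ⟨N, hN⟩ := ENNReal.exists_inv_two_pow_lt h0
  refine absurd hN (not_lt.2 ?_)
  have hsub : {x : BX Γ | ∀ n, x (g, n) = x (h, n)} ⊆ ⋃ w : Fin N → Bool,
      {x : BX Γ | ∀ p ∈ ({g, h} : Finset Γ) ×ˢ Finset.range N, x p = ext w p} := by
    intro x hx
    refine mem_iUnion.2 ⟨fun n => x (h, n), fun p hp => ?_⟩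
    simp only [Finset.mem_product, Finset.mem_insert, Finset.mem_singleton, Finset.mem_range] at hp
    obtain ⟨p1, p2⟩ := p
    simp only [ext, dif_pos hp.2]
    rcases hp.1 with rfl | rfl
    · exact hx _
    · rfl
  refine (measure_mono hsub).trans ((measure_iUnion_fintype_le _ _).trans (le_of_eq ?_))
  simp only [box_apply, Finset.card_product, Finset.card_pair hgh, Finset.card_range,
    Finset.sum_const, Finset.card_univ, Fintype.card_fun, Fintype.card_bool, Fintype.card_fin,
    nsmul_eq_mul]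
  rw [two_mul, pow_add, ← mul_assoc, Nat.cast_pow, ← mul_pow, Nat.cast_ofNat,
    ENNReal.mul_inv_cancel (by norm_num) (by norm_num), one_pow, one_mul]

variable [Group Γ]

theorem measurable_smul (g : Γ) : Measurable fun x : BX Γ => g • x :=
  measurable_pi_lambda _ fun p => measurable_coord (g⁻¹ * p.1, p.2)

theorem mp_smul (g : Γ) : MeasurePreserving (fun x : BX Γ => g • x) (bμ Γ) (bμ Γ) := by
  refine ⟨measurable_smul g, ?_⟩
  have hf : Function.Injective fun p : Γ × ℕ => (g⁻¹ * p.1, p.2) := by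
    rintro ⟨a, b⟩ ⟨c, d⟩ h
    simpa using h
  exact Measure.map_infinitePi_infinitePi_of_inj
    (P := fun _ : Γ × ℕ => (PMF.uniformOfFintype Bool).toMeasure) hf

theorem fix_null {g : Γ} (hg : g ≠ 1) : bμ Γ {x | g • x = x} = 0 := by
  refine measure_mono_null ?_ (eq_null (g := g⁻¹) (h := 1) (by simpa using hg))
  intro x hx n
  have := congrFun (show g • x = x from hx) (1, n)
  simpa [BX.smul_apply] using this

theorem mixing_cyl {a : Γ} (ha : ¬ IsOfFinOrder a) {C D : Set (BX Γ)}
    (hC : C ∈ measurableCylinders fun _ : Γ × ℕ => Bool)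
    (hD : D ∈ measurableCylinders fun _ : Γ × ℕ => Bool) :
    ∃ n : ℕ, 1 ≤ n ∧ bμ Γ (C ∩ (fun x => a ^ n • x) ⁻¹' D) = bμ Γ C * bμ Γ D := by
  classical
  have hDm : MeasurableSet D := MeasurableSet.of_mem_measurableCylinders hD
  obtain ⟨s, S, hS, rfl⟩ := (mem_measurableCylinders _).1 hC
  obtain ⟨t, T, hT, hDt⟩ := (mem_measurableCylinders _).1 hD
  have hinj : Function.Injective fun n : ℕ => a ^ n := injective_pow_iff_not_isOfFinOrder.2 ha
  have hfin : ((fun n : ℕ => a ^ n) ⁻¹'
      (Finset.image₂ (fun p q : Γ × ℕ => p.1 * q.1⁻¹) t s : Set Γ)).Finite :=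
    (Finset.finite_toSet _).preimage hinj.injOn
  obtain ⟨n, hn⟩ := (hfin.union (finite_singleton 0)).exists_notMem
  simp only [mem_union, mem_preimage, mem_singleton_iff, not_or] at hn
  refine ⟨n, Nat.one_le_iff_ne_zero.2 hn.2, ?_⟩
  let σ : Γ × ℕ → Γ × ℕ := fun p => ((a ^ n)⁻¹ * p.1, p.2)
  have hdisj : Disjoint s (t.image σ) := by
    rw [Finset.disjoint_left]
    intro q hq hq'
    obtain ⟨p, hp, rfl⟩ := Finset.mem_image.1 hq'
    refine hn.1 (Finset.mem_coe.2 (Finset.mem_image₂.2 ⟨p, hp, _, hq, ?_⟩))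
    simp [σ]
  have hind := (iIndepFun_infinitePi (P := fun _ : Γ × ℕ => (PMF.uniformOfFintype Bool).toMeasure)
    (X := fun _ b => b) (fun _ => measurable_id)).indepFun_finset s (t.image σ) hdisj
    (fun p => measurable_pi_apply p)
  have hφ : Measurable fun (y : (t.image σ) → Bool) (p : t) =>
      y ⟨σ p, Finset.mem_image_of_mem σ p.2⟩ := by fun_prop
  have := (hind.comp measurable_id hφ).measure_inter_preimage_eq_mul S T hS hT
  rw [← (mp_smul (a ^ n)).measure_preimage hDm.nullMeasurableSet, hDt]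
  exact this

theorem recur₀ {a : Γ} (ha : ¬ IsOfFinOrder a) {A U : Set (BX Γ)} (hA : MeasurableSet A)
    (hU : MeasurableSet U) (hA0 : bμ Γ A ≠ 0) (h : ∀ x ∈ U, ∀ m : ℕ, 1 ≤ m → a ^ m • x ∉ A) :
    bμ Γ U = 0 := by
  have hdense : (bμ Γ).MeasureDense (measurableCylinders fun _ : Γ × ℕ => Bool) :=
    Measure.MeasureDense.of_generateFrom_isSetAlgebra_finite _
      (isSetAlgebra_measurableCylinders) generateFrom_measurableCylinders.symm
  by_contra hU0
  have hAp : 0 < (bμ Γ).real A := ENNReal.toReal_pos hA0 (measure_ne_top _ _)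
  have hUp : 0 < (bμ Γ).real U := ENNReal.toReal_pos hU0 (measure_ne_top _ _)
  have hA1 : (bμ Γ).real A ≤ 1 := measureReal_le_one
  have hU1 : (bμ Γ).real U ≤ 1 := measureReal_le_one
  set ε := (bμ Γ).real A * (bμ Γ).real U / 8 with hε
  have hε0 : 0 < ε := by positivity
  obtain ⟨C, hC, hC'⟩ := hdense.approx U hU (measure_ne_top _ _) ε hε0
  obtain ⟨D, hD, hD'⟩ := hdense.approx A hA (measure_ne_top _ _) ε hε0
  obtain ⟨n, hn, hmix⟩ := mixing_cyl ha hC hD
  have hCm := hdense.measurable C hC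
  have hDm := hdense.measurable D hD
  have h1 : (bμ Γ).real (U ∆ C) ≤ ε := ENNReal.toReal_le_of_le_ofReal hε0.le hC'.le
  have h2 : (bμ Γ).real (A ∆ D) ≤ ε := ENNReal.toReal_le_of_le_ofReal hε0.le hD'.le
  have h3 : (bμ Γ).real U ≤ (bμ Γ).real C + ε := by
    refine le_trans (measureReal_mono (s₂ := C ∪ U ∆ C) fun x hx => ?_)
      ((measureReal_union_le _ _).trans (by linarith))
    by_cases hx' : x ∈ C
    · exact Or.inl hx'
    · exact Or.inr (Or.inl ⟨hx, hx'⟩)
  have h4 : (bμ Γ).real A ≤ (bμ Γ).real D + ε := by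
    refine le_trans (measureReal_mono (s₂ := D ∪ A ∆ D) fun x hx => ?_)
      ((measureReal_union_le _ _).trans (by linarith))
    by_cases hx' : x ∈ D
    · exact Or.inl hx'
    · exact Or.inr (Or.inl ⟨hx, hx'⟩)
  have h5 : (bμ Γ).real C * (bμ Γ).real D ≤ 2 * ε := by
    have e : (bμ Γ).real (C ∩ (fun x => a ^ n • x) ⁻¹' D) = (bμ Γ).real C * (bμ Γ).real D := by
      simp only [measureReal_def, hmix, ENNReal.toReal_mul]
    have e2 : (bμ Γ).real ((fun x => a ^ n • x) ⁻¹' (A ∆ D)) = (bμ Γ).real (A ∆ D) := by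
      simp only [measureReal_def,
        (mp_smul (a ^ n)).measure_preimage (hA.symmDiff hDm).nullMeasurableSet]
    rw [← e]
    refine le_trans (measureReal_mono (s₂ := U ∆ C ∪ (fun x => a ^ n • x) ⁻¹' (A ∆ D))
      fun x hx => ?_) ((measureReal_union_le _ _).trans (by linarith))
    by_cases hx' : x ∈ U
    · exact Or.inr (Or.inr ⟨hx.2, h x hx' n hn⟩)
    · exact Or.inl (Or.inr ⟨hx.1, hx'⟩)
  have h6 : ε ≤ (bμ Γ).real A / 8 := by rw [hε]; nlinarith
  have h7 : ε ≤ (bμ Γ).real U / 8 := by rw [hε]; nlinarith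
  have h8 : (7 / 8 * (bμ Γ).real U) * (7 / 8 * (bμ Γ).real A) ≤ (bμ Γ).real C * (bμ Γ).real D :=
    mul_le_mul (by linarith) (by linarith) (by positivity) measureReal_nonneg
  nlinarith

variable (Γ) in
/-- the free points -/
def Fr : Set (BX Γ) := {x | ∀ g : Γ, g • x = x → g = 1}

/-- the action on the free points -/
@[reducible] def frAct : MulAction Γ (Fr Γ) where
  smul g x := ⟨g • x.1, fun h hh => by
    have : (g⁻¹ * h * g) • x.1 = x.1 := by
      rw [mul_smul, mul_smul, hh, inv_smul_smul]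
    have := x.2 _ this
    calc h = g * (g⁻¹ * h * g) * g⁻¹ := by group
      _ = 1 := by rw [this]; group⟩
  one_smul x := Subtype.ext (one_smul _ _)
  mul_smul g h x := Subtype.ext (mul_smul _ _ _)

variable [Countable Γ]

theorem measurableSet_fix (g : Γ) : MeasurableSet {x : BX Γ | g • x = x} := by
  have : {x : BX Γ | g • x = x} = ⋂ p, {x : BX Γ | (g • x) p = x p} := by
    ext x
    simp only [mem_ofPred_eq, mem_iInter]
    exact funext_iff
  rw [this]
  exact MeasurableSet.iInter fun p =>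
    measurableSet_eq_fun ((measurable_coord p).comp (measurable_smul g)) (measurable_coord p)

omit [Countable Γ] in
theorem compl_Fr : (Fr Γ)ᶜ = ⋃ g : {g : Γ // g ≠ 1}, {x : BX Γ | g.1 • x = x} := by
  ext x
  simp [Fr, and_comm]

theorem measurableSet_Fr : MeasurableSet (Fr Γ) := by
  rw [← MeasurableSet.compl_iff, compl_Fr]
  exact MeasurableSet.iUnion fun g => measurableSet_fix g.1

theorem ae_Fr : ∀ᵐ x ∂(bμ Γ), x ∈ Fr Γ := by
  show bμ Γ (Fr Γ)ᶜ = 0
  rw [compl_Fr]
  exact measure_iUnion_null fun g => fix_null g.2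

theorem mp_val : MeasurePreserving (Subtype.val : Fr Γ → BX Γ) ((bμ Γ).comap Subtype.val) (bμ Γ) := by
  have := measurePreserving_subtype_coe (μa := bμ Γ) (measurableSet_Fr (Γ := Γ))
  rwa [Measure.restrict_eq_self_of_ae_mem ae_Fr] at this

theorem comap_apply (D : Set (Fr Γ)) :
    (bμ Γ).comap Subtype.val D = bμ Γ (Subtype.val '' D) :=
  (MeasurableEmbedding.subtype_coe measurableSet_Fr).comap_apply _ _

variable (Γ) in
/-- the free part of the Bernoulli shift -/
def frSp : Sp Γ :=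
  letI : StandardBorelSpace (BX Γ) := inferInstanceAs (StandardBorelSpace (Γ × ℕ → Bool))
  letI := frAct (Γ := Γ)
  { X := Fr Γ
    sb := measurableSet_Fr.standardBorel
    μ := (bμ Γ).comap Subtype.val
    prob := ⟨by rw [← preimage_univ (f := (Subtype.val : Fr Γ → BX Γ)),
      mp_val.measure_preimage MeasurableSet.univ.nullMeasurableSet, measure_univ]⟩
    mc := ⟨fun g => ((measurable_smul g).comp measurable_subtype_coe).subtype_mk⟩
    inv := ⟨fun g D hD => by
      have hD' : MeasurableSet (Subtype.val '' D) :=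
        (MeasurableEmbedding.subtype_coe measurableSet_Fr).measurableSet_image.2 hD
      rw [comap_apply D, ← (mp_smul g).measure_preimage hD'.nullMeasurableSet,
        ← mp_val.measure_preimage (measurable_smul g hD').nullMeasurableSet]
      congr 1
      ext x
      exact (Subtype.val_injective.mem_set_image (a := g • x)).symm⟩
    free := fun g x h => x.2 g (congrArg Subtype.val h) }

theorem frSp_cover : (frSp Γ).Cover := by
  classical
  intro ε hε
  obtain ⟨N, hN⟩ := exists_pow_le (ENNReal.ofReal ε) (by simpa using hε)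
  let e := (Fintype.equivFin (Fin N → Bool)).symm
  refine ⟨_, fun k => Subtype.val ⁻¹'
    {x : BX Γ | ∀ p ∈ ({1} : Finset Γ) ×ˢ Finset.range N, x p = ext (e k) p},
    fun k => measurable_subtype_coe (measurableSet_box _ _), fun k => ?_, fun x => ?_⟩
  · refine ENNReal.toReal_le_of_le_ofReal hε.le (le_trans (le_of_eq ?_) hN)
    refine (mp_val.measure_preimage (measurableSet_box _ _).nullMeasurableSet).trans ?_
    rw [box_apply]
    simp
  · refine ⟨e.symm fun n => x.1 (1, n), fun p hp => ?_⟩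
    simp only [Finset.mem_product, Finset.mem_singleton, Finset.mem_range] at hp
    obtain ⟨p1, p2⟩ := p
    obtain ⟨rfl, hp⟩ := hp
    simp only [Equiv.apply_symm_apply, ext, dif_pos hp]

theorem frSp_recur : (frSp Γ).Recur := by
  intro a ha A hA hA0
  have hA' : MeasurableSet (Subtype.val '' (show Set (Fr Γ) from A)) :=
    (MeasurableEmbedding.subtype_coe measurableSet_Fr).measurableSet_image.2 hA
  have hU : MeasurableSet {x : BX Γ | ∀ m : ℕ, 1 ≤ m →
      a ^ m • x ∉ Subtype.val '' (show Set (Fr Γ) from A)} := by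
    rw [ofPred_forall]
    exact MeasurableSet.iInter fun m => (MeasurableSet.const _).imp (measurable_smul _ hA').compl
  have h0 := recur₀ ha hA' hU (by rwa [← comap_apply]) fun x hx => hx
  rw [← mp_val.measure_preimage hU.nullMeasurableSet] at h0
  refine measure_mono_null ?_ h0
  intro x hx m hm hx'
  obtain ⟨y, hy, e⟩ := hx'
  refine hx ⟨m, hm, ?_⟩
  have : a ^ m • x = y := Subtype.ext e.symm
  rw [this]
  exact hy

theorem frSp_expand (h : ExpandAt Γ (bμ Γ)) : (frSp Γ).Expand := by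
  intro ι _ b hb D hD
  have hD' : MeasurableSet (Subtype.val '' (show Set (Fr Γ) from D)) :=
    (MeasurableEmbedding.subtype_coe measurableSet_Fr).measurableSet_image.2 hD
  have := h ι b hb _ hD'
  have e1 : (frSp Γ).μ.real D = (bμ Γ).real (Subtype.val '' (show Set (Fr Γ) from D)) :=
    congrArg ENNReal.toReal (comap_apply D)
  rw [e1]
  refine le_trans (le_of_eq (Finset.sum_congr rfl fun i _ => ?_)) this
  refine (congrArg ENNReal.toReal (comap_apply _)).trans ?_
  congr 2
  ext x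
  constructor
  · rintro ⟨y, ⟨hy, hy'⟩, rfl⟩
    exact ⟨⟨y, hy, rfl⟩, ⟨_, hy', rfl⟩⟩
  · rintro ⟨⟨y, hy, rfl⟩, z, hz, e⟩
    refine ⟨y, ⟨hy, ?_⟩, rfl⟩
    have : (b i)⁻¹ • (show (frSp Γ).X from y) = z := Subtype.ext e.symm
    exact this.symm ▸ hz |> fun h : (b i)⁻¹ • (show (frSp Γ).X from y) ∈ D => h

end SpaceA

theorem spaceStmt_of (h : ExpandStmt) : SpaceStmt := fun Γ _ _ =>
  ⟨SpaceA.frSp Γ, SpaceA.frSp_cover, SpaceA.frSp_recur, SpaceA.frSp_expand (h Γ)⟩

end Crest.Agent.R191
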