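import Crest.Agent.R191.Defs

/-! Row 191, module (B): cheap actions on `X × ZMod N`. -/

set_option autoImplicit false

open MeasureTheory

noncomputable section

namespace Crest.Agent.R191

/-- A finite generating family bounds the cost. -/
theorem actionCost_le_sum {Γ Y K : Type} [Group Γ] [MulAction Γ Y] [MeasurableSpace Y]
    [Fintype K] (ν : Measure Y) (f : K → Γ × Set Y) (hm : ∀ k, MeasurableSet (f k).2)
    (hgen : ∀ r : Y → Y → Prop, Equivalence r → (∀ k y, y ∈ (f k).2 → r y ((f k).1 • y)) →
      ∀ (y : Y) (g : Γ), r y (g • y)) :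
    Crest.Dynamics.actionCost Γ Y ν ≤ ∑ k, ν (f k).2 := by
  classical
  obtain ⟨enc, henc⟩ := exists_injective_nat K
  let Φ : ℕ → Γ × Set Y := Function.extend enc f (fun _ => (1, ∅))
  have hΦ : ∀ k, Φ (enc k) = f k := fun k => henc.extend_apply _ _ k
  have hΦ' : ∀ n, (¬ ∃ k, enc k = n) → Φ n = (1, ∅) := fun n hn =>
    Function.extend_apply' _ _ _ hn
  refine sInf_le ⟨Φ, ⟨?_, ∅, measure_empty, ?_⟩, ?_⟩
  · intro n
    by_cases hn : ∃ k, enc k = n
    · obtain ⟨k, rfl⟩ := hn
      rw [hΦ]; exact hm k
    · rw [hΦ' n hn]; exact MeasurableSet.empty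
  · intro x _ g
    refine hgen _ (Relation.EqvGen.is_equivalence _) ?_ x g
    intro k y hy
    refine Relation.EqvGen.rel _ _ ⟨enc k, ?_, ?_⟩
    · rw [hΦ]; exact hy
    · rw [hΦ]
  · unfold Crest.Dynamics.graphingCost
    rw [← henc.tsum_eq (f := fun n => ν (Φ n).2)]
    · rw [tsum_fintype]
      exact Finset.sum_congr rfl fun k _ => by rw [hΦ]
    · intro n hn
      by_contra h
      apply hn
      have : ¬ ∃ k, enc k = n := h
      simp [hΦ' n this]

/-- The combinatorial core: `t`-steps everywhere and `a`-steps on level `0` generate. -/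
theorem gen_of_levels {Γ Y : Type} [Group Γ] [MulAction Γ Y] (P : Pres Γ) (N : ℕ) [NeZero N]
    (lev : Y → ZMod N)
    (hlev : ∀ (g : Γ) (y : Y), lev (g • y) = lev y + (((P.ht g).toAdd : ℤ) : ZMod N))
    (r : Y → Y → Prop) (hr : Equivalence r)
    (ht : ∀ y, r y ((P.val none)⁻¹ • y))
    (h0 : ∀ i y, lev y = 0 → r y ((P.val (some i))⁻¹ • y)) (y : Y) (g : Γ) : r y (g • y) := by
  -- the claim at level `lam`
  let A : ZMod N → Prop := fun lam => ∀ i y, lev y = lam → r y ((P.val (some i))⁻¹ • y)
  -- signed letters, given the claim at the relevant level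
  have hsign : ∀ (σ : Option P.ι × Bool) (y : Y), (∀ i, σ.1 = some i → A (lev y)) →
      r y ((lv P.val σ)⁻¹ • y) := by
    rintro ⟨s, b⟩ y hA
    cases s with
    | none =>
      cases b with
      | true => exact ht y
      | false =>
        have := ht (P.val none • y)
        rw [inv_smul_smul] at this
        simpa [lv] using hr.symm this
    | some i =>
      have hA' := hA i rfl
      cases b with
      | true => exact hA' i y rfl
      | false =>
        have h1 : lev (P.val (some i) • y) = lev y := by
          rw [hlev, P.ht_a]; simp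
        have := hA' i _ h1
        rw [inv_smul_smul] at this
        simpa [lv] using hr.symm this
  have hstep : ∀ lam, A (lam + 1) → A lam := by
    intro lam hA i y hy
    have hl : 1 ≤ P.l := Nat.one_le_iff_ne_zero.2 (NeZero.ne _)
    have hk : ∀ k : ZMod P.l, k ≠ 0 →
        r ((P.pre i k)⁻¹ • y) ((P.pre i (k + 1))⁻¹ • y) := by
      intro k hk
      rw [P.pre_succ, mul_inv_rev, mul_smul]
      apply hsign
      intro i' hi'
      have : lev ((P.pre i k)⁻¹ • y) = lam + 1 := by
        rw [hlev, map_inv, P.low i k i' hk hi', hy]; simp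
      rw [this]; exact hA
    have hn : ∀ n : ℕ, n + 1 ≤ P.l →
        r ((P.pre i 1)⁻¹ • y) ((P.pre i ((n + 1 : ℕ) : ZMod P.l))⁻¹ • y) := by
      intro n
      induction n with
      | zero => intro _; simpa using hr.refl _
      | succ n ih =>
        intro hn
        refine hr.trans (ih (by omega)) ?_
        have hne : ((n + 1 : ℕ) : ZMod P.l) ≠ 0 := by
          intro h
          rw [ZMod.natCast_eq_zero_iff] at h
          have := Nat.le_of_dvd (by omega) h
          omega
        have := hk _ hne
        rwa [← Nat.cast_succ] at this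
    have h1 := hn (P.l - 1) (by omega)
    rw [Nat.sub_add_cancel hl, ZMod.natCast_self, P.pre_zero, inv_one, one_smul] at h1
    have h2 : P.pre i 1 = P.val (some i) := by
      have := P.pre_succ i 0
      rw [zero_add, P.pre_zero, one_mul, P.top] at this
      exact this
    rw [h2] at h1
    exact hr.symm h1
  have hneg : ∀ n : ℕ, A (-(n : ZMod N)) := by
    intro n
    induction n with
    | zero => simpa using h0
    | succ n ih =>
      apply hstep
      have : (-((n + 1 : ℕ) : ZMod N) + 1) = -(n : ZMod N) := by push_cast; ring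
      rw [this]; exact ih
  have hall : ∀ lam, A lam := by
    intro lam
    have := hneg (-lam).val
    rwa [ZMod.natCast_zmod_val, neg_neg] at this
  have hword : ∀ (W : List (Option P.ι × Bool)) (y : Y), r y ((wv P.val W)⁻¹ • y) := by
    intro W
    induction W with
    | nil => intro y; simpa [wv] using hr.refl y
    | cons σ W ih =>
      intro y
      have : wv P.val (σ :: W) = lv P.val σ * wv P.val W := by simp [wv]
      rw [this, mul_inv_rev, mul_smul]
      exact hr.trans (hsign σ y fun _ _ => hall _) (ih _)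
  obtain ⟨W, hW⟩ := P.gen g⁻¹
  have := hword W y
  rwa [hW, inv_inv] at this

/-- the skew action on `X × ZMod N` -/
@[reducible] def cycAct {Γ : Type} [Group Γ] (P : Pres Γ) (S : Sp Γ) (N : ℕ) :
    MulAction Γ (S.X × ZMod N) where
  smul g y := (g • y.1, y.2 + (((P.ht g).toAdd : ℤ) : ZMod N))
  one_smul y := by
    change ((1 : Γ) • y.1, y.2 + (((P.ht 1).toAdd : ℤ) : ZMod N)) = y
    simp
  mul_smul g h y := by
    change ((g * h) • y.1, y.2 + (((P.ht (g * h)).toAdd : ℤ) : ZMod N)) =
      (g • h • y.1, y.2 + (((P.ht h).toAdd : ℤ) : ZMod N) + (((P.ht g).toAdd : ℤ) : ZMod N))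
    simp only [mul_smul, map_mul, toAdd_mul, Int.cast_add, Prod.mk.injEq, true_and]
    ring

theorem upperStmt : UpperStmt := by
  intro Γ _ P S N hN
  haveI : NeZero N := ⟨by omega⟩
  let u : Measure (ZMod N) := (N : ENNReal)⁻¹ • Measure.count
  have hN0 : (N : ENNReal) ≠ 0 := by exact_mod_cast (NeZero.ne N)
  have hNt : (N : ENNReal) ≠ ⊤ := ENNReal.natCast_ne_top N
  haveI hu : IsProbabilityMeasure u := ⟨by
    simp only [u, Measure.smul_apply, Measure.count_univ, smul_eq_mul]
    rw [ENat.card_eq_coe_fintype_card, ZMod.card]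
    simpa using ENNReal.inv_mul_cancel hN0 hNt⟩
  have hmp : ∀ c : ZMod N, MeasurePreserving (fun k : ZMod N => k + c) u u := fun c =>
    measurePreserving_add_right u c
  letI act := cycAct P S N
  have hsm : ∀ (g : Γ) (y : S.X × ZMod N),
      HSMul.hSMul g y = (g • y.1, y.2 + (((P.ht g).toAdd : ℤ) : ZMod N)) := fun _ _ => rfl
  refine ⟨S.X × ZMod N, inferInstance, inferInstance, S.μ.prod u, inferInstance, act, ⟨?_, ?_⟩, ?_⟩
  · intro g
    exact (measurePreserving_smul g S.μ).prod (hmp _)
  · intro g hg
    have : {y : S.X × ZMod N | g • y = y} = ∅ := by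
      ext y
      simp only [Set.mem_setOf_eq, Set.mem_empty_iff_false, iff_false]
      intro h
      exact hg (S.free g y.1 (congrArg Prod.fst h))
    rw [this, measure_empty]
  · let f : Option P.ι → Γ × Set (S.X × ZMod N) := fun s =>
      ((P.val s)⁻¹, match s with
        | none => Set.univ
        | some _ => Set.univ ×ˢ {0})
    have hm : ∀ k, MeasurableSet (f k).2 := by
      rintro (_ | i)
      · exact MeasurableSet.univ
      · exact MeasurableSet.univ.prod (measurableSet_singleton _)
    refine (actionCost_le_sum (S.μ.prod u) f hm ?_).trans (le_of_eq ?_)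
    · intro r hr hf y g
      refine gen_of_levels P N Prod.snd (fun _ _ => rfl) r hr (fun y => hf none y trivial) ?_ y g
      intro i y hy
      exact hf (some i) y ⟨trivial, hy⟩
    · rw [Fintype.sum_option]
      have h1 : (S.μ.prod u) (f none).2 = 1 := measure_univ
      have h2 : ∀ i, (S.μ.prod u) (f (some i)).2 = (N : ENNReal)⁻¹ := by
        intro i
        change (S.μ.prod u) (Set.univ ×ˢ {0}) = _
        rw [Measure.prod_prod]
        simp [u]
      rw [h1, Finset.sum_congr rfl fun i _ => h2 i]
      simp [div_eq_mul_inv]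

end Crest.Agent.R191
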